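import Vale.Agent.P298.H928.Th

/-!
# P298 / H928 (row E1-BASE), part 8: properties of the charts `Th w d`
-/

open Set Filter Metric Topology Polynomial

noncomputable section

namespace Vale.Agent.P298.H928

/-- monomial times unit near the origin -/
def MU (F : ℂ × ℂ → ℂ) (i j : ℕ) : Prop :=
  ∃ U : ℂ × ℂ → ℂ, AnalyticAt ℂ U 0 ∧ U 0 ≠ 0 ∧
    ∀ᶠ q in 𝓝 (0 : ℂ × ℂ), F q = q.1 ^ i * q.2 ^ j * U q

theorem tendsto_swap : Tendsto (fun q : ℂ × ℂ => ((q.2, q.1) : ℂ × ℂ)) (𝓝 0) (𝓝 0) := by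
  have : ContinuousAt (fun q : ℂ × ℂ => ((q.2, q.1) : ℂ × ℂ)) 0 := by fun_prop
  simpa [ContinuousAt, Prod.mk_zero_zero] using this

theorem MU.swap {F : ℂ × ℂ → ℂ} {i j : ℕ} (h : MU F i j) : MU (fun q => F (q.2, q.1)) j i := by
  obtain ⟨U, h1, h2, h3⟩ := h
  refine ⟨fun q => U (q.2, q.1), h1.comp_of_eq (analyticAt_snd.prod analyticAt_fst) rfl, h2, ?_⟩
  filter_upwards [tendsto_swap.eventually h3] with q hq
  rw [hq]
  ring

theorem analyticAt_shear {φ : ℂ → ℂ} (hφ : AnalyticAt ℂ φ 0) :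
    AnalyticAt ℂ (fun q : ℂ × ℂ => ((q.1, q.2 + φ q.1) : ℂ × ℂ)) 0 :=
  analyticAt_fst.prod (analyticAt_snd.add (hφ.comp_of_eq analyticAt_fst rfl))

theorem tendsto_shear {φ : ℂ → ℂ} (hφ : AnalyticAt ℂ φ 0) (hφ0 : φ 0 = 0) :
    Tendsto (fun q : ℂ × ℂ => ((q.1, q.2 + φ q.1) : ℂ × ℂ)) (𝓝 0) (𝓝 0) := by
  have h := (analyticAt_shear hφ).continuousAt
  rw [ContinuousAt] at h
  simpa [hφ0, Prod.mk_zero_zero] using h

namespace Tree

variable {H : ℂ × ℂ → ℂ} (T : Tree H)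

theorem nc_ew {w : List (Option ℂ)} (hw : w ∈ T.C) (d : Option ℂ) :
    NC (fun q => H (psi (T.ew w d) q)) := by
  obtain ⟨e, u, h1, h2, h3⟩ := T.ew_eq hw d
  rw [h1]
  exact T.nc u h2 e h3

theorem phi_ew (hH0 : H 0 = 0) {w : List (Option ℂ)} {d : Option ℂ} (hw : w ∈ T.C)
    (h : d :: w ∈ T.C) : phi H (T.ew w d) = fun _ => 0 :=
  phi_of_zero (T.nc_ew hw d) (.of_forall fun a => by
    rw [psi_snd_zero (T.exc_ew h), hH0])

theorem analyticAt_phi {w : List (Option ℂ)} (hw : w ∈ T.C) {d : Option ℂ} (h : d :: w ∉ T.C) :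
    AnalyticAt ℂ (phi H (d :: w)) 0 := (phi_spec (T.nc w hw d h)).1

theorem phi_zero {w : List (Option ℂ)} (hw : w ∈ T.C) {d : Option ℂ} (h : d :: w ∉ T.C) :
    phi H (d :: w) 0 = 0 := (phi_spec (T.nc w hw d h)).2.1

/-- the chart is analytic at the origin -/
theorem analyticAt_Th {w : List (Option ℂ)} (hw : w ∈ T.C) (d : Option ℂ) :
    AnalyticAt ℂ (T.Th w d) 0 := by
  by_cases h : d :: w ∈ T.C
  · have h1 : T.Th w d = fun q => psi (T.ew w d) (q.2, q.1) := funext (T.Th_of_mem h)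
    rw [h1]
    exact (analyticAt_psi _ _).comp (analyticAt_snd.prod analyticAt_fst)
  · have h1 : T.Th w d = fun q => psi (d :: w) (q.1, q.2 + phi H (d :: w) q.1) :=
      funext (T.Th_of_notMem h)
    rw [h1]
    exact (analyticAt_psi _ _).comp (analyticAt_shear (T.analyticAt_phi hw h))

theorem Th_zero {w : List (Option ℂ)} (hw : w ∈ T.C) (d : Option ℂ) : T.Th w d 0 = 0 := by
  by_cases h : d :: w ∈ T.C
  · rw [T.Th_of_mem h]
    exact psi_zero _
  · rw [T.Th_of_notMem h]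
    simp [T.phi_zero hw h, Prod.mk_zero_zero, -psi_cons]

/-- the curve of the vertex is contracted -/
theorem Th_fst_zero (w : List (Option ℂ)) (d : Option ℂ) (t : ℂ) : T.Th w d (0, t) = 0 := by
  rw [Th, zero_mul]
  exact psi_fst_zero d w _

/-- `H` is a monomial times a unit in the chart -/
theorem mu_Th (hH0 : H 0 = 0) {w : List (Option ℂ)} (hw : w ∈ T.C) (d : Option ℂ) :
    ∃ p q : ℕ, 0 < p ∧ MU (fun x => H (T.Th w d x)) p q := by
  have key : ∃ p q : ℕ, MU (fun x => H (T.Th w d x)) p q := by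
    by_cases h : d :: w ∈ T.C
    · obtain ⟨-, -, -, p, ν, U, hU, hU0, hH⟩ := phi_spec (T.nc_ew hw d)
      rw [T.phi_ew hH0 hw h] at hH
      have h1 : MU (fun q => H (psi (T.ew w d) q)) p ν := by
        refine ⟨U, hU, hU0, ?_⟩
        filter_upwards [hH] with q hq
        rw [hq, sub_zero]
      refine ⟨ν, p, ?_⟩
      have h2 := h1.swap
      obtain ⟨V, h3, h4, h5⟩ := h2
      refine ⟨V, h3, h4, ?_⟩
      filter_upwards [h5] with q hq
      rw [← hq, T.Th_of_mem h]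
    · obtain ⟨hφ, hφ0, -, p, ν, U, hU, hU0, hH⟩ := phi_spec (T.nc w hw d h)
      refine ⟨p, ν, fun q => U (q.1, q.2 + phi H (d :: w) q.1),
        hU.comp_of_eq (analyticAt_shear hφ) (by simp [hφ0, Prod.mk_zero_zero]),
        by simpa [hφ0, Prod.mk_zero_zero] using hU0, ?_⟩
      filter_upwards [(tendsto_shear hφ hφ0).eventually hH] with q hq
      rw [T.Th_of_notMem h, hq, add_sub_cancel_right]
  obtain ⟨p, q, U, h1, h2, h3⟩ := key
  refine ⟨p, q, Nat.pos_of_ne_zero ?_, U, h1, h2, h3⟩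
  rintro rfl
  -- on `s = 0` the function vanishes
  have h4 : Tendsto (fun t : ℂ => ((0, t) : ℂ × ℂ)) (𝓝 0) (𝓝 0) :=
    (Continuous.prodMk_right (0 : ℂ)).continuousAt
  have h5 : ∀ᶠ x in 𝓝 (0 : ℂ × ℂ), U x ≠ 0 := h1.continuousAt.eventually_ne h2
  have h6 := (h4.eventually (h3.and h5)).filter_mono (nhdsWithin_le_nhds (s := {0}ᶜ))
  obtain ⟨t, ⟨h7, h8⟩, ht⟩ := (h6.and self_mem_nhdsWithin).exists
  dsimp only at h7
  rw [T.Th_fst_zero, hH0, pow_zero, one_mul] at h7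
  have h9 := (mul_eq_zero.1 h7.symm).resolve_right h8
  exact ht (eq_zero_of_pow_eq_zero h9)

theorem jac_shear {φ : ℂ → ℂ} {q : ℂ × ℂ} (hφ : AnalyticAt ℂ φ q.1) :
    jac (fun q : ℂ × ℂ => ((q.1, q.2 + φ q.1) : ℂ × ℂ)) q = 1 := by
  have h1 : HasFDerivAt (fun q : ℂ × ℂ => φ q.1)
      ((ContinuousLinearMap.toSpanSingleton ℂ (deriv φ q.1)).comp
        (ContinuousLinearMap.fst ℂ ℂ ℂ)) q :=
    (hφ.differentiableAt.hasDerivAt.hasFDerivAt).comp q hasFDerivAt_fst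
  have h2 : HasFDerivAt (fun q : ℂ × ℂ => ((q.1, q.2 + φ q.1) : ℂ × ℂ)) _ q :=
    (hasFDerivAt_fst (𝕜 := ℂ) (p := q)).prodMk ((hasFDerivAt_snd (p := q)).add h1)
  rw [jac_of_hasFDerivAt h2]
  simp

theorem jac_swap (q : ℂ × ℂ) : jac (fun q : ℂ × ℂ => ((q.2, q.1) : ℂ × ℂ)) q = -1 := by
  have h2 := (hasFDerivAt_snd (𝕜 := ℂ) (p := q)).prodMk (hasFDerivAt_fst (𝕜 := ℂ) (p := q))
  rw [jac_of_hasFDerivAt h2]
  simp

/-- the Jacobian of the chart is a monomial times a unit -/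
theorem mu_jac_Th (hH0 : H 0 = 0) {w : List (Option ℂ)} (hw : w ∈ T.C) (d : Option ℂ) :
    ∃ i j : ℕ, MU (jac (T.Th w d)) i j := by
  by_cases h : d :: w ∈ T.C
  · obtain ⟨i, j, V, hV, hV0, hJ, -, -⟩ := jac_psi (T.ew w d)
    have h1 : T.Th w d = fun q => psi (T.ew w d) (q.2, q.1) := funext (T.Th_of_mem h)
    refine ⟨j, i, fun q => -V (q.2, q.1), (hV.comp_of_eq (analyticAt_snd.prod analyticAt_fst)
      rfl).neg, neg_ne_zero.2 hV0, .of_forall fun q => ?_⟩
    have h2 : jac (T.Th w d) q = jac (psi (T.ew w d)) (q.2, q.1) *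
        jac (fun q : ℂ × ℂ => ((q.2, q.1) : ℂ × ℂ)) q := by
      rw [h1]
      exact jac_comp (analyticAt_psi _ _).differentiableAt (by fun_prop)
    rw [h2, hJ, jac_swap]
    ring
  · obtain ⟨i, j, V, hV, hV0, hJ, hj, -⟩ := jac_psi (d :: w)
    have h1 : T.Th w d = fun q => psi (d :: w) (q.1, q.2 + phi H (d :: w) q.1) :=
      funext (T.Th_of_notMem h)
    have hφ := T.analyticAt_phi hw h
    have hφ0 := T.phi_zero hw h
    refine ⟨i, j, fun q => V (q.1, q.2 + phi H (d :: w) q.1),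
        hV.comp_of_eq (analyticAt_shear hφ) (by simp [hφ0, Prod.mk_zero_zero]),
        by simpa [hφ0, Prod.mk_zero_zero] using hV0, ?_⟩
    filter_upwards [(continuous_fst.tendsto (0 : ℂ × ℂ)).eventually hφ.eventually_analyticAt]
      with q hq
    have h2 : jac (T.Th w d) q = jac (psi (d :: w)) (q.1, q.2 + phi H (d :: w) q.1) *
        jac (fun q : ℂ × ℂ => ((q.1, q.2 + phi H (d :: w) q.1) : ℂ × ℂ)) q := by
      rw [h1]
      refine jac_comp (analyticAt_psi _ _).differentiableAt ?_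
      exact (analyticAt_fst.prod (analyticAt_snd.add
        (hq.comp_of_eq analyticAt_fst rfl))).differentiableAt
    rw [h2, hJ, jac_shear hq, mul_one]
    rcases Nat.eq_zero_or_pos j with rfl | hj0
    · rw [pow_zero, pow_zero]
    · have h3 := phi_of_zero (T.nc w hw d h) (.of_forall fun a => by
        rw [psi_snd_zero (hj hj0), hH0])
      rw [h3, add_zero]

/-- the chart is injective off the axes -/
theorem injOn_Th (hH0 : H 0 = 0) {w : List (Option ℂ)} (hw : w ∈ T.C) (d : Option ℂ) :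
    ∃ r > 0, InjOn (T.Th w d) {q | ‖q‖ < r ∧ q.1 ≠ 0 ∧ q.2 ≠ 0} ∧
      ∀ q, ‖q‖ < r → q.1 ≠ 0 → q.2 ≠ 0 → T.Th w d q ≠ 0 := by
  obtain ⟨p, ν, -, U, h1, h2, h3⟩ := T.mu_Th hH0 hw d
  have h5 : ∀ᶠ x in 𝓝 (0 : ℂ × ℂ), U x ≠ 0 := h1.continuousAt.eventually_ne h2
  obtain ⟨r, hr, hb⟩ := Metric.eventually_nhds_iff_ball.1 (h3.and h5)
  have hne : ∀ q : ℂ × ℂ, ‖q‖ < r → q.1 ≠ 0 → q.2 ≠ 0 → T.Th w d q ≠ 0 := by
    intro q hq hq1 hq2 h0
    obtain ⟨h6, h7⟩ := hb q (mem_ball_zero_iff.2 hq)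
    dsimp only at h6
    rw [h0, hH0] at h6
    exact mul_ne_zero (mul_ne_zero (pow_ne_zero _ hq1) (pow_ne_zero _ hq2)) h7 h6.symm
  refine ⟨r, hr, ?_, hne⟩
  rintro q ⟨hq, hq1, hq2⟩ q' ⟨hq', hq1', hq2'⟩ he
  have hn := hne q hq hq1 hq2
  have hn' := hne q' hq' hq1' hq2'
  by_cases h : d :: w ∈ T.C
  · rw [T.Th_of_mem h] at he hn hn'
    rw [T.Th_of_mem h] at he
    have h6 := psi_injOn (T.ew w d) hn hn' he
    rw [Prod.mk.injEq] at h6
    exact Prod.ext h6.2 h6.1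
  · rw [T.Th_of_notMem h] at he hn hn'
    rw [T.Th_of_notMem h] at he
    have h6 := psi_injOn (d :: w) hn hn' he
    rw [Prod.mk.injEq] at h6
    obtain ⟨h7, h8⟩ := h6
    refine Prod.ext h7 ?_
    rw [← h7] at h8
    exact add_right_cancel h8

/-- (B2): for every choice of radii finitely many charts cover a punctured neighbourhood -/
theorem Th_cover (ρ : List (Option ℂ) → Option ℂ → ℝ) (hρ : ∀ w d, 0 < ρ w d) :
    ∃ (F : Finset (List (Option ℂ) × Option ℂ)) (r : ℝ),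
      (∀ x ∈ F, x.1 ∈ T.C ∧ x.2 :: x.1 ∉ T.C) ∧ 0 < r ∧
      ∀ q : ℂ × ℂ, ‖q‖ < r → q ≠ 0 → ∃ x ∈ F, ∃ p : ℂ × ℂ, ‖p‖ < ρ x.1 x.2 ∧
        T.Th x.1 x.2 p = q := by
  classical
  have h1 : ∀ x : Option ℂ × List (Option ℂ), ∃ r : ℝ, 0 < r ∧ (x.2 ∈ T.C → x.1 :: x.2 ∉ T.C →
      ∀ q : ℂ × ℂ, ‖q‖ < r → ‖((q.1, q.2 - phi H (x.1 :: x.2) q.1) : ℂ × ℂ)‖ < ρ x.2 x.1) := by
    intro x
    by_cases h : x.2 ∈ T.C ∧ x.1 :: x.2 ∉ T.C
    · have hφ := T.analyticAt_phi h.1 h.2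
      have hφ0 := T.phi_zero h.1 h.2
      have h2 := tendsto_shear hφ.neg (by rw [Pi.neg_apply, hφ0, neg_zero])
      obtain ⟨r, hr, hb⟩ := Metric.eventually_nhds_iff_ball.1
        (h2.eventually (ball_mem_nhds (0 : ℂ × ℂ) (hρ x.2 x.1)))
      refine ⟨r, hr, fun _ _ q hq => ?_⟩
      have h3 := hb q (mem_ball_zero_iff.2 hq)
      rw [dist_zero_right] at h3
      exact h3
    · exact ⟨1, one_pos, fun h3 h4 => absurd ⟨h3, h4⟩ h⟩
  choose r hr hr' using h1
  obtain ⟨F, r₀, hF, hr₀, hcov⟩ := psi_cover T.nil_mem r hr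
  refine ⟨F.image fun x => (x.2, x.1), r₀, ?_, hr₀, fun q hq hq0 => ?_⟩
  · intro x hx
    obtain ⟨y, hy, rfl⟩ := Finset.mem_image.1 hx
    exact hF hy
  · obtain ⟨x, hx, p, hp, hpq⟩ := hcov q hq hq0
    obtain ⟨hx1, hx2⟩ := hF hx
    refine ⟨(x.2, x.1), Finset.mem_image_of_mem _ hx,
      (p.1, p.2 - phi H (x.1 :: x.2) p.1), hr' x hx1 hx2 p hp, ?_⟩
    rw [T.Th_of_notMem hx2]
    dsimp only
    rw [sub_add_cancel]
    exact hpq

/-! ### nodes -/

/-- the node between two places -/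
theorem Th_swap (hH0 : H 0 = 0) {w : List (Option ℂ)} (hw : w ∈ T.C) {d : Option ℂ}
    (h : d :: w ∈ T.C) : ∃ u e, u ∈ T.C ∧ e :: u ∉ T.C ∧ T.ew w d = e :: u ∧
      T.ew u e = e :: u ∧ ∀ q : ℂ × ℂ, T.Th u e q = T.Th w d (q.2, q.1) := by
  obtain ⟨e, u, h1, h2, h3⟩ := T.ew_eq hw d
  refine ⟨u, e, h2, h3, h1, T.ew_of_notMem h3, fun q => ?_⟩
  have h4 := T.phi_ew hH0 hw h
  rw [h1] at h4
  rw [T.Th_of_notMem h3, T.Th_of_mem h, h1, h4, add_zero]

theorem replicate_mem {v : List (Option ℂ)} {k j : ℕ} (hj : j ≤ k)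
    (h : List.replicate k (some 0) ++ v ∈ T.C) : List.replicate j (some 0) ++ v ∈ T.C := by
  induction k with
  | zero =>
    obtain rfl : j = 0 := by omega
    exact h
  | succ k ih =>
    rcases hj.lt_or_eq with h1 | rfl
    · rw [List.replicate_succ, List.cons_append] at h
      exact ih (by omega) (T.tail_mem _ _ h)
    · exact h

theorem kk_eq {w : List (Option ℂ)} {d : Option ℂ} {k : ℕ}
    (h : List.replicate k (some 0) ++ none :: d :: w ∉ T.C)
    (h' : ∀ j < k, List.replicate j (some 0) ++ none :: d :: w ∈ T.C) : T.kk w d = k := by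
  refine le_antisymm (Nat.sInf_le h) ?_
  by_contra hcon
  push Not at hcon
  exact T.kk_notMem w d (h' _ hcon)

/-- shape of the words whose second axis is exceptional -/
theorem exc_iff {v : List (Option ℂ)} : exc v ↔ ∃ (k : ℕ) (d : Option ℂ) (w : List (Option ℂ)),
    v = List.replicate k (some 0) ++ none :: d :: w := by
  constructor
  · intro h
    induction v with
    | nil => exact h.elim
    | cons e u ih =>
      cases e with
      | none =>
        cases u with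
        | nil => exact absurd rfl h
        | cons d w => exact ⟨0, d, w, rfl⟩
      | some c =>
        obtain ⟨rfl, h2⟩ := h
        obtain ⟨k, d, w, rfl⟩ := ih h2
        exact ⟨k + 1, d, w, by rw [List.replicate_succ, List.cons_append]⟩
  · rintro ⟨k, d, w, rfl⟩
    rw [exc_replicate]
    simp [exc]

/-- an end of the tree with exceptional second axis is a node: the other vertex -/
theorem node_of_exc {u : List (Option ℂ)} {e : Option ℂ} (hu : u ∈ T.C) (he : e :: u ∉ T.C)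
    (h : exc (e :: u)) : ∃ w d, w ∈ T.C ∧ d :: w ∈ T.C ∧ T.ew w d = e :: u := by
  obtain ⟨k, d, w, hk⟩ := exc_iff.1 h
  have h1 : d :: w ∈ T.C := by
    rcases Nat.eq_zero_or_pos k with rfl | hk0
    · simp only [List.replicate_zero, List.nil_append, List.cons.injEq] at hk
      rw [← hk.2]
      exact hu
    · obtain ⟨j, rfl⟩ : ∃ j, k = j + 1 := ⟨k - 1, by omega⟩
      rw [List.replicate_succ, List.cons_append, List.cons.injEq] at hk
      rw [hk.2] at hu
      have h2 := T.replicate_mem (Nat.zero_le j) hu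
      exact T.tail_mem _ _ h2
  refine ⟨w, d, T.tail_mem _ _ h1, h1, ?_⟩
  rw [T.ew_of_mem h1, hk]
  congr 2
  apply T.kk_eq
  · rw [← hk]
    exact he
  · intro j hj
    obtain ⟨i, rfl⟩ : ∃ i, k = i + 1 := ⟨k - 1, by omega⟩
    rw [List.replicate_succ, List.cons_append, List.cons.injEq] at hk
    rw [hk.2] at hu
    exact T.replicate_mem (by omega) hu

/-- uniqueness of the other vertex -/
theorem ew_inj {w w' : List (Option ℂ)} {d d' : Option ℂ} (h : d :: w ∈ T.C)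
    (h' : d' :: w' ∈ T.C) (he : T.ew w d = T.ew w' d') : w = w' ∧ d = d' := by
  rw [T.ew_of_mem h, T.ew_of_mem h'] at he
  have key : ∀ k k' : ℕ, List.replicate k (some (0 : ℂ)) ++ none :: d :: w =
      List.replicate k' (some 0) ++ none :: d' :: w' → w = w' ∧ d = d' := by
    intro k
    induction k with
    | zero =>
      intro k' hk
      cases k' with
      | zero =>
        simp at hk
        exact ⟨hk.2, hk.1⟩
      | succ k' => simp [List.replicate_succ] at hk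
    | succ k ih =>
      intro k' hk
      cases k' with
      | zero => simp [List.replicate_succ] at hk
      | succ k' =>
        rw [List.replicate_succ, List.replicate_succ, List.cons_append, List.cons_append,
          List.cons.injEq] at hk
        exact ih k' hk.2
  exact key _ _ he

/-- at the other ends the second axis is not contracted -/
theorem Th_snd_ne_zero {u : List (Option ℂ)} {e : Option ℂ} (hu : u ∈ T.C) (he : e :: u ∉ T.C)
    (h : ¬ exc (e :: u)) : ∀ᶠ q in 𝓝 (0 : ℂ × ℂ), q.1 ≠ 0 → T.Th u e q ≠ 0 := by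
  have hφ := T.analyticAt_phi hu he
  have hφ0 := T.phi_zero hu he
  filter_upwards [(tendsto_shear hφ hφ0).eventually (psi_eq_zero (e :: u))] with q hq hq1 h0
  rw [T.Th_of_notMem he] at h0
  rcases hq h0 with h1 | ⟨-, h1⟩
  · exact hq1 h1
  · exact h h1

end Tree

end Vale.Agent.P298.H928
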