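import Vale.Agent.P298.H707.JT

/-!
# P298 / H928 (row E1-BASE), NdT: the partner map of the nodes of a tree
-/

noncomputable section

namespace Vale.Agent.P298.H928

open Vale.Agent.P298.H707

variable {H : ℂ × ℂ → ℂ} {T : Tree H}

open Classical in
/-- the partner of a place -/
def ndT (T : Tree H) (p : PlT T) : Option (PlT T) :=
  if h : ∃ j, NodeT p j then some h.choose
  else if h : ∃ i, NodeT i p then some h.choose else none

theorem NodeT.mem {p p' : PlT T} (h : NodeT p p') : p.2 :: p.1.1 ∈ T.C := h.1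

theorem NodeT.not {p p' : PlT T} (h : NodeT p p') : ¬ ∃ j, NodeT p' j :=
  fun ⟨_, hj⟩ => H707.NodeT.notMem h hj.1

theorem ndT_of {p p' : PlT T} (h : NodeT p p') : ndT T p = some p' := by
  have h1 : ∃ j, NodeT p j := ⟨p', h⟩
  rw [ndT, dif_pos h1]
  exact congrArg some (H707.NodeT.unique h1.choose_spec h)

theorem ndT_of' {p p' : PlT T} (h : NodeT p' p) : ndT T p = some p' := by
  have h1 : ∃ i, NodeT i p := ⟨p', h⟩
  rw [ndT, dif_neg (NodeT.not h), dif_pos h1]
  exact congrArg some (H707.NodeT.unique' h1.choose_spec h)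

theorem ndT_iff {p p' : PlT T} : ndT T p = some p' ↔ NodeT p p' ∨ NodeT p' p := by
  constructor
  · intro h
    unfold ndT at h
    split_ifs at h with h1 h2
    · rw [Option.some_inj] at h
      exact Or.inl (h ▸ h1.choose_spec)
    · rw [Option.some_inj] at h
      exact Or.inr (h ▸ h2.choose_spec)
  · rintro (h | h)
    · exact ndT_of h
    · exact ndT_of' h

theorem ndT_symm (p p' : PlT T) (h : ndT T p = some p') : ndT T p' = some p := by
  rw [ndT_iff] at h ⊢
  exact h.symm

theorem NodeT.length {p p' : PlT T} (h : NodeT p p') : p.1.1.length < p'.1.1.length := by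
  have h1 := congrArg List.length h.2
  rw [T.ew_of_mem h.1] at h1
  simp only [List.length_append, List.length_replicate, List.length_cons] at h1
  omega

theorem ndT_ne (p p' : PlT T) (h : ndT T p = some p') : p'.1 ≠ p.1 := by
  intro h1
  have h2 : p'.1.1.length = p.1.1.length := by rw [h1]
  rcases ndT_iff.1 h with h | h
  · have := NodeT.length h
    omega
  · have := NodeT.length h
    omega

theorem ndT_fin : {p : PlT T | ndT T p ≠ none}.Finite := by
  classical
  have h1 : {p : PlT T | p.2 :: p.1.1 ∈ T.C}.Finite := by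
    have h2 : Set.InjOn (fun p : PlT T => p.2 :: p.1.1) {p | p.2 :: p.1.1 ∈ T.C} := by
      intro p _ p' _ h
      simp only [List.cons.injEq] at h
      exact Prod.ext (Subtype.ext h.2) h.1
    refine Set.Finite.of_finite_image ((Finset.finite_toSet T.C).subset ?_) h2
    rintro _ ⟨p, hp, rfl⟩
    exact hp
  have h3 : {p : PlT T | ndT T p ≠ none} ⊆ {p : PlT T | p.2 :: p.1.1 ∈ T.C} ∪
      (fun p => (ndT T p).getD p) '' {p : PlT T | p.2 :: p.1.1 ∈ T.C} := by
    intro p hp
    obtain ⟨p', hp'⟩ := Option.ne_none_iff_exists'.1 hp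
    rcases ndT_iff.1 hp' with h | h
    · exact Or.inl h.1
    · refine Or.inr ⟨p', h.1, ?_⟩
      simp only
      rw [ndT_of h, Option.getD_some]
  exact (h1.union (h1.image _)).subset h3

/-- the free places -/
theorem ndT_none {p : PlT T} : ndT T p = none ↔ p.2 :: p.1.1 ∉ T.C ∧ ¬ exc (p.2 :: p.1.1) := by
  constructor
  · intro h
    refine ⟨fun h1 => ?_, fun h1 => ?_⟩
    · obtain ⟨j, hj⟩ := exists_nodeT h1
      rw [ndT_of hj] at h
      exact absurd h (by simp)
    · by_cases h2 : p.2 :: p.1.1 ∈ T.C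
      · obtain ⟨j, hj⟩ := exists_nodeT h2
        rw [ndT_of hj] at h
        exact absurd h (by simp)
      · obtain ⟨w, d, h3, h4, h5⟩ := T.node_of_exc p.1.2 h2 h1
        have h6 : NodeT ((⟨w, h3⟩, d) : PlT T) p := ⟨h4, h5⟩
        rw [ndT_of' h6] at h
        exact absurd h (by simp)
  · rintro ⟨h1, h2⟩
    by_contra h3
    obtain ⟨p', hp'⟩ := Option.ne_none_iff_exists'.1 h3
    rcases ndT_iff.1 hp' with h | h
    · exact h1 h.1
    · apply h2
      rw [← h.2]
      exact T.exc_ew h.1

end Vale.Agent.P298.H928
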