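import Vale.Agent.P298.H928.SurfT
import Vale.Agent.P298.H928.NdT
import Vale.Agent.P298.H701.LkQ
import Vale.Agent.P298.H471.Inst

/-!
# P298 / H928 (row E1-BASE), SurfJ: the surface of a Jung model
-/

set_option linter.style.haveILetI false

noncomputable section

namespace Vale.Agent.P298.H928

open Filter Topology Metric Polynomial Vale.Agent.P298 Vale.Agent.P298.H379
open Vale.Agent.P298.H701 (serPoly PL KF RS RS LL2 rk tau tau_injective liftL psiC psiC_algebraMap
  psiC_root psiC_rk psiC_rk_ser map_PL tk an_tk tk_zero bas ser2 liftL_apply tau_apply monicPL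
  natDegreePL finite_KF rk_injective rk_C KF_hom_ext chH irreduciblePL)
open Vale.Agent.P298.H707 (PlT ThT NodeT JungT Model CR MonU jacP chart WD disc)
open Vale.Agent.P298.H416 (Om Surf pwOm Ta swOm)
open Vale.Agent.P298.H471 (RV cl algRK towRK finDim_KF sep_KF)

/-! ### generalities -/

theorem split_gen {L K Ω : Type*} [Field L] [Field K] [Field Ω] [Algebra L K] (θ : L →+* Ω)
    {r : K} (hi : IsIntegral L r) (hs : ((minpoly L r).map θ).Splits)
    (htop : IntermediateField.adjoin L {r} = ⊤) (g : K) : ((minpoly L g).map θ).Splits := by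
  letI := θ.toAlgebra
  refine IntermediateField.splits_of_mem_adjoin L K (L := Ω) (S := {r}) (fun x hx => ?_) (x := g)
    (by rw [htop]; exact IntermediateField.mem_top)
  rw [Set.mem_singleton_iff] at hx
  rw [hx]
  exact ⟨hi, hs⟩

theorem monU_frequently {g : ℂ × ℂ → ℂ} {i j : ℕ} (h : MonU g i j) :
    ∃ᶠ q in 𝓝 (0 : ℂ × ℂ), g q ≠ 0 := by
  obtain ⟨u, hu, hu0, hg⟩ := h
  have h1 := frequently_ne (i := i) (j := j) hu hu0
  refine (h1.and_eventually hg).mono fun q hq => ?_
  rw [hq.2]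
  exact hq.1

section jung

variable {f : (Fin 3 → ℂ) → ℂ} {n : ℕ} {P : ℂ × ℂ → ℂ[X]} {v : ℂ × (ℂ × ℂ) → ℂ}
  {T : Tree fun p => p.1 * disc n P p} {ζ : PlT T → Fin n → ℂ × ℂ → ℂ}
  {σ ρ : PlT T → Equiv.Perm (Fin n)}

theorem jacT_ne (T : Tree fun p => p.1 * disc n P p) (p : PlT T) :
    ∃ᶠ q in 𝓝 (0 : ℂ × ℂ), jacP (ThT T p) q ≠ 0 := by
  obtain ⟨a, b, h⟩ := JungT.jac T p
  exact monU_frequently h

variable (J : JungT f n P v T ζ σ ρ) [hirr : Fact (Irreducible (PL n P))]

/-- the embedding of the field given by the place `p` and the root `l` -/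
def psJ (p : PlT T) (l : Fin n) : KF n P →+* LL2 :=
  psiC J.M.W (J.M.C p) (J.M.an p) (J.M.zero p) (jacT_ne T p) l

omit hirr in
theorem thL_eq_liftL (p : PlT T) (hN : n.factorial ≠ 0) (x : L0) :
    T.thL p.1.2 p.2 n.factorial hN x =
      liftL (tau (ThT T p) (J.M.an p) (J.M.zero p) n.factorial hN)
        (tau_injective (J.M.an p) (J.M.zero p) (jacT_ne T p) hN) x := by
  have h := T.thL_unique p.1.2 p.2 n.factorial hN
    (θ := liftL (tau (ThT T p) (J.M.an p) (J.M.zero p) n.factorial hN)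
        (tau_injective (J.M.an p) (J.M.zero p) (jacT_ne T p) hN)) fun g => by
      rw [liftL_apply]
      rfl
  rw [h]

theorem psJ_algebraMap (p : PlT T) (l : Fin n) (x : L0) :
    psJ J p l (algebraMap L0 (KF n P) x) = T.thL p.1.2 p.2 n.factorial n.factorial_ne_zero x := by
  rw [thL_eq_liftL J]
  exact psiC_algebraMap _ _ _ _ _ _ x

theorem psJ_algebraMap' (p : PlT T) (l : Fin n) (x : L0) :
    psJ J p l (algebraMap L0 (KF n P) x) =
      pwOm n.factorial n.factorial_pos (T.thL p.1.2 p.2 1 one_ne_zero x) := by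
  rw [psJ_algebraMap, pw_thL]

theorem psJ_root (p : PlT T) (l : Fin n) :
    psJ J p l (AdjoinRoot.root (PL n P)) = algebraMap R2 LL2 (ser2 (ζ p l)) :=
  psiC_root _ _ _ _ _ _

include J in
theorem map_PLJ (p : PlT T) : (PL n P).map (T.thL p.1.2 p.2 n.factorial n.factorial_ne_zero) =
    ∏ l, (X - C (algebraMap R2 LL2 (ser2 (ζ p l)))) := by
  rw [← map_PL J.M.W (J.M.C p) (J.M.an p) (J.M.zero p) (jacT_ne T p)]
  congr 1

/-- **every embedding over the chart is given by a root** -/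
theorem psJ_cases (p : PlT T) (ψ : KF n P →+* LL2)
    (hψ : ∀ x : L0, ψ (algebraMap L0 (KF n P) x) =
      T.thL p.1.2 p.2 n.factorial n.factorial_ne_zero x) : ∃ l, ψ = psJ J p l := by
  have h1 : ((PL n P).map (T.thL p.1.2 p.2 n.factorial n.factorial_ne_zero)).eval
      (ψ (AdjoinRoot.root (PL n P))) = 0 := by
    have h2 : ψ.comp (algebraMap L0 (KF n P)) =
        T.thL p.1.2 p.2 n.factorial n.factorial_ne_zero := by
      ext1 x
      exact hψ x
    rw [← h2, eval_map, ← hom_eval₂, AdjoinRoot.algebraMap_eq, AdjoinRoot.eval₂_root, map_zero]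
  rw [map_PLJ J, eval_prod, Finset.prod_eq_zero_iff] at h1
  obtain ⟨l, -, h3⟩ := h1
  rw [eval_sub, eval_X, eval_C, sub_eq_zero] at h3
  refine ⟨l, KF_hom_ext (fun x => ?_) ?_⟩
  · rw [psJ_algebraMap]
    exact hψ x
  · rw [psJ_root, h3]

theorem minpoly_rootJ (W : WD f n P v) : minpoly LL2 (AdjoinRoot.root (PL n P)) = PL n P := by
  rw [AdjoinRoot.minpoly_root (monicPL W).ne_zero, (monicPL W).leadingCoeff, inv_one, C_1, mul_one]

include J in
theorem splitJ (p : PlT T) (g : KF n P) :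
    ((minpoly L0 g).map (T.thL p.1.2 p.2 n.factorial n.factorial_ne_zero)).Splits := by
  have hfd := finite_KF J.M.W
  refine split_gen _ (r := AdjoinRoot.root (PL n P)) (IsIntegral.of_finite _ _) ?_
    (IntermediateField.adjoin_root_eq_top (PL n P)) g
  rw [minpoly_rootJ J.M.W, map_PLJ J]
  exact Splits.prod fun l _ => Splits.X_sub_C _

/-! ### the surface -/

theorem psJ_rk (p : PlT T) (l : Fin n) (g : H701.R3) :
    psJ J p l (rk J.M.hf J.M.W (Ideal.Quotient.mk _ g)) =
      algebraMap R2 LL2 (chH (J.M.ch p l) (J.M.an_ch p l) (J.M.ch_zero p l) g) :=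
  psiC_rk J.M.hf J.M.W (J.M.C p) (J.M.an p) (J.M.zero p) (jacT_ne T p) l g

theorem psJ_rk_ser (p : PlT T) (l : Fin n) {h : (Fin 3 → ℂ) → ℂ} (hh : Hol h) :
    psJ J p l (rk J.M.hf J.M.W (Ideal.Quotient.mk _ (H766.ser h))) =
      algebraMap R2 LL2 (ser2 fun q => h (J.M.ch p l q)) :=
  psiC_rk_ser J.M.hf J.M.W (J.M.C p) (J.M.an p) (J.M.zero p) (jacT_ne T p) l hh

theorem exists_psJ (p : PlT T) (l : Fin n) (h : RV f) :
    ∃ F : R2, psJ J p l (rk J.M.hf J.M.W h) = algebraMap R2 Om F := by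
  obtain ⟨g, rfl⟩ := Ideal.Quotient.mk_surjective (I := Ideal.span {H766.ser f}) h
  exact ⟨_, psJ_rk J p l g⟩

/-- **the surface** -/
def surfJ : letI := algRK J.M.hf J.M.W
    haveI := towRK J.M.hf J.M.W
    haveI := finDim_KF J.M.W
    haveI := sep_KF J.M.W
    Surf LL2 (KF n P) (RV f) :=
  letI := algRK J.M.hf J.M.W
  haveI := towRK J.M.hf J.M.W
  haveI := finDim_KF J.M.W
  haveI := sep_KF J.M.W
  surfT T (JungT.H0 n P) n.factorial n.factorial_pos (ndT T) ndT_symm ndT_ne ndT_fin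
    (fun _ _ h => ndT_iff.1 h)
    (fun p g => by
      have h : (pwOm n.factorial n.factorial_pos).comp (T.thL p.1.2 p.2 1 one_ne_zero) =
          T.thL p.1.2 p.2 n.factorial n.factorial_ne_zero := by
        ext1 x
        exact pw_thL T p.1.2 p.2 n.factorial n.factorial_pos x
      rw [h]
      exact splitJ J p g)
    (fun p ψ hψ h => by
      obtain ⟨l, rfl⟩ := psJ_cases J p ψ fun x => by
        rw [hψ, pw_thL]
      exact exists_psJ J p l h)
    (rk_injective J.M.hf J.M.W)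

/-- the embeddings of the surface -/
def EJ (p : PlT T) (l : Fin n) : letI := algRK J.M.hf J.M.W
    haveI := towRK J.M.hf J.M.W
    haveI := finDim_KF J.M.W
    haveI := sep_KF J.M.W
    (surfJ J).Emb p :=
  letI := algRK J.M.hf J.M.W
  haveI := towRK J.M.hf J.M.W
  haveI := finDim_KF J.M.W
  haveI := sep_KF J.M.W
  { f := psJ J p l
    comm := fun x => psJ_algebraMap' J p l x }

theorem EJ_f (p : PlT T) (l : Fin n) : letI := algRK J.M.hf J.M.W
    haveI := towRK J.M.hf J.M.W
    haveI := finDim_KF J.M.W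
    haveI := sep_KF J.M.W
    (EJ J p l).f = psJ J p l := rfl

/-- **every embedding is one of them** -/
theorem EJ_surj : letI := algRK J.M.hf J.M.W
    haveI := towRK J.M.hf J.M.W
    haveI := finDim_KF J.M.W
    haveI := sep_KF J.M.W
    ∀ (p : PlT T) (ψ : (surfJ J).Emb p), ∃ l, ψ = EJ J p l := by
  letI := algRK J.M.hf J.M.W
  haveI := towRK J.M.hf J.M.W
  haveI := finDim_KF J.M.W
  haveI := sep_KF J.M.W
  intro p ψ
  obtain ⟨l, hl⟩ := psJ_cases J p ψ.f fun x => by
    have h := ψ.comm x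
    rw [h]
    exact pw_thL T p.1.2 p.2 n.factorial n.factorial_pos x
  exact ⟨l, Surf.Emb.ext hl⟩

theorem EJ_inj (p : PlT T) : letI := algRK J.M.hf J.M.W
    haveI := towRK J.M.hf J.M.W
    haveI := finDim_KF J.M.W
    haveI := sep_KF J.M.W
    Function.Injective (EJ J p) := by
  letI := algRK J.M.hf J.M.W
  haveI := towRK J.M.hf J.M.W
  haveI := finDim_KF J.M.W
  haveI := sep_KF J.M.W
  intro l l' h
  have h1 : psJ J p l = psJ J p l' := congrArg (fun E : (surfJ J).Emb p => E.f) h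
  have h2 := congrArg (fun φ : KF n P →+* LL2 => φ (AdjoinRoot.root (PL n P))) h1
  simp only [psJ_root] at h2
  exact H701.ser2_zeta_injective (J.M.C p) (IsFractionRing.injective R2 LL2 h2)

theorem EJ_cl : letI := algRK J.M.hf J.M.W
    haveI := towRK J.M.hf J.M.W
    haveI := finDim_KF J.M.W
    haveI := sep_KF J.M.W
    ∀ (p : PlT T) (l : Fin n) (h : (Fin 3 → ℂ) → ℂ), Hol h →
      (EJ J p l).f (algebraMap (RV f) (KF n P) (cl f h)) =
        algebraMap R2 Om (ser2 fun q => h (J.M.ch p l q)) := by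
  intro p l h hh
  exact psJ_rk_ser J p l hh

end jung

end Vale.Agent.P298.H928
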