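import Vale.Agent.P298.H928.Ctr

/-!
# P298 / H928 (row E1-BASE), part 6: (B2) the covering of a punctured neighbourhood
-/

open Set Filter Metric Topology Polynomial

noncomputable section

namespace Vale.Agent.P298.H928

/-- one blow-up: finitely many polydiscs of arbitrary given radii cover -/
theorem bl_cover (ρ : Option ℂ → ℝ) (hρ : ∀ d, 0 < ρ d) :
    ∃ (S : Finset (Option ℂ)) (r : ℝ), 0 < r ∧ ∀ q : ℂ × ℂ, ‖q‖ < r → q ≠ 0 →
      ∃ d ∈ S, ∃ p : ℂ × ℂ, ‖p‖ < ρ d ∧ bl d p = q := by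
  classical
  set R : ℝ := (ρ none)⁻¹ + 1 with hR
  have hR0 : 0 < R := by have := inv_pos.2 (hρ none); linarith
  have hRn : R⁻¹ < ρ none := by
    rw [inv_lt_comm₀ hR0 (hρ none)]
    linarith
  obtain ⟨T, -, hT⟩ := (isCompact_closedBall (0 : ℂ) R).elim_nhds_subcover
    (fun c => ball c (ρ (some c))) (fun c _ => ball_mem_nhds c (hρ (some c)))
  set S : Finset (Option ℂ) := insert none (T.image some) with hS
  obtain ⟨r, hr, hrS⟩ : ∃ r : ℝ, 0 < r ∧ ∀ d ∈ S, r ≤ ρ d := by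
    obtain ⟨d₀, -, hd₀⟩ := S.exists_min_image ρ ⟨none, Finset.mem_insert_self _ _⟩
    exact ⟨ρ d₀, hρ d₀, hd₀⟩
  refine ⟨S, r, hr, fun q hq hq0 => ?_⟩
  have h1 : ‖q.1‖ < r := (norm_fst_le q).trans_lt hq
  have h2 : ‖q.2‖ < r := (norm_snd_le q).trans_lt hq
  rcases le_or_gt ‖q.2‖ (R * ‖q.1‖) with h3 | h3
  · have h4 : q.1 ≠ 0 := by
      intro h5
      rw [h5, norm_zero, mul_zero] at h3
      exact hq0 (Prod.ext h5 (norm_le_zero_iff.1 h3))
    have h5 : q.2 / q.1 ∈ closedBall (0 : ℂ) R := by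
      rw [mem_closedBall_zero_iff, norm_div, div_le_iff₀ (norm_pos_iff.2 h4)]
      exact h3
    obtain ⟨c, hc, hc'⟩ := mem_iUnion₂.1 (hT h5)
    have hcS : some c ∈ S := Finset.mem_insert_of_mem (Finset.mem_image_of_mem _ hc)
    refine ⟨some c, hcS, (q.1, q.2 / q.1 - c), ?_, ?_⟩
    · rw [Prod.norm_def, max_lt_iff]
      refine ⟨h1.trans_le (hrS _ hcS), ?_⟩
      rw [mem_ball, dist_eq_norm] at hc'
      exact hc'
    · rw [bl_some]
      refine Prod.ext rfl ?_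
      dsimp only
      rw [sub_add_cancel, mul_div_cancel₀ _ h4]
  · have h4 : q.2 ≠ 0 := by
      intro h5
      rw [h5, norm_zero] at h3
      have := mul_nonneg hR0.le (norm_nonneg q.1)
      linarith
    refine ⟨none, Finset.mem_insert_self _ _, (q.2, q.1 / q.2), ?_, ?_⟩
    · rw [Prod.norm_def, max_lt_iff]
      refine ⟨h2.trans_le (hrS _ (Finset.mem_insert_self _ _)), ?_⟩
      dsimp only
      rw [norm_div, div_lt_iff₀ (norm_pos_iff.2 h4)]
      have h5 : ‖q.1‖ < R⁻¹ * ‖q.2‖ := by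
        rw [lt_inv_mul_iff₀ hR0]
        exact h3
      exact h5.trans (mul_lt_mul_of_pos_right hRn (norm_pos_iff.2 h4))
    · rw [bl_none]
      refine Prod.ext ?_ rfl
      dsimp only
      rw [mul_div_cancel₀ _ h4]

/-- the pairs (vertex, place) whose point is not a centre -/
def Ends (C : Finset (List (Option ℂ))) : Set (Option ℂ × List (Option ℂ)) :=
  {x | x.2 ∈ C ∧ x.1 :: x.2 ∉ C}

/-- (B2) with the polynomial charts -/
theorem psi_cover {C : Finset (List (Option ℂ))} (hC0 : [] ∈ C)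
    (ρ : Option ℂ × List (Option ℂ) → ℝ) (hρ : ∀ x, 0 < ρ x) :
    ∃ (F : Finset (Option ℂ × List (Option ℂ))) (r : ℝ), ↑F ⊆ Ends C ∧ 0 < r ∧
      ∀ q : ℂ × ℂ, ‖q‖ < r → q ≠ 0 →
        ∃ x ∈ F, ∃ p : ℂ × ℂ, ‖p‖ < ρ x ∧ psi (x.1 :: x.2) p = q := by
  classical
  -- the word lengths are bounded
  obtain ⟨N, hN⟩ : ∃ N, ∀ w ∈ C, w.length < N := by
    obtain ⟨w₀, -, hw₀⟩ := C.exists_max_image List.length ⟨[], hC0⟩
    exact ⟨w₀.length + 1, fun w hw => Nat.lt_succ_of_le (hw₀ w hw)⟩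
  have key : ∀ k, ∀ w ∈ C, N ≤ w.length + k →
      ∃ (F : Finset (Option ℂ × List (Option ℂ))) (r : ℝ), ↑F ⊆ Ends C ∧ 0 < r ∧
        ∀ q : ℂ × ℂ, ‖q‖ < r → q ≠ 0 →
          ∃ x ∈ F, ∃ p : ℂ × ℂ, ‖p‖ < ρ x ∧ psi (x.1 :: x.2) p = psi w q := by
    intro k
    induction k with
    | zero =>
      intro w hw hk
      exact absurd (hN w hw) (by omega)
    | succ k ih =>
      intro w hw hk
      have h1 : ∀ d, ∃ (F : Finset (Option ℂ × List (Option ℂ))) (r : ℝ), ↑F ⊆ Ends C ∧ 0 < r ∧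
          ∀ q : ℂ × ℂ, ‖q‖ < r → q ≠ 0 →
            ∃ x ∈ F, ∃ p : ℂ × ℂ, ‖p‖ < ρ x ∧ psi (x.1 :: x.2) p = psi (d :: w) q := by
        intro d
        by_cases hd : d :: w ∈ C
        · exact ih (d :: w) hd (by rw [List.length_cons]; omega)
        · refine ⟨{(d, w)}, ρ (d, w), ?_, hρ _, fun q hq _ => ⟨(d, w), by simp, q, hq, rfl⟩⟩
          simp only [Finset.coe_singleton, singleton_subset_iff]
          exact ⟨hw, hd⟩
      choose F r hF hr hcov using h1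
      obtain ⟨S, r₀, hr₀, hS⟩ := bl_cover r hr
      refine ⟨S.biUnion F, r₀, ?_, hr₀, fun q hq hq0 => ?_⟩
      · intro x hx
        rw [Finset.mem_coe, Finset.mem_biUnion] at hx
        obtain ⟨d, -, hd⟩ := hx
        exact hF d hd
      · obtain ⟨d, hd, p, hp, hpq⟩ := hS q hq hq0
        have hp0 : p ≠ 0 := by
          rintro rfl
          rw [bl_zero] at hpq
          exact hq0 hpq.symm
        obtain ⟨x, hx, p', hp', hxp⟩ := hcov d p hp hp0
        refine ⟨x, Finset.mem_biUnion.2 ⟨d, hd, hx⟩, p', hp', ?_⟩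
        rw [hxp, psi_cons, hpq]
  obtain ⟨F, r, h1, h2, h3⟩ := key N [] hC0 (by omega)
  exact ⟨F, r, h1, h2, h3⟩

end Vale.Agent.P298.H928
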