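import Vale.Agent.P298.H928.Pla
import Vale.Agent.P298.H416.Surf1

/-!
# P298 / H928 (row E1-BASE), SurfT: the instance of helper416's `Surf` given by a tree
-/

set_option linter.style.haveILetI false

noncomputable section

namespace Vale.Agent.P298.H928

open Vale.Agent.P298.H701 Vale.Agent.P298.H766 Vale.Agent.P298.H400
  Vale.Agent.P298.FF Vale.Agent.P298.H707 Filter Topology
open Vale.Agent.P298.H416 (NOrd Res resMap resPre resMap_residue Ta jOm jOm_alg Ta_v Ta_lam Ta_P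
  Ta_O Ta_w Ta_ρ lO mem_lO swOm swOm_alg Om Surf pwOm pw omMap_alg pw_injective pw_X0 pw_X1 lb)

variable {H : ℂ × ℂ → ℂ} (T : Tree H)

/-- powers of the coordinates in the chart of a place -/
theorem pw_thR {w : List (Option ℂ)} (hw : w ∈ T.C) (d : Option ℂ) (N : ℕ) (hN : 0 < N) (g : R2) :
    pw N hN (T.thR hw d 1 one_ne_zero g) = T.thR hw d N hN.ne' g := by
  have hp : pw N hN = bas (fun q : ℂ × ℂ => (q.1 ^ N, q.2 ^ N)) ((powfst N).prod (powsnd N))
      (by simp [hN.ne']) := by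
    refine algHom_ext fun i => ?_
    fin_cases i
    · change pw N hN (MvPowerSeries.X 0) = bas _ _ _ (MvPowerSeries.X 0)
      rw [pw_X0, ← ser2_fst, bas_ser2 _ _ analyticAt_fst, ← ser2_pow analyticAt_fst]
    · change pw N hN (MvPowerSeries.X 1) = bas _ _ _ (MvPowerSeries.X 1)
      rw [pw_X1, ← ser2_snd, bas_ser2 _ _ analyticAt_snd, ← ser2_pow analyticAt_snd]
  have h1 : T.thR hw d N hN.ne' = (pw N hN).comp (T.thR hw d 1 one_ne_zero) := by
    refine algHom_ext fun i => ?_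
    rw [AlgHom.comp_apply, hp]
    have h4 := an_tk (T.analyticAt_Th hw d) (one_ne_zero (α := ℕ))
    fin_cases i
    · change T.thR hw d N hN.ne' (MvPowerSeries.X 0) =
        bas _ _ _ (T.thR hw d 1 one_ne_zero (MvPowerSeries.X 0))
      rw [← ser2_fst, T.thR_ser2 _ _ _ _ analyticAt_fst, T.thR_ser2 _ _ _ _ analyticAt_fst]
      refine Eq.trans ?_ (bas_ser2 _ _ (analyticAt_fst_apply h4)).symm
      simp only [tk, pow_one]
    · change T.thR hw d N hN.ne' (MvPowerSeries.X 1) =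
        bas _ _ _ (T.thR hw d 1 one_ne_zero (MvPowerSeries.X 1))
      rw [← ser2_snd, T.thR_ser2 _ _ _ _ analyticAt_snd, T.thR_ser2 _ _ _ _ analyticAt_snd]
      refine Eq.trans ?_ (bas_ser2 _ _ (analyticAt_snd_apply h4)).symm
      simp only [tk, pow_one]
  rw [h1]
  rfl

/-- **the covering of the chart** -/
theorem pw_thL {w : List (Option ℂ)} (hw : w ∈ T.C) (d : Option ℂ) (N : ℕ) (hN : 0 < N) (x : L0) :
    pwOm N hN (T.thL hw d 1 one_ne_zero x) = T.thL hw d N hN.ne' x := by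
  have h : (pwOm N hN).comp (T.thL hw d 1 one_ne_zero) = T.thL hw d N hN.ne' :=
    T.thL_unique hw d N hN.ne' fun g => by
      rw [RingHom.comp_apply, T.thL_algebraMap, pwOm, omMap_alg, pw_thR]
  exact RingHom.congr_fun h x

theorem tt_eq_lb : tt = lb := rfl

theorem theta_lam {w : List (Option ℂ)} (hw : w ∈ T.C) (d : Option ℂ) {N : ℕ} (hN : 0 < N)
    (x : W w) (hx : (x : L0) ≠ 0) (h0 : vw w x = 0) :
    Ta.lam (T.thL hw d N hN.ne' x) = (evd d N hN ((rhow w).ρ x)).order := by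
  have h1 : Ta.v (T.thL hw d N hN.ne' x) = 0 := by rw [T.Ta_v_thL hw d hN, h0, mul_zero]
  have h2 := Ta.lam_res (resPre _ (T.Ta_O_thL hw d hN) x) ((map_ne_zero _).2 hx) h1
  have h3 : Ta.ρ.ρ (resPre (T.thL hw d N hN.ne') (T.Ta_O_thL hw d hN) x) =
      evd d N hN ((rhow w).ρ x) := by
    rw [Ta_ρ, jOm_eq_ja]
    exact T.coeff_thL hw d N hN x
  rw [h3] at h2
  exact h2

variable {K R : Type} [Field K] [Algebra ℂ K] [Algebra L0 K] [IsScalarTower ℂ L0 K]
  [FiniteDimensional L0 K] [Algebra.IsSeparable L0 K] [CommRing R] [Algebra ℂ R] [Algebra R K]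
  [IsScalarTower ℂ R K]

/-- **the instance of `Surf` given by a tree** -/
def surfT (hH0 : H 0 = 0) (N : ℕ) (hN : 0 < N) (nd : PlT T → Option (PlT T))
    (nd_symm : ∀ p p', nd p = some p' → nd p' = some p)
    (nd_ne : ∀ p p', nd p = some p' → p'.1 ≠ p.1)
    (nd_fin : {p | nd p ≠ none}.Finite)
    (hnd : ∀ p p', nd p = some p' → NodeT p p' ∨ NodeT p' p)
    (split : ∀ (p : PlT T) (g : K),
      ((minpoly L0 g).map ((pwOm N hN).comp (T.thL p.1.2 p.2 1 one_ne_zero))).Splits)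
    (hR : ∀ (p : PlT T) (ψ : K →+* Om),
      (∀ x : L0, ψ (algebraMap L0 K x) = pwOm N hN (T.thL p.1.2 p.2 1 one_ne_zero x)) →
      ∀ h : R, ∃ F : R2, ψ (algebraMap R K h) = algebraMap R2 Om F)
    (inj : Function.Injective (algebraMap R K)) : Surf L0 K R where
  V := {w : List (Option ℂ) // w ∈ T.C}
  fin := inferInstance
  dec := Classical.decEq _
  W v := W v
  ow v := vw v
  hW v := nord_vw v
  hC v c := C_mem v c
  rw v := rhow v
  rw_surj v := rhow_surjective v
  rw_C v c := rhow_C v c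
  et v := ⟨etaw v, etaw_mem v⟩
  et_X v := rhow_etaw v
  N := N
  hN := hN
  θ p := T.thL p.1.2 p.2 1 one_ne_zero
  θ_v p x := by
    have h := T.Ta_v_thL p.1.2 p.2 (N := 1) one_pos x
    rw [Nat.cast_one, one_mul] at h
    exact h
  ev d := (evd d 1 one_pos : RatFunc ℂ →+* LaurentSeries ℂ)
  ev_some c := by
    change evd (some c) 1 one_pos RatFunc.X = _
    rw [evd, evT_X, yd, algebraMap_LS, pow_one, tt_eq_lb]
  ev_none := by
    change evd none 1 one_pos RatFunc.X = _
    rw [evd, evT_X, yd, pow_one, tt_eq_lb]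
  ev_C d c := by
    change evd d 1 one_pos (algebraMap ℂ (RatFunc ℂ) c) = _
    rw [AlgHom.commutes, algebraMap_LS]
  θ_lam p x hx h0 := theta_lam T p.1.2 p.2 one_pos x hx h0
  nd := nd
  nd_symm := nd_symm
  nd_ne := nd_ne
  nd_fin := nd_fin
  θ_nd p p' h x := by
    rcases hnd p p' h with h1 | h1
    · exact thL_swap hH0 h1 one_ne_zero x
    · exact thL_swap' hH0 h1 one_ne_zero x
  ac v := by
    refine ⟨(ab v).1, by rw [vw_a]; exact one_ne_zero, ?_⟩
    refine (T.kd_fin v).subset fun d hd => ?_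
    rw [Set.mem_ofPred_eq] at hd ⊢
    intro h1
    apply hd
    have h2 := (T.Ta_a v.2 d (N := 1) one_pos).2
    rw [h1] at h2
    exact h2
  split := split
  hR := hR
  inj := inj

end Vale.Agent.P298.H928
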