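import Vale.Agent.P298.H983.AJ6
import Vale.Agent.P298.H652.Node1

/-!
# P298 / H928 (row E1-BASE), part 1: point blow-ups of the plane, definitions and germ lemmas
-/

open Set Filter Metric Topology Polynomial

noncomputable section

namespace Vale.Agent.P298.H928

/-- one chart of the blow-up of the origin of the plane: the point `c` (or `∞`) of the
exceptional line, `{q.1 = 0}` is the new exceptional line -/
def bl : Option ℂ → ℂ × ℂ → ℂ × ℂ
  | some c, q => (q.1, q.1 * (q.2 + c))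
  | none, q => (q.1 * q.2, q.1)

@[simp] theorem bl_some (c : ℂ) (q : ℂ × ℂ) : bl (some c) q = (q.1, q.1 * (q.2 + c)) := rfl
@[simp] theorem bl_none (q : ℂ × ℂ) : bl none q = (q.1 * q.2, q.1) := rfl

/-- the chart of the infinitely near point given by a word (the head is the newest letter) -/
def psi : List (Option ℂ) → ℂ × ℂ → ℂ × ℂ
  | [], q => q
  | d :: w, q => psi w (bl d q)

@[simp] theorem psi_nil (q : ℂ × ℂ) : psi [] q = q := rfl
@[simp] theorem psi_cons (d : Option ℂ) (w : List (Option ℂ)) (q : ℂ × ℂ) :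
    psi (d :: w) q = psi w (bl d q) := rfl

theorem psi_append (v w : List (Option ℂ)) (q : ℂ × ℂ) : psi (v ++ w) q = psi w (psi v q) := by
  induction v generalizing q with
  | nil => rfl
  | cons d v ih => simp only [List.cons_append, psi_cons, ih]

@[simp] theorem bl_zero (d : Option ℂ) : bl d 0 = 0 := by
  cases d <;> simp [Prod.ext_iff]

@[simp] theorem psi_zero (w : List (Option ℂ)) : psi w 0 = 0 := by
  induction w with
  | nil => rfl
  | cons d w ih => rw [psi_cons, bl_zero, ih]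

theorem analyticAt_bl (d : Option ℂ) (q : ℂ × ℂ) : AnalyticAt ℂ (bl d) q := by
  cases d with
  | none => exact (analyticAt_fst.mul analyticAt_snd).prod analyticAt_fst
  | some c => exact analyticAt_fst.prod (analyticAt_fst.mul (analyticAt_snd.add analyticAt_const))

theorem analyticAt_psi (w : List (Option ℂ)) (q : ℂ × ℂ) : AnalyticAt ℂ (psi w) q := by
  induction w generalizing q with
  | nil => exact analyticAt_id
  | cons d w ih => exact (ih (bl d q)).comp (analyticAt_bl d q)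

/-- normal crossing form: monomial times a power of a smooth transversal branch times a unit -/
def NC (H : ℂ × ℂ → ℂ) : Prop :=
  ∃ (p ν : ℕ) (φ : ℂ → ℂ) (U : ℂ × ℂ → ℂ), AnalyticAt ℂ φ 0 ∧ φ 0 = 0 ∧ AnalyticAt ℂ U 0 ∧
    U 0 ≠ 0 ∧ ∀ᶠ q in 𝓝 (0 : ℂ × ℂ), H q = q.1 ^ p * (q.2 - φ q.1) ^ ν * U q

/-- resolvable by finitely many point blow-ups -/
inductive Good : (ℂ × ℂ → ℂ) → Prop
  | nc {H : ℂ × ℂ → ℂ} (h : NC H) : Good H
  | blow {H : ℂ × ℂ → ℂ} (S : Finset (Option ℂ)) (h : ∀ d ∉ S, NC (fun q => H (bl d q)))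
      (h' : ∀ d ∈ S, Good (fun q => H (bl d q))) : Good H

theorem NC.congr {H H' : ℂ × ℂ → ℂ} (h : NC H) (he : ∀ᶠ q in 𝓝 (0 : ℂ × ℂ), H' q = H q) :
    NC H' := by
  obtain ⟨p, ν, φ, U, h1, h2, h3, h4, h5⟩ := h
  refine ⟨p, ν, φ, U, h1, h2, h3, h4, ?_⟩
  filter_upwards [h5, he] with q hq hq'
  rw [hq', hq]

theorem tendsto_bl (d : Option ℂ) : Tendsto (bl d) (𝓝 0) (𝓝 0) := by
  have h := (analyticAt_bl d 0).continuousAt
  rw [ContinuousAt, bl_zero] at h
  exact h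

theorem tendsto_psi (w : List (Option ℂ)) : Tendsto (psi w) (𝓝 0) (𝓝 0) := by
  have h := (analyticAt_psi w 0).continuousAt
  rw [ContinuousAt, psi_zero] at h
  exact h

theorem Good.congr {H H' : ℂ × ℂ → ℂ} (h : Good H) (he : ∀ᶠ q in 𝓝 (0 : ℂ × ℂ), H' q = H q) :
    Good H' := by
  induction h generalizing H' with
  | nc h => exact .nc (h.congr he)
  | blow S h h' ih =>
    refine .blow S (fun d hd => (h d hd).congr ((tendsto_bl d).eventually he)) ?_
    exact fun d hd => ih d hd ((tendsto_bl d).eventually he)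

/-! ### one variable -/

theorem cancel_pow {k : ℕ} {x y : ℂ → ℂ} (h : ∀ᶠ a in 𝓝 (0 : ℂ), a ^ k * x a = a ^ k * y a)
    (hx : ContinuousAt x 0) (hy : ContinuousAt y 0) : ∀ᶠ a in 𝓝 (0 : ℂ), x a = y a := by
  have h1 : ∀ᶠ a in 𝓝[≠] (0 : ℂ), x a = y a := by
    filter_upwards [h.filter_mono nhdsWithin_le_nhds, self_mem_nhdsWithin] with a ha ha0
    exact mul_left_cancel₀ (pow_ne_zero k ha0) ha
  have h2 : x 0 = y 0 := by
    have h3 : Tendsto x (𝓝[≠] (0 : ℂ)) (𝓝 (x 0)) := hx.mono_left nhdsWithin_le_nhds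
    have h4 : Tendsto y (𝓝[≠] (0 : ℂ)) (𝓝 (y 0)) := hy.mono_left nhdsWithin_le_nhds
    exact tendsto_nhds_unique (h3.congr' h1) h4
  rw [eventually_nhdsWithin_iff] at h1
  filter_upwards [h1] with a ha
  rcases eq_or_ne a 0 with rfl | h0
  · exact h2
  · exact ha h0

theorem exists_mul_self {g : ℂ → ℂ} (hg : AnalyticAt ℂ g 0) (h0 : g 0 = 0) :
    ∃ g' : ℂ → ℂ, AnalyticAt ℂ g' 0 ∧ ∀ a, g a = a * g' a := by
  obtain ⟨p, hp⟩ := hg
  refine ⟨dslope g 0, ⟨_, hp.has_fpower_series_dslope_fslope⟩, fun a => ?_⟩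
  have h1 := sub_smul_dslope g 0 a
  rw [h0, sub_zero, sub_zero, smul_eq_mul] at h1
  exact h1.symm

/-- maximal common power -/
theorem exists_max (ν : ℕ) (g : ℕ → ℂ → ℂ) (hg : ∀ i, AnalyticAt ℂ (g i) 0)
    (h0 : ∀ i < ν, g i 0 = 0) :
    ∃ m ≤ ν, ∃ w : ℕ → ℂ → ℂ, (∀ i, AnalyticAt ℂ (w i) 0) ∧
      (∀ i, ∀ᶠ a in 𝓝 (0 : ℂ), g i a = a ^ (m - i) * w i a ∨ ν ≤ i) ∧
      (m = ν ∨ ∃ i < m, w i 0 ≠ 0) := by
  -- the property of `m`
  let Q : ℕ → Prop := fun m => ∃ w : ℕ → ℂ → ℂ, (∀ i, AnalyticAt ℂ (w i) 0) ∧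
      (∀ i, ∀ᶠ a in 𝓝 (0 : ℂ), g i a = a ^ (m - i) * w i a ∨ ν ≤ i)
  have hQ0 : Q 0 := ⟨g, hg, fun i => .of_forall fun a => by simp⟩
  have hstep : ∀ m, Q m → m < ν → (∃ i < m, ∃ w : ℕ → ℂ → ℂ, (∀ i, AnalyticAt ℂ (w i) 0) ∧
      (∀ i, ∀ᶠ a in 𝓝 (0 : ℂ), g i a = a ^ (m - i) * w i a ∨ ν ≤ i) ∧ w i 0 ≠ 0) ∨ Q (m + 1) := by
    rintro m ⟨w, hw, hgw⟩ hm
    by_cases h : ∃ i < m, w i 0 ≠ 0
    · obtain ⟨i, hi, hi0⟩ := h
      exact .inl ⟨i, hi, w, hw, hgw, hi0⟩
    · push Not at h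
      right
      have h1 : ∀ i ≤ m, w i 0 = 0 := by
        intro i hi
        rcases hi.lt_or_eq with h2 | rfl
        · exact h i h2
        · have h3 := (hgw i).self_of_nhds
          rcases h3 with h3 | h3
          · rw [h0 i hm, Nat.sub_self, pow_zero, one_mul] at h3
            exact h3.symm
          · omega
      choose! w' hw' hww' using fun i (hi : i ≤ m) => exists_mul_self (hw i) (h1 i hi)
      refine ⟨fun i => if i ≤ m then w' i else w i, fun i => ?_, fun i => ?_⟩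
      · dsimp only
        split_ifs with hi
        · exact hw' i hi
        · exact hw i
      · dsimp only
        filter_upwards [hgw i] with a ha
        rcases ha with ha | ha
        · left
          split_ifs with hi
          · rw [ha, hww' i hi, ← mul_assoc, ← pow_succ]
            congr 2
            omega
          · rw [ha]
            congr 2
            omega
        · exact .inr ha
  -- maximal m
  classical
  have key : ∀ k m, m + k = ν → Q m → ∃ m ≤ ν, ∃ w : ℕ → ℂ → ℂ, (∀ i, AnalyticAt ℂ (w i) 0) ∧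
      (∀ i, ∀ᶠ a in 𝓝 (0 : ℂ), g i a = a ^ (m - i) * w i a ∨ ν ≤ i) ∧
      (m = ν ∨ ∃ i < m, w i 0 ≠ 0) := by
    intro k
    induction k with
    | zero =>
      rintro m hm ⟨w, hw, hgw⟩
      exact ⟨m, by omega, w, hw, hgw, .inl (by omega)⟩
    | succ k ih =>
      intro m hm hQ
      rcases hstep m hQ (by omega) with ⟨i, hi, w, hw, hgw, hi0⟩ | h
      · exact ⟨m, by omega, w, hw, hgw, .inr ⟨i, hi, hi0⟩⟩
      · exact ih (m + 1) (by omega) h
  exact key ν 0 (by omega) hQ0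

/-! ### expansions in powers of the second coordinate -/

/-- division by the second coordinate, germs -/
theorem div_b {G : ℂ × ℂ → ℂ} (hG : AnalyticAt ℂ G 0) (h0 : ∀ᶠ a in 𝓝 (0 : ℂ), G (a, 0) = 0) :
    ∃ G' : ℂ × ℂ → ℂ, AnalyticAt ℂ G' 0 ∧ ∀ᶠ q in 𝓝 (0 : ℂ × ℂ), G q = q.2 * G' q := by
  have h1 : ∀ᶠ q in 𝓝 (0 : ℂ × ℂ), G (q.1, 0) = 0 :=
    (continuous_fst.tendsto (0 : ℂ × ℂ)).eventually h0
  obtain ⟨r, hr, hb⟩ := Metric.eventually_nhds_iff_ball.1 (hG.eventually_analyticAt.and h1)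
  obtain ⟨G', h2, h3⟩ := H983.div_snd (E := ℂ) (V := ball 0 r) isOpen_ball (g := G)
    (fun q hq => (hb q hq).1.differentiableAt.differentiableWithinAt)
    (fun q hq hq2 => by
      have h5 := (hb q hq).2
      have h6 : (q.1, (0 : ℂ)) = q := Prod.ext rfl hq2.symm
      rwa [h6] at h5)
  refine ⟨G', ?_, ?_⟩
  · exact Vale.Agent.P268.analyticOnNhd_of_differentiableOn isOpen_ball h2 0 (mem_ball_self hr)
  · filter_upwards [ball_mem_nhds 0 hr] with q hq
    exact h3 q hq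

end Vale.Agent.P298.H928
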