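import Vale.Agent.P298.H928.Main

/-!
# P298 / H928 (row E1-BASE), part 5: (B1) the finite tree of centres
-/

open Set Filter Metric Topology Polynomial

noncomputable section

namespace Vale.Agent.P298.H928

/-- a nonzero germ is a power of the first coordinate times a germ regular in the second -/
theorem exists_regular {H : ℂ × ℂ → ℂ} (hH : AnalyticAt ℂ H 0)
    (h0 : ¬ ∀ᶠ q in 𝓝 (0 : ℂ × ℂ), H q = 0) :
    ∃ (p ν : ℕ) (G : ℂ × ℂ → ℂ) (u : ℂ → ℂ), AnalyticAt ℂ G 0 ∧ AnalyticAt ℂ u 0 ∧ u 0 ≠ 0 ∧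
      (∀ᶠ b in 𝓝 (0 : ℂ), G (0, b) = b ^ ν * u b) ∧
      ∀ᶠ q in 𝓝 (0 : ℂ × ℂ), H q = q.1 ^ p * G q := by
  obtain ⟨r, hr, hb⟩ := Metric.eventually_nhds_iff_ball.1 hH.eventually_analyticAt
  have hV : ∀ a ∈ ball (0 : ℂ) r, ∀ b ∈ ball (0 : ℂ) r, ((a, b) : ℂ × ℂ) ∈ ball (0 : ℂ × ℂ) r := by
    intro a ha b hb'
    rw [← Prod.mk_zero_zero, ← ball_prod_same]
    exact ⟨ha, hb'⟩
  obtain ⟨b₀, hb₀, hnb⟩ : ∃ b₀ ∈ ball (0 : ℂ) r, ¬ ∀ᶠ a in 𝓝 (0 : ℂ), H (a, b₀) = 0 := by
    by_contra hcon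
    push Not at hcon
    apply h0
    filter_upwards [ball_mem_nhds (0 : ℂ × ℂ) hr] with q hq
    rw [← Prod.mk_zero_zero, ← ball_prod_same] at hq
    have h1 : AnalyticOnNhd ℂ (fun a => H (a, q.2)) (ball 0 r) := fun a ha =>
      (hb _ (hV a ha _ hq.2)).comp_of_eq (analyticAt_id.prod analyticAt_const) rfl
    have h2 := h1.eqOn_zero_of_preconnected_of_eventuallyEq_zero
      (convex_ball (0 : ℂ) r).isPreconnected (mem_ball_self hr)
      (by
        have h3 := hcon q.2 hq.2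
        filter_upwards [h3] with a ha
        simpa using ha)
    exact h2 hq.1
  have hsw : DifferentiableOn ℂ (fun q : ℂ × ℂ => H (q.2, q.1)) (ball 0 r) := by
    intro q hq
    rw [← Prod.mk_zero_zero, ← ball_prod_same] at hq
    have h1 := (hb _ (hV q.2 hq.2 q.1 hq.1)).differentiableAt
    have h2 : DifferentiableAt ℂ (fun q : ℂ × ℂ => ((q.2, q.1) : ℂ × ℂ)) q := by fun_prop
    exact (DifferentiableAt.comp q (g := H) h1 h2).differentiableWithinAt
  have hx₀ : ((b₀, 0) : ℂ × ℂ) ∈ ball (0 : ℂ × ℂ) r := hV b₀ hb₀ 0 (mem_ball_self hr)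
  have hne : ∀ᶠ a in 𝓝[≠] (0 : ℂ), (fun q : ℂ × ℂ => H (q.2, q.1)) (b₀, a) ≠ 0 := by
    have h1 : AnalyticAt ℂ (fun a => H (a, b₀)) 0 :=
      (hb _ (hV 0 (mem_ball_self hr) b₀ hb₀)).comp_of_eq (analyticAt_id.prod analyticAt_const) rfl
    exact h1.eventually_eq_zero_or_eventually_ne_zero.resolve_left hnb
  obtain ⟨p, g', hg', hgg', q₀, hq₀, hq₀2, hq₀n⟩ :=
    H983.div_snd_max (E := ℂ) isOpen_ball hsw hx₀ hne
  have hg'a := Vale.Agent.P268.analyticOnNhd_of_differentiableOn isOpen_ball hg'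
  have h1 : AnalyticOnNhd ℂ (fun b => g' (b, 0)) (ball 0 r) := fun b hb' =>
    (hg'a _ (hV b hb' 0 (mem_ball_self hr))).comp_of_eq (analyticAt_id.prod analyticAt_const) rfl
  have h2 : ¬ ∀ᶠ b in 𝓝 (0 : ℂ), g' (b, 0) = 0 := by
    intro hcon
    have h3 := h1.eqOn_zero_of_preconnected_of_eventuallyEq_zero
      (convex_ball (0 : ℂ) r).isPreconnected (mem_ball_self hr) hcon
    have hq := hq₀
    rw [← Prod.mk_zero_zero, ← ball_prod_same] at hq
    have h4 := h3 hq.1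
    apply hq₀n
    have h5 : q₀ = (q₀.1, 0) := Prod.ext rfl hq₀2
    rw [h5]
    exact h4
  obtain ⟨ν, u, hu, hu0, huν⟩ :=
    ((h1 0 (mem_ball_self hr)).exists_eventuallyEq_pow_smul_nonzero_iff).2 h2
  refine ⟨p, ν, fun q => g' (q.2, q.1), u, ?_, hu, hu0, ?_, ?_⟩
  · exact (hg'a 0 (mem_ball_self hr)).comp_of_eq (analyticAt_snd.prod analyticAt_fst) rfl
  · filter_upwards [huν] with b hb'
    rw [hb', sub_zero, smul_eq_mul]
  · have h3 : Tendsto (fun q : ℂ × ℂ => ((q.2, q.1) : ℂ × ℂ)) (𝓝 0) (𝓝 0) := by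
      have : ContinuousAt (fun q : ℂ × ℂ => ((q.2, q.1) : ℂ × ℂ)) 0 := by fun_prop
      simpa [ContinuousAt, Prod.mk_zero_zero] using this
    filter_upwards [h3.eventually (ball_mem_nhds (0 : ℂ × ℂ) hr)] with q hq
    exact hgg' _ hq

theorem good {H : ℂ × ℂ → ℂ} (hH : AnalyticAt ℂ H 0) (h0 : ¬ ∀ᶠ q in 𝓝 (0 : ℂ × ℂ), H q = 0) :
    Good H := by
  obtain ⟨p, ν, G, u, hG, hu, hu0, hGu, hHG⟩ := exists_regular hH h0
  have h1 := good_of_order (2 * ν + 1) p 0 ν G u hG hu hu0 hGu (by simp)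
  refine h1.congr ?_
  filter_upwards [hHG] with q hq
  rw [hq, pow_zero, mul_one]

/-- normal crossing germs stay normal crossing after a blow-up -/
theorem NC.blow {H : ℂ × ℂ → ℂ} (h : NC H) (d : Option ℂ) : NC (fun q => H (bl d q)) := by
  obtain ⟨p, ν, φ, U, hφ, hφ0, hU, hU0, hH⟩ := h
  obtain ⟨φ₁, hφ₁, hφφ⟩ := exists_mul_self hφ hφ0
  have hUd : AnalyticAt ℂ (fun q => U (bl d q)) 0 :=
    hU.comp_of_eq (analyticAt_bl d 0) (bl_zero d)
  have hUd0 : U (bl d 0) ≠ 0 := by rwa [bl_zero]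
  have hHd := (tendsto_bl d).eventually hH
  cases d with
  | none =>
    refine ⟨p + ν, p, fun _ => 0, fun q => (1 - q.2 * φ₁ (q.1 * q.2)) ^ ν * U (bl none q),
      analyticAt_const, rfl, ?_, ?_, ?_⟩
    · exact ((analyticAt_const.sub (analyticAt_snd.mul
        (hφ₁.comp_of_eq (analyticAt_fst.mul analyticAt_snd) (by simp)))).pow ν).mul hUd
    · refine mul_ne_zero ?_ hUd0
      simp
    · filter_upwards [hHd] with q hq
      rw [hq]
      simp only [bl_none]
      have h1 : q.1 - φ (q.1 * q.2) = q.1 * (1 - q.2 * φ₁ (q.1 * q.2)) := by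
        rw [hφφ]; ring
      rw [h1, mul_pow, mul_pow, sub_zero, pow_add]
      ring
  | some c =>
    have key : ∀ᶠ q in 𝓝 (0 : ℂ × ℂ), H (bl (some c) q) =
        q.1 ^ (p + ν) * (q.2 + c - φ₁ q.1) ^ ν * U (bl (some c) q) := by
      filter_upwards [hHd] with q hq
      rw [hq]
      simp only [bl_some]
      have h1 : q.1 * (q.2 + c) - φ q.1 = q.1 * (q.2 + c - φ₁ q.1) := by
        rw [hφφ]; ring
      rw [h1, mul_pow, pow_add]
      ring
    by_cases hc : c = φ₁ 0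
    · refine ⟨p + ν, ν, fun a => φ₁ a - c, fun q => U (bl (some c) q),
        hφ₁.sub analyticAt_const, by simp [hc], hUd, hUd0, ?_⟩
      filter_upwards [key] with q hq
      rw [hq]
      have h1 : q.2 + c - φ₁ q.1 = q.2 - (φ₁ q.1 - c) := by ring
      rw [h1]
    · refine ⟨p + ν, 0, fun _ => 0, fun q => (q.2 + c - φ₁ q.1) ^ ν * U (bl (some c) q),
        analyticAt_const, rfl, ?_, ?_, ?_⟩
      · exact (((analyticAt_snd.add analyticAt_const).sub
          (hφ₁.comp_of_eq analyticAt_fst rfl)).pow ν).mul hUd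
      · refine mul_ne_zero (pow_ne_zero _ ?_) hUd0
        simp only [Prod.snd_zero, Prod.fst_zero, zero_add]
        exact sub_ne_zero.2 hc
      · filter_upwards [key] with q hq
        rw [hq, pow_zero]
        ring

/-- (B1) the centres of the blow-ups -/
theorem exists_centres {H : ℂ × ℂ → ℂ} (hH : Good H) :
    ∃ C : Finset (List (Option ℂ)), [] ∈ C ∧ (∀ d w, d :: w ∈ C → w ∈ C) ∧
      ∀ w ∈ C, ∀ d, d :: w ∉ C → NC (fun q => H (psi (d :: w) q)) := by
  classical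
  induction hH with
  | nc h =>
    refine ⟨{[]}, by simp, fun d w hw => by simp at hw, fun w hw d _ => ?_⟩
    rw [Finset.mem_singleton] at hw
    subst hw
    exact h.blow d
  | blow S h h' ih =>
    rename_i H
    choose! C hC1 hC2 hC3 using ih
    refine ⟨insert [] (S.biUnion fun d => (C d).image fun w => w ++ [d]),
      Finset.mem_insert_self _ _, ?_, ?_⟩
    · intro d w hw
      simp only [Finset.mem_insert, Finset.mem_biUnion, Finset.mem_image, reduceCtorEq,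
        false_or] at hw ⊢
      obtain ⟨e, he, v, hv, hvw⟩ := hw
      rcases v with _ | ⟨d', v⟩
      · simp at hvw
        exact .inl hvw.2
      · simp only [List.cons_append, List.cons.injEq] at hvw
        obtain ⟨rfl, rfl⟩ := hvw
        exact .inr ⟨e, he, v, hC2 e he _ _ hv, rfl⟩
    · intro w hw d hdw
      simp only [Finset.mem_insert, Finset.mem_biUnion, Finset.mem_image] at hw hdw
      rcases hw with rfl | ⟨e, he, v, hv, rfl⟩
      · have h1 : d ∉ S := by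
          intro hd
          refine hdw (.inr ⟨d, hd, [], hC1 d hd, rfl⟩)
        exact h d h1
      · have h1 : d :: v ∉ C e := fun h2 => hdw (.inr ⟨e, he, d :: v, h2, rfl⟩)
        have h2 := hC3 e he v hv d h1
        refine h2.congr (.of_forall fun q => ?_)
        rw [← List.cons_append, psi_append]
        rfl

end Vale.Agent.P298.H928
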