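import Vale.Agent.P298.H928.Blow

/-!
# P298 / H928 (row E1-BASE), part 2: expansions, the Tschirnhaus coordinate
-/

open Set Filter Metric Topology Polynomial

noncomputable section

namespace Vale.Agent.P298.H928

/-- the function `∑_{i<ν} g_i(a) b^i + b^ν U(a,b)` -/
def EG (ν : ℕ) (g : ℕ → ℂ → ℂ) (U : ℂ × ℂ → ℂ) (q : ℂ × ℂ) : ℂ :=
  ∑ i ∈ Finset.range ν, g i q.1 * q.2 ^ i + q.2 ^ ν * U q

theorem analyticAt_EG {ν : ℕ} {g : ℕ → ℂ → ℂ} {U : ℂ × ℂ → ℂ} (hg : ∀ i, AnalyticAt ℂ (g i) 0)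
    (hU : AnalyticAt ℂ U 0) : AnalyticAt ℂ (EG ν g U) 0 := by
  refine AnalyticAt.add ?_ ((analyticAt_snd.pow ν).mul hU)
  refine Finset.analyticAt_fun_sum _ fun i _ => ?_
  exact ((hg i).comp_of_eq analyticAt_fst rfl).mul (analyticAt_snd.pow i)

theorem exists_EG (ν : ℕ) {G : ℂ × ℂ → ℂ} (hG : AnalyticAt ℂ G 0) :
    ∃ (g : ℕ → ℂ → ℂ) (U : ℂ × ℂ → ℂ), (∀ i, AnalyticAt ℂ (g i) 0) ∧ AnalyticAt ℂ U 0 ∧
      ∀ᶠ q in 𝓝 (0 : ℂ × ℂ), G q = EG ν g U q := by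
  induction ν generalizing G with
  | zero => exact ⟨fun _ _ => 0, G, fun _ => analyticAt_const, hG, .of_forall fun q => by simp [EG]⟩
  | succ ν ih =>
    have hr : AnalyticAt ℂ (fun a => G (a, 0)) 0 :=
      hG.comp_of_eq (analyticAt_id.prod analyticAt_const) rfl
    obtain ⟨R, hR, hGR⟩ := div_b (G := fun q => G q - G (q.1, 0))
      (hG.sub (hr.comp_of_eq analyticAt_fst rfl)) (.of_forall fun a => by simp)
    obtain ⟨g, U, hg, hU, h⟩ := ih hR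
    refine ⟨fun i => Nat.casesOn i (fun a => G (a, 0)) g, U, ?_, hU, ?_⟩
    · rintro (_ | i)
      · exact hr
      · exact hg i
    · filter_upwards [hGR, h] with q hq hq'
      rw [EG, Finset.sum_range_succ']
      rw [EG] at hq'
      have h1 : G q = G (q.1, 0) + q.2 * R q := by linear_combination hq
      rw [h1, hq', mul_add, Finset.mul_sum]
      have h2 : ∀ i ∈ Finset.range ν, q.2 * (g i q.1 * q.2 ^ i) = g i q.1 * q.2 ^ (i + 1) :=
        fun i _ => by ring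
      rw [Finset.sum_congr rfl h2, pow_zero, mul_one]
      change G (q.1, 0) + (∑ x ∈ Finset.range ν, g x q.1 * q.2 ^ (x + 1) +
        q.2 * (q.2 ^ ν * U q)) = ∑ x ∈ Finset.range ν, g x q.1 * q.2 ^ (x + 1) + G (q.1, 0) +
        q.2 ^ (ν + 1) * U q
      ring

/-! ### the derivative in the second coordinate -/

/-- partial derivative in the second coordinate -/
def Db (G : ℂ × ℂ → ℂ) (q : ℂ × ℂ) : ℂ := deriv (fun t => G (q.1, t)) q.2

theorem hasDerivAt_snd {G : ℂ × ℂ → ℂ} {q : ℂ × ℂ} (hG : AnalyticAt ℂ G q) :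
    HasDerivAt (fun t => G (q.1, t)) (fderiv ℂ G q (0, 1)) q.2 := by
  have h1 : HasFDerivAt G (fderiv ℂ G q) (q.1, q.2) := hG.differentiableAt.hasFDerivAt
  have h2 : HasDerivAt (fun t : ℂ => ((q.1, t) : ℂ × ℂ)) (0, 1) q.2 :=
    (hasDerivAt_const q.2 q.1).prodMk (hasDerivAt_id q.2)
  exact h1.comp_hasDerivAt q.2 h2

theorem Db_eq {G : ℂ × ℂ → ℂ} {q : ℂ × ℂ} (hG : AnalyticAt ℂ G q) :
    Db G q = fderiv ℂ G q (0, 1) := (hasDerivAt_snd hG).deriv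

theorem analyticAt_Db {G : ℂ × ℂ → ℂ} (hG : AnalyticAt ℂ G 0) : AnalyticAt ℂ (Db G) 0 := by
  have h1 : AnalyticAt ℂ (fun q => fderiv ℂ G q (0, 1)) 0 := by
    have h2 := hG.fderiv
    exact ((ContinuousLinearMap.apply ℂ ℂ ((0, 1) : ℂ × ℂ)).analyticAt _).comp h2
  refine h1.congr ?_
  filter_upwards [hG.eventually_analyticAt] with q hq
  exact (Db_eq hq).symm

theorem Db_congr {G G' : ℂ × ℂ → ℂ} (h : ∀ᶠ q in 𝓝 (0 : ℂ × ℂ), G q = G' q) :
    ∀ᶠ q in 𝓝 (0 : ℂ × ℂ), Db G q = Db G' q := by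
  filter_upwards [h.eventually_nhds] with q hq
  have h1 : Tendsto (fun t : ℂ => ((q.1, t) : ℂ × ℂ)) (𝓝 q.2) (𝓝 q) :=
    (Continuous.prodMk_right q.1).continuousAt
  exact Filter.EventuallyEq.deriv_eq (h1.eventually hq)

theorem Db_EG {ν : ℕ} {g : ℕ → ℂ → ℂ} {U : ℂ × ℂ → ℂ} (hU : AnalyticAt ℂ U 0) :
    ∀ᶠ q in 𝓝 (0 : ℂ × ℂ), Db (EG (ν + 1) g U) q =
      EG ν (fun i a => (i + 1) * g (i + 1) a) (fun q => (ν + 1) * U q + q.2 * Db U q) q := by
  filter_upwards [hU.eventually_analyticAt] with q hq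
  have h1 : HasDerivAt (fun t => ∑ i ∈ Finset.range (ν + 1), g i q.1 * t ^ i)
      (∑ i ∈ Finset.range (ν + 1), g i q.1 * (i * q.2 ^ (i - 1))) q.2 := by
    refine HasDerivAt.fun_sum fun i _ => ?_
    exact (hasDerivAt_pow i q.2).const_mul _
  have h2 : HasDerivAt (fun t => t ^ (ν + 1) * U (q.1, t))
      (((ν + 1 : ℕ) * q.2 ^ ν) * U q + q.2 ^ (ν + 1) * Db U q) q.2 := by
    have h3 := (hasDerivAt_pow (ν + 1) q.2).mul (hasDerivAt_snd hq)
    rw [← Db_eq hq] at h3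
    exact h3
  have h4 := (h1.add h2).deriv
  rw [Db]
  have h5 : (fun t => EG (ν + 1) g U (q.1, t)) = (fun t => ∑ i ∈ Finset.range (ν + 1),
      g i q.1 * t ^ i) + fun t => t ^ (ν + 1) * U (q.1, t) := rfl
  rw [h5, h4, Finset.sum_range_succ', EG]
  push_cast
  have h6 : ∀ i ∈ Finset.range ν, g (i + 1) q.1 * (((i : ℂ) + 1) * q.2 ^ i) =
      ((i : ℂ) + 1) * g (i + 1) q.1 * q.2 ^ i := fun i _ => by ring
  rw [Finset.sum_congr rfl h6]
  ring

theorem exists_iter {ν : ℕ} {g : ℕ → ℂ → ℂ} {U G : ℂ × ℂ → ℂ} (hg : ∀ i, AnalyticAt ℂ (g i) 0)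
    (hU : AnalyticAt ℂ U 0) (hG : ∀ᶠ q in 𝓝 (0 : ℂ × ℂ), G q = EG (ν + 1) g U q) :
    ∃ (c c' : ℂ) (U' : ℂ × ℂ → ℂ), c ≠ 0 ∧ c' ≠ 0 ∧ AnalyticAt ℂ U' 0 ∧ U' 0 = c' * U 0 ∧
      ∀ᶠ q in 𝓝 (0 : ℂ × ℂ), Db^[ν] G q = c * g ν q.1 + q.2 * U' q := by
  induction ν generalizing g U G with
  | zero =>
    refine ⟨1, 1, U, one_ne_zero, one_ne_zero, hU, (one_mul _).symm, ?_⟩
    filter_upwards [hG] with q hq
    rw [Function.iterate_zero, id_eq, hq, EG]
    simp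
  | succ ν ih =>
    have h1 := (Db_congr hG).and (Db_EG (ν := ν + 1) (g := g) hU)
    obtain ⟨c, c', U', h2, h3, h4, h5, h6⟩ := ih (G := Db G)
      (g := fun i a => (i + 1) * g (i + 1) a)
      (U := fun q => ((ν + 1 : ℕ) + 1) * U q + q.2 * Db U q)
      (fun i => analyticAt_const.mul (hg (i + 1)))
      ((analyticAt_const.mul hU).add (analyticAt_snd.mul (analyticAt_Db hU)))
      (h1.mono fun q hq => hq.1.trans hq.2)
    refine ⟨c * (ν + 1), c' * (ν + 1 + 1), U', mul_ne_zero h2 (by exact_mod_cast ν.succ_ne_zero),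
      mul_ne_zero h3 (by exact_mod_cast (ν + 1).succ_ne_zero), h4, ?_, ?_⟩
    · rw [h5]
      simp
      ring
    · filter_upwards [h6] with q hq
      rw [Function.iterate_succ_apply, hq]
      ring

theorem iter_shift (k : ℕ) (G : ℂ × ℂ → ℂ) (φ : ℂ → ℂ) :
    Db^[k] (fun q => G (q.1, q.2 + φ q.1)) = fun q => Db^[k] G (q.1, q.2 + φ q.1) := by
  induction k generalizing G with
  | zero => rfl
  | succ k ih =>
    rw [Function.iterate_succ_apply, Function.iterate_succ_apply, ← ih]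
    congr 1
    funext q
    simp only [Db]
    exact deriv_comp_add_const (fun s => G (q.1, s)) (φ q.1) q.2

theorem analyticAt_iter (k : ℕ) {G : ℂ × ℂ → ℂ} (hG : AnalyticAt ℂ G 0) :
    AnalyticAt ℂ (Db^[k] G) 0 := by
  induction k generalizing G with
  | zero => exact hG
  | succ k ih =>
    rw [Function.iterate_succ_apply]
    exact ih (analyticAt_Db hG)

/-- the expansion at `0` of a function of order `ν` in the second coordinate -/
theorem EG_order {ν : ℕ} {g : ℕ → ℂ → ℂ} {U : ℂ × ℂ → ℂ}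
    (hU : AnalyticAt ℂ U 0) {u : ℂ → ℂ} (hu : AnalyticAt ℂ u 0) (hu0 : u 0 ≠ 0)
    (h : ∀ᶠ b in 𝓝 (0 : ℂ), EG ν g U (0, b) = b ^ ν * u b) : U 0 ≠ 0 ∧ ∀ i < ν, g i 0 = 0 := by
  have hU' : AnalyticAt ℂ (fun b => U (0, b)) 0 :=
    hU.comp_of_eq (analyticAt_const.prod analyticAt_id) rfl
  have key : ∀ k ≤ ν, (∀ i < k, g i 0 = 0) ∧ ∀ᶠ b in 𝓝 (0 : ℂ),
      (∑ i ∈ Finset.range (ν - k), g (i + k) 0 * b ^ i + b ^ (ν - k) * U (0, b)) =
        b ^ (ν - k) * u b := by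
    intro k
    induction k with
    | zero =>
      refine fun _ => ⟨fun i hi => absurd hi (Nat.not_lt_zero i), ?_⟩
      filter_upwards [h] with b hb
      rw [EG] at hb
      simpa using hb
    | succ k ih =>
      intro hk
      obtain ⟨h1, h2⟩ := ih (by omega)
      have h3 : ν - k = (ν - (k + 1)) + 1 := by omega
      rw [h3] at h2
      have h4 : g k 0 = 0 := by
        have h5 := h2.self_of_nhds
        rw [Finset.sum_range_succ'] at h5
        simpa using h5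
      refine ⟨fun i hi => ?_, ?_⟩
      · rcases Nat.lt_succ_iff_lt_or_eq.1 hi with h6 | rfl
        · exact h1 i h6
        · exact h4
      · have h7 : ∀ᶠ b in 𝓝 (0 : ℂ), b ^ 1 *
            (∑ i ∈ Finset.range (ν - (k + 1)), g (i + (k + 1)) 0 * b ^ i +
              b ^ (ν - (k + 1)) * U (0, b)) = b ^ 1 * (b ^ (ν - (k + 1)) * u b) := by
          filter_upwards [h2] with b hb
          rw [Finset.sum_range_succ'] at hb
          simp only [zero_add, h4, zero_mul, add_zero] at hb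
          rw [mul_add, Finset.mul_sum]
          have h8 : ∀ i ∈ Finset.range (ν - (k + 1)), b ^ 1 * (g (i + (k + 1)) 0 * b ^ i) =
              g (i + 1 + k) 0 * b ^ (i + 1) := fun i _ => by
            rw [show i + (k + 1) = i + 1 + k by ring]; ring
          rw [Finset.sum_congr rfl h8]
          linear_combination hb
        refine cancel_pow h7 ?_ ?_
        · refine ContinuousAt.add ?_ ?_
          · exact tendsto_finsetSum _ fun i _ =>
              (continuousAt_const.mul (continuousAt_id.pow i))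
          · exact (continuousAt_id.pow _).mul hU'.continuousAt
        · exact (continuousAt_id.pow _).mul hu.continuousAt
  obtain ⟨h1, h2⟩ := key ν le_rfl
  refine ⟨?_, h1⟩
  have h3 := h2.self_of_nhds
  simp only [Nat.sub_self, Finset.range_zero, Finset.sum_empty, zero_add, pow_zero, one_mul] at h3
  rw [show (0 : ℂ × ℂ) = (0, 0) from rfl, h3]
  exact hu0

/-- the Tschirnhaus coordinate: after a shift the coefficient of `b^ν` vanishes -/
theorem exists_shift {ν : ℕ} {G : ℂ × ℂ → ℂ} (hG : AnalyticAt ℂ G 0) {u : ℂ → ℂ}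
    (hu : AnalyticAt ℂ u 0) (hu0 : u 0 ≠ 0)
    (h : ∀ᶠ b in 𝓝 (0 : ℂ), G (0, b) = b ^ (ν + 1) * u b) :
    ∃ φ : ℂ → ℂ, AnalyticAt ℂ φ 0 ∧ φ 0 = 0 ∧ ∃ (g : ℕ → ℂ → ℂ) (U : ℂ × ℂ → ℂ),
      (∀ i, AnalyticAt ℂ (g i) 0) ∧ AnalyticAt ℂ U 0 ∧
      (∀ᶠ q in 𝓝 (0 : ℂ × ℂ), G q = EG (ν + 1) g U (q.1, q.2 - φ q.1)) ∧
      U 0 ≠ 0 ∧ (∀ i < ν + 1, g i 0 = 0) ∧ ∀ᶠ a in 𝓝 (0 : ℂ), g ν a = 0 := by
  obtain ⟨g, U, hg, hU, hGE⟩ := exists_EG (ν + 1) hG
  have ht : Tendsto (fun b : ℂ => ((0, b) : ℂ × ℂ)) (𝓝 0) (𝓝 0) :=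
    (Continuous.prodMk_right (0 : ℂ)).continuousAt
  have h1 : ∀ᶠ b in 𝓝 (0 : ℂ), EG (ν + 1) g U (0, b) = b ^ (ν + 1) * u b := by
    filter_upwards [h, ht.eventually hGE] with b hb hb'
    rw [← hb, ← hb']
  obtain ⟨hU0, hg0⟩ := EG_order hU hu hu0 h1
  obtain ⟨c, c', U', hc, hc', hU', hU'0, hF⟩ := exists_iter hg hU hGE
  set F : ℂ × ℂ → ℂ := Db^[ν] G with hFdef
  have hFa : AnalyticAt ℂ F 0 := analyticAt_iter ν hG
  -- implicit function
  have hF0 : F 0 = 0 := by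
    rw [hF.self_of_nhds]
    simp [hg0 ν (Nat.lt_succ_self ν)]
  have hFd : fderiv ℂ F 0 (0, 1) = c' * U 0 := by
    have h2 : HasDerivAt (fun t => F ((0 : ℂ), t)) (fderiv ℂ F 0 (0, 1)) 0 :=
      hasDerivAt_snd (q := 0) hFa
    have h3 : HasDerivAt (fun t : ℂ => t * U' (0, t)) (1 * U' (0, 0) + 0 * fderiv ℂ U' 0 (0, 1)) 0 :=
      (hasDerivAt_id (0 : ℂ)).mul (hasDerivAt_snd (q := 0) hU')
    have h4 : (fun t : ℂ => F (0, t)) =ᶠ[𝓝 0] fun t => t * U' (0, t) := by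
      filter_upwards [ht.eventually hF] with t ht'
      rw [ht', hg0 ν (Nat.lt_succ_self ν)]
      simp
    rw [h2.unique (h3.congr_of_eventuallyEq h4), one_mul, zero_mul, add_zero, ← hU'0]
    rfl
  set Ψ : ℂ × ℂ → ℂ := fun p => F (p.2, p.1) with hΨ
  have hΨa : AnalyticAt ℂ Ψ (0, 0) :=
    hFa.comp_of_eq (analyticAt_snd.prod analyticAt_fst) rfl
  have hΨd : ∀ v, fderiv ℂ Ψ (0, 0) (v, 0) = v * (c' * U 0) := by
    intro v
    have h2 : HasFDerivAt (fun p : ℂ × ℂ => ((p.2, p.1) : ℂ × ℂ))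
        ((ContinuousLinearMap.snd ℂ ℂ ℂ).prod (ContinuousLinearMap.fst ℂ ℂ ℂ)) (0, 0) :=
      hasFDerivAt_snd.prodMk hasFDerivAt_fst
    have h3 : HasFDerivAt F (fderiv ℂ F 0) (((0, 0) : ℂ × ℂ).2, ((0, 0) : ℂ × ℂ).1) :=
      hFa.differentiableAt.hasFDerivAt
    have h4 := (h3.comp (0, 0) h2).fderiv
    have h5 : fderiv ℂ Ψ (0, 0) = fderiv ℂ (F ∘ fun p : ℂ × ℂ => ((p.2, p.1) : ℂ × ℂ)) (0, 0) := rfl
    rw [h5, h4]
    simp only [ContinuousLinearMap.comp_apply, ContinuousLinearMap.prod_apply,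
      ContinuousLinearMap.coe_fst', ContinuousLinearMap.coe_snd']
    have h6 : ((0, v) : ℂ × ℂ) = v • ((0, 1) : ℂ × ℂ) := by simp
    rw [h6, map_smul, hFd, smul_eq_mul]
  obtain ⟨φ, hφ, hφ0, hφF, -⟩ := H652.exists_implicit_pt (W := ℂ) (P := ℂ) hΨa hF0
    ⟨ContinuousLinearEquiv.smulLeft (Units.mk0 _ (mul_ne_zero hc' hU0)), fun v => by
      rw [hΨd, mul_comm]
      rfl⟩
  refine ⟨φ, hφ, hφ0, ?_⟩
  -- the shifted function
  set G' : ℂ × ℂ → ℂ := fun q => G (q.1, q.2 + φ q.1) with hG'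
  have hG'a : AnalyticAt ℂ G' 0 := by
    refine hG.comp_of_eq (analyticAt_fst.prod (analyticAt_snd.add
      (hφ.comp_of_eq analyticAt_fst rfl))) ?_
    simp [hφ0, Prod.ext_iff]
  obtain ⟨g', V, hg', hV, hGE'⟩ := exists_EG (ν + 1) hG'a
  obtain ⟨e, e', V', he, he', hV', hV'0, hF'⟩ := exists_iter hg' hV hGE'
  have h2 : ∀ᶠ b in 𝓝 (0 : ℂ), EG (ν + 1) g' V (0, b) = b ^ (ν + 1) * u b := by
    filter_upwards [h, ht.eventually hGE'] with b hb hb'
    rw [← hb, ← hb']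
    simp [hG', hφ0]
  obtain ⟨hV0, hg'0⟩ := EG_order hV hu hu0 h2
  refine ⟨g', V, hg', hV, ?_, hV0, hg'0, ?_⟩
  · have h3 : Tendsto (fun q : ℂ × ℂ => ((q.1, q.2 - φ q.1) : ℂ × ℂ)) (𝓝 0) (𝓝 0) := by
      have h4 : ContinuousAt (fun q : ℂ × ℂ => ((q.1, q.2 - φ q.1) : ℂ × ℂ)) 0 :=
        continuousAt_fst.prodMk (continuousAt_snd.sub
          (hφ.continuousAt.comp_of_eq continuousAt_fst rfl))
      rw [ContinuousAt] at h4
      simpa [hφ0, Prod.mk_zero_zero] using h4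
    filter_upwards [h3.eventually hGE'] with q hq
    rw [← hq, hG']
    simp
  · have h3 : Tendsto (fun a : ℂ => ((a, 0) : ℂ × ℂ)) (𝓝 0) (𝓝 0) :=
      (Continuous.prodMk_left (0 : ℂ)).continuousAt
    filter_upwards [h3.eventually hF', hφF] with a ha ha'
    rw [hG', iter_shift] at ha
    simp only [zero_add, zero_mul, add_zero] at ha
    have h4 : F (a, φ a) = 0 := ha'
    rw [← hFdef, h4] at ha
    exact (mul_eq_zero.1 ha.symm).resolve_left he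

end Vale.Agent.P298.H928
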