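import Vale.Agent.P298.H928.Res

/-!
# P298 / H928 (row E1-BASE), part 4: resolution by point blow-ups, the induction
-/

open Set Filter Metric Topology Polynomial

noncomputable section

namespace Vale.Agent.P298.H928

/-- the outer induction hypothesis -/
def IHs (N : ℕ) : Prop :=
  ∀ (p κ ν : ℕ) (G : ℂ × ℂ → ℂ) (u : ℂ → ℂ), AnalyticAt ℂ G 0 → AnalyticAt ℂ u 0 → u 0 ≠ 0 →
    (∀ᶠ b in 𝓝 (0 : ℂ), G (0, b) = b ^ ν * u b) → 2 * ν + min κ 1 < N →
    Good (fun q => q.1 ^ p * q.2 ^ κ * G q)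

theorem none_order {ν m : ℕ} (hm : m < ν) {w : ℕ → ℂ → ℂ} {U : ℂ × ℂ → ℂ} (k : ℂ)
    (hP : initP ν m w U ≠ 0) :
    ∃ (n : ℕ) (Q : ℂ[X]), n ≤ m ∧ Q.eval 0 ≠ 0 ∧ ∀ b : ℂ,
      ∑ i ∈ Finset.range ν, (0 : ℂ) ^ (i - m) * b ^ (m - i) * w i 0 * (1 - b * k) ^ i +
        0 ^ (ν - m) * (1 - b * k) ^ ν * U 0 = b ^ n * Q.eval b := by
  set T : ℂ[X] := ∑ i ∈ Finset.range ν, C (0 ^ (i - m) * w i 0) * X ^ (m - i) * (1 - X * C k) ^ i
    with hT
  have hTe : ∀ b : ℂ, ∑ i ∈ Finset.range ν, (0 : ℂ) ^ (i - m) * b ^ (m - i) * w i 0 *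
      (1 - b * k) ^ i + 0 ^ (ν - m) * (1 - b * k) ^ ν * U 0 = T.eval b := by
    intro b
    rw [hT, eval_finsetSum, zero_pow (by omega : ν - m ≠ 0), zero_mul, zero_mul, add_zero]
    refine Finset.sum_congr rfl fun i _ => ?_
    simp only [eval_mul, eval_C, eval_pow, eval_X, eval_sub, eval_one]
    ring
  have hTd : T.natDegree ≤ m := by
    refine natDegree_sum_le_of_forall_le _ _ fun i _ => ?_
    rcases le_or_gt i m with h1 | h1
    · have h2 : ((1 : ℂ[X]) - X * C k).natDegree ≤ 1 := by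
        refine (natDegree_sub_le _ _).trans ?_
        rw [natDegree_one]
        refine max_le (by omega) ((natDegree_mul_le).trans ?_)
        rw [natDegree_C, add_zero]
        exact natDegree_X_le
      have h3 : ((1 - X * C k) ^ i : ℂ[X]).natDegree ≤ i := by
        refine natDegree_pow_le.trans ?_
        nlinarith
      have h4 : (C (0 ^ (i - m) * w i 0) * X ^ (m - i) : ℂ[X]).natDegree ≤ m - i :=
        natDegree_C_mul_X_pow_le _ _
      refine natDegree_mul_le.trans ?_
      omega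
    · rw [zero_pow (by omega), zero_mul, C_0, zero_mul, zero_mul]
      simp
  have hT0 : T ≠ 0 := by
    intro h0
    apply hP
    refine eq_zero_of_infinite_isRoot _ (Set.Infinite.mono (s := {-k}ᶜ) ?_
      (Set.finite_singleton (-k)).infinite_compl)
    intro t ht
    have ht' : t + k ≠ 0 := fun h => ht (by
      rw [mem_singleton_iff]
      linear_combination h)
    have h1 := hTe (t + k)⁻¹
    rw [h0, eval_zero, zero_pow (by omega : ν - m ≠ 0), zero_mul, zero_mul, add_zero] at h1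
    change (initP ν m w U).eval t = 0
    rw [initP_eval, zero_pow (by omega : ν - m ≠ 0), zero_mul, zero_mul, add_zero]
    have h2 : ((t + k)⁻¹) ^ m * ∑ i ∈ Finset.range ν, (0 : ℂ) ^ (i - m) * w i 0 * t ^ i = 0 := by
      rw [Finset.mul_sum]
      refine Eq.trans (Finset.sum_congr rfl fun i _ => ?_) h1
      rcases le_or_gt i m with h3 | h3
      · have h4 : 1 - (t + k)⁻¹ * k = (t + k)⁻¹ * t := by field_simp; ring
        have h5 : ((t + k)⁻¹) ^ m = ((t + k)⁻¹) ^ (m - i) * ((t + k)⁻¹) ^ i := by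
          rw [← pow_add]
          congr 1
          omega
        rw [h4, h5, mul_pow]
        ring
      · rw [zero_pow (by omega)]
        ring
    exact (mul_eq_zero.1 h2).resolve_left (pow_ne_zero _ (inv_ne_zero ht'))
  obtain ⟨n, Q, h1, h2, h3⟩ := exists_root_pow hT0 0
  refine ⟨n, Q, h1.trans hTd, h3, fun b => ?_⟩
  rw [hTe, h2]
  simp

theorem inner {ν κ : ℕ} (hν : 0 < ν) (IH : IHs (2 * ν + min κ 1)) (N0 : ℕ) :
    ∀ (p : ℕ) (g : ℕ → ℂ → ℂ) (U : ℂ × ℂ → ℂ) (ψ u : ℂ → ℂ) (j0 : ℕ),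
      (∀ i, AnalyticAt ℂ (g i) 0) → AnalyticAt ℂ U 0 → U 0 ≠ 0 → (∀ i < ν, g i 0 = 0) →
      AnalyticAt ℂ ψ 0 → ψ 0 = 0 →
      ((κ = 0 ∧ ∀ᶠ a in 𝓝 (0 : ℂ), g (ν - 1) a = 0) ∨ (0 < κ ∧ ∀ a, ψ a = 0)) →
      j0 < ν → AnalyticAt ℂ u 0 → u 0 ≠ 0 → (∀ᶠ a in 𝓝 (0 : ℂ), g j0 a = a ^ N0 * u a) →
      Good (fun q => q.1 ^ p * q.2 ^ κ * EG ν g U (q.1, q.2 - ψ q.1)) := by
  induction N0 using Nat.strong_induction_on with
  | _ N0 ihN =>
  intro p g U ψ u j0 hg hU hU0 hg0 hψ hψ0 hcase hj0 hu hu0 hgu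
  obtain ⟨m, hm, w, hw, hgw, hmax⟩ := exists_max ν g hg hg0
  obtain ⟨ψ₁, hψ₁, hψψ⟩ := exists_mul_self hψ hψ0
  have hP := initP_ne_zero (w := w) hU0 hm hmax
  -- the finite charts
  have hfin : ∀ c : ℂ, ∀ᶠ q in 𝓝 (0 : ℂ × ℂ),
      (bl (some c) q).1 ^ p * (bl (some c) q).2 ^ κ *
        EG ν g U ((bl (some c) q).1, (bl (some c) q).2 - ψ (bl (some c) q).1) =
      q.1 ^ (p + κ + m) * (q.2 + c) ^ κ *
        Rs ν m w U (fun q => q.2 + c - ψ₁ q.1) q := by
    intro c
    filter_upwards [EG_eq_Rs (U := U) (β := fun q => q.2 + c - ψ₁ q.1) hm hgw] with q hq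
    simp only [bl_some]
    have h1 : q.1 * (q.2 + c) - ψ q.1 = q.1 * (q.2 + c - ψ₁ q.1) := by
      rw [hψψ]; ring
    rw [h1, hq, mul_pow, pow_add, pow_add]
    ring
  have hβa : ∀ c : ℂ, AnalyticAt ℂ (fun q : ℂ × ℂ => q.2 + c - ψ₁ q.1) 0 := fun c =>
    (analyticAt_snd.add analyticAt_const).sub (hψ₁.comp_of_eq analyticAt_fst rfl)
  have hRa : ∀ c : ℂ, AnalyticAt ℂ (Rs ν m w U (fun q => q.2 + c - ψ₁ q.1)) 0 := fun c =>
    analyticAt_Rs hw hU (hβa c)
  have hψ₁z : (∀ a, ψ a = 0) → ∀ a, ψ₁ a = 0 := by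
    intro h
    have h1 : ∀ a ≠ 0, ψ₁ a = 0 := fun a ha => by
      have := hψψ a
      rw [h a] at this
      exact (mul_eq_zero.1 this.symm).resolve_left ha
    have h2 : ∀ᶠ a in 𝓝 (0 : ℂ), ψ₁ a = (fun _ => (0 : ℂ)) a :=
      cancel_pow (k := 1) (.of_forall fun a => by
        rw [pow_one]
        rcases eq_or_ne a 0 with rfl | ha
        · simp
        · simp [h1 a ha]) hψ₁.continuousAt continuousAt_const
    intro a
    rcases eq_or_ne a 0 with rfl | ha
    · exact h2.self_of_nhds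
    · exact h1 a ha
  have hsome : ∀ c : ℂ, Good (fun q => (bl (some c) q).1 ^ p * (bl (some c) q).2 ^ κ *
        EG ν g U ((bl (some c) q).1, (bl (some c) q).2 - ψ (bl (some c) q).1)) := by
    intro c
    obtain ⟨n, Q, hn, hPQ, hQ0⟩ := exists_root_pow hP (c - ψ₁ 0)
    have hnm : n ≤ m := hn.trans (initP_natDegree_le hm w U)
    have hR0 : ∀ b : ℂ, Rs ν m w U (fun q => q.2 + c - ψ₁ q.1) (0, b) =
        b ^ n * Q.eval (b + (c - ψ₁ 0)) := by
      intro b
      rw [Rs_zero]
      conv_lhs => rw [hPQ]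
      simp only [eval_mul, eval_pow, eval_sub, eval_X, eval_C]
      have h1 : b + c - ψ₁ 0 - (c - ψ₁ 0) = b := by ring
      have h2 : b + c - ψ₁ 0 = b + (c - ψ₁ 0) := by ring
      rw [h1, h2]
    have hQa : AnalyticAt ℂ (fun b : ℂ => Q.eval (b + (c - ψ₁ 0))) 0 := by
      have : Differentiable ℂ fun b : ℂ => Q.eval (b + (c - ψ₁ 0)) :=
        Q.differentiable.comp (differentiable_id.add_const _)
      exact this.analyticAt 0
    have hQ0' : Q.eval ((0 : ℂ) + (c - ψ₁ 0)) ≠ 0 := by rwa [zero_add]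
    by_cases hκc : 0 < κ ∧ c ≠ 0
    · obtain ⟨hκ, hc⟩ := hκc
      have h1 := IH (p + κ + m) 0 n
        (fun q => (q.2 + c) ^ κ * Rs ν m w U (fun q => q.2 + c - ψ₁ q.1) q)
        (fun b => (b + c) ^ κ * Q.eval (b + (c - ψ₁ 0)))
        (((analyticAt_snd.add analyticAt_const).pow κ).mul (hRa c))
        (((analyticAt_id.add analyticAt_const).pow κ).mul hQa)
        (mul_ne_zero (by rw [zero_add]; exact pow_ne_zero _ hc) hQ0')
        (.of_forall fun b => by
          dsimp only
          rw [hR0]; ring) (by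
          have : min κ 1 = 1 := by omega
          simp only [this]
          omega)
      refine h1.congr ?_
      filter_upwards [hfin c] with q hq
      rw [hq, pow_zero]
      ring
    · have hκc' : ∀ x : ℂ, (x + c) ^ κ = x ^ κ := by
        intro x
        rcases Nat.eq_zero_or_pos κ with h | h
        · rw [h, pow_zero, pow_zero]
        · rw [not_and_not_right.1 hκc h, add_zero]
      rcases (hnm.trans hm).lt_or_eq with hlt | heq
      · have h1 := IH (p + κ + m) κ n (Rs ν m w U (fun q => q.2 + c - ψ₁ q.1))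
          (fun b => Q.eval (b + (c - ψ₁ 0))) (hRa c) hQa hQ0' (.of_forall hR0) (by omega)
        refine h1.congr ?_
        filter_upwards [hfin c] with q hq
        rw [hq, hκc']
      · subst heq
        obtain ⟨h1, h2, h3⟩ := initP_pure hm hν hP hPQ
        subst h1
        have hwz : κ = 0 → ∀ᶠ a in 𝓝 (0 : ℂ), w (m - 1) a = 0 := by
          intro hκ
          rcases hcase with ⟨-, h4⟩ | ⟨h4, -⟩
          · have h5 : ∀ᶠ a in 𝓝 (0 : ℂ), w (m - 1) a = (fun _ => (0 : ℂ)) a := by
              refine cancel_pow (k := 1) ?_ (hw _).continuousAt continuousAt_const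
              filter_upwards [h4, hgw (m - 1)] with a ha ha'
              rcases ha' with ha' | ha'
              · rw [ha] at ha'
                have h6 : m - (m - 1) = 1 := by omega
                rw [h6] at ha'
                rw [← ha', mul_zero]
              · omega
            exact h5
          · omega
        have hc0 : c - ψ₁ 0 = 0 := by
          rcases hcase with ⟨h4, -⟩ | ⟨h4, h5⟩
          · exact h2 (hwz h4).self_of_nhds
          · rw [not_and_not_right.1 hκc h4, hψ₁z h5 0, sub_zero]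
        have hw0 := h3 hc0
        -- the new order
        have h7 : ∀ᶠ a in 𝓝 (0 : ℂ), a ^ (m - j0) * w j0 a = a ^ N0 * u a := by
          filter_upwards [hgu, hgw j0] with a ha ha'
          rcases ha' with ha' | ha'
          · rw [← ha, ← ha']
          · omega
        have h8 : m - j0 ≤ N0 := by
          by_contra hcon
          push Not at hcon
          obtain ⟨k, hk⟩ : ∃ k, m - j0 = N0 + (k + 1) := ⟨m - j0 - N0 - 1, by omega⟩
          have h9 : ∀ᶠ a in 𝓝 (0 : ℂ), a ^ (k + 1) * w j0 a = u a := by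
            refine cancel_pow (k := N0) ?_ ((continuousAt_id.pow _).mul (hw j0).continuousAt)
              hu.continuousAt
            filter_upwards [h7] with a ha
            rw [← ha, hk, pow_add a N0, mul_assoc]
          have h10 := h9.self_of_nhds
          rw [zero_pow (Nat.succ_ne_zero k), zero_mul] at h10
          exact hu0 h10.symm
        obtain ⟨N1, hN1⟩ := Nat.exists_eq_add_of_le h8
        have h9 : ∀ᶠ a in 𝓝 (0 : ℂ), w j0 a = a ^ N1 * u a := by
          refine cancel_pow (k := m - j0) ?_ (hw j0).continuousAt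
            ((continuousAt_id.pow _).mul hu.continuousAt)
          filter_upwards [h7] with a ha
          rw [ha, hN1, pow_add, mul_assoc]
        have h10 := ihN N1 (by omega) (p + κ + m) w (fun q => U (q.1, q.1 * q.2))
          (fun a => ψ₁ a - c) u j0 hw
          (hU.comp_of_eq (analyticAt_fst.prod (analyticAt_fst.mul analyticAt_snd))
            (by simp [Prod.ext_iff]))
          (by simpa [Prod.mk_zero_zero] using hU0) hw0 (hψ₁.sub analyticAt_const)
          (by linear_combination -hc0)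
          (by
            rcases hcase with ⟨h4, -⟩ | ⟨h4, h5⟩
            · exact .inl ⟨h4, hwz h4⟩
            · refine .inr ⟨h4, fun a => ?_⟩
              rw [hψ₁z h5 a, not_and_not_right.1 hκc h4, sub_zero])
          hj0 hu hu0 h9
        refine h10.congr ?_
        filter_upwards [hfin c] with q hq
        rw [hq, hκc']
        congr 1
        rw [Rs, EG]
        have h11 : q.2 - (ψ₁ q.1 - c) = q.2 + c - ψ₁ q.1 := by ring
        dsimp only
        rw [h11, Nat.sub_self, pow_zero, one_mul]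
        congr 1
        refine Finset.sum_congr rfl fun i hi => ?_
        rw [Nat.sub_eq_zero_of_le (Finset.mem_range.1 hi).le, pow_zero, one_mul]
  -- the infinite chart
  have hnone : Good (fun q => (bl none q).1 ^ p * (bl none q).2 ^ κ *
        EG ν g U ((bl none q).1, (bl none q).2 - ψ (bl none q).1)) := by
    set β : ℂ × ℂ → ℂ := fun q => 1 - q.2 * ψ₁ (q.1 * q.2) with hβ
    have hβa : AnalyticAt ℂ β 0 := analyticAt_const.sub (analyticAt_snd.mul
      (hψ₁.comp_of_eq (analyticAt_fst.mul analyticAt_snd) (by simp)))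
    have hRna : AnalyticAt ℂ (Rn ν m w U β) 0 := analyticAt_Rn hw hU hβa
    have h1 : ∀ᶠ q in 𝓝 (0 : ℂ × ℂ), (bl none q).1 ^ p * (bl none q).2 ^ κ *
        EG ν g U ((bl none q).1, (bl none q).2 - ψ (bl none q).1) =
        q.1 ^ (p + κ + m) * q.2 ^ p * Rn ν m w U β q := by
      filter_upwards [EG_eq_Rn (U := U) (β := β) hm hgw] with q hq
      simp only [bl_none]
      have h1 : q.1 - ψ (q.1 * q.2) = q.1 * β q := by
        rw [hψψ, hβ]; ring
      rw [h1, hq]
      ring
    have h2 : ∀ b : ℂ, Rn ν m w U β (0, b) =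
        ∑ i ∈ Finset.range ν, (0 : ℂ) ^ (i - m) * b ^ (m - i) * w i 0 * (1 - b * ψ₁ 0) ^ i +
        0 ^ (ν - m) * (1 - b * ψ₁ 0) ^ ν * U 0 := by
      intro b
      simp only [Rn, hβ, zero_mul]
      rfl
    rcases hm.lt_or_eq with hlt | heq
    · obtain ⟨n, Q, h3, h4, h5⟩ := none_order hlt (ψ₁ 0) hP
      have h6 := IH (p + κ + m) p n (Rn ν m w U β) (fun b => Q.eval b) hRna
        (Q.differentiable.analyticAt 0) h4
        (.of_forall fun b => (h2 b).trans (h5 b)) (by omega)
      exact h6.congr h1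
    · have h3 : Rn ν m w U β (0, 0) ≠ 0 := by
        rw [h2]
        have h4 : ∀ i ∈ Finset.range ν, (0 : ℂ) ^ (i - m) * 0 ^ (m - i) * w i 0 *
            (1 - 0 * ψ₁ 0) ^ i = 0 := by
          intro i hi
          have h5 : m - i ≠ 0 := by
            have := Finset.mem_range.1 hi
            omega
          rw [zero_pow h5]
          ring
        rw [Finset.sum_eq_zero h4, heq]
        simpa [Prod.mk_zero_zero] using hU0
      have h6 := IH (p + κ + m) p 0 (Rn ν m w U β) (fun b => Rn ν m w U β (0, b)) hRna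
        (hRna.comp_of_eq (analyticAt_const.prod analyticAt_id) rfl) h3
        (.of_forall fun b => by rw [pow_zero, one_mul]) (by omega)
      exact h6.congr h1
  classical
  refine .blow (insert none (insert (some 0)
    (((initP ν m w U).roots.toFinset).image fun c => some (c + ψ₁ 0)))) ?_ ?_
  · rintro (_ | c) hd
    · simp at hd
    · simp only [Finset.mem_insert, Finset.mem_image, Multiset.mem_toFinset, Option.some.injEq,
        reduceCtorEq, false_or, not_or, not_exists, not_and] at hd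
      obtain ⟨hc, hd⟩ := hd
      refine ⟨p + κ + m, 0, fun _ => 0,
        fun q => (q.2 + c) ^ κ * Rs ν m w U (fun q => q.2 + c - ψ₁ q.1) q, analyticAt_const, rfl,
        ((analyticAt_snd.add analyticAt_const).pow κ).mul (hRa c), ?_, ?_⟩
      · refine mul_ne_zero (pow_ne_zero _ ?_) ?_
        · rw [Prod.snd_zero, zero_add]
          exact hc
        · intro h0
          have h1 : Rs ν m w U (fun q => q.2 + c - ψ₁ q.1) (0, 0) = 0 := h0
          rw [Rs_zero] at h1
          refine hd (c - ψ₁ 0) ((mem_roots hP).2 ?_) (by ring)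
          have h2 : (0 : ℂ) + c - ψ₁ 0 = c - ψ₁ 0 := by ring
          rw [← h2]
          exact h1
      · filter_upwards [hfin c] with q hq
        rw [hq, pow_zero]
        ring
  · rintro (_ | c) _
    · exact hnone
    · exact hsome c

/-- every germ `a^p b^κ G` with `G(0,·)` of finite order is resolvable -/
theorem good_of_order (N : ℕ) : IHs N := by
  induction N with
  | zero => intro p κ ν G u _ _ _ _ h; omega
  | succ N ih =>
    intro p κ ν G u hG hu hu0 hGu hlt
    rcases Nat.eq_zero_or_pos ν with rfl | hν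
    · refine .nc ⟨p, κ, fun _ => 0, G, analyticAt_const, rfl, hG, ?_, .of_forall fun q => by
        rw [sub_zero]⟩
      have := hGu.self_of_nhds
      rw [pow_zero, one_mul] at this
      rw [show (0 : ℂ × ℂ) = (0, 0) from rfl, this]
      exact hu0
    · have IH : IHs (2 * ν + min κ 1) := by
        intro p' κ' ν' G' u' h1 h2 h3 h4 h5
        exact ih p' κ' ν' G' u' h1 h2 h3 h4 (by omega)
      -- the end of the induction
      have hend : ∀ (g : ℕ → ℂ → ℂ) (U : ℂ × ℂ → ℂ) (ψ : ℂ → ℂ),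
          (∀ i, AnalyticAt ℂ (g i) 0) → AnalyticAt ℂ U 0 → U 0 ≠ 0 → (∀ i < ν, g i 0 = 0) →
          AnalyticAt ℂ ψ 0 → ψ 0 = 0 →
          ((κ = 0 ∧ ∀ᶠ a in 𝓝 (0 : ℂ), g (ν - 1) a = 0) ∨ (0 < κ ∧ ∀ a, ψ a = 0)) →
          (∀ᶠ q in 𝓝 (0 : ℂ × ℂ), G q = EG ν g U (q.1, q.2 - ψ q.1)) →
          Good (fun q => q.1 ^ p * q.2 ^ κ * G q) := by
        intro g U ψ hg hU hU0 hg0 hψ hψ0 hcase hGE
        by_cases hall : ∀ i < ν, ∀ᶠ a in 𝓝 (0 : ℂ), g i a = 0
        · have hUψ : AnalyticAt ℂ (fun q : ℂ × ℂ => U (q.1, q.2 - ψ q.1)) 0 :=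
            hU.comp_of_eq (analyticAt_fst.prod (analyticAt_snd.sub
              (hψ.comp_of_eq analyticAt_fst rfl))) (by simp [hψ0, Prod.ext_iff])
          refine .nc ⟨p, κ + ν, ψ, fun q => U (q.1, q.2 - ψ q.1), hψ, hψ0, hUψ,
            by simpa [hψ0, Prod.mk_zero_zero] using hU0, ?_⟩
          have h1 : ∀ᶠ a in 𝓝 (0 : ℂ), ∀ i ∈ Finset.range ν, g i a = 0 :=
            (Finset.eventually_all _).2 fun i hi => hall i (Finset.mem_range.1 hi)
          filter_upwards [hGE, (continuous_fst.tendsto (0 : ℂ × ℂ)).eventually h1] with q hq hq'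
          rw [hq, EG]
          dsimp only
          rw [Finset.sum_eq_zero fun i hi => by rw [hq' i hi, zero_mul], zero_add]
          rcases hcase with ⟨rfl, -⟩ | ⟨-, h2⟩
          · rw [pow_zero, zero_add]
            ring
          · rw [h2 q.1, sub_zero]
            ring
        · push Not at hall
          obtain ⟨j0, hj0, hj⟩ := hall
          obtain ⟨N0, v, hv, hv0, hgv⟩ :=
            ((hg j0).exists_eventuallyEq_pow_smul_nonzero_iff).2
              (fun h => hj (h.mono fun x hx => not_not.2 hx))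
          have h1 := inner hν IH N0 p g U ψ v j0 hg hU hU0 hg0 hψ hψ0 hcase hj0 hv hv0
            (by
              filter_upwards [hgv] with a ha
              rw [ha, sub_zero, smul_eq_mul])
          refine h1.congr ?_
          filter_upwards [hGE] with q hq
          rw [hq]
      rcases Nat.eq_zero_or_pos κ with hκ | hκ
      · obtain ⟨k, rfl⟩ : ∃ k, ν = k + 1 := ⟨ν - 1, by omega⟩
        obtain ⟨φ, hφ, hφ0, g, U, hg, hU, hGE, hU0, hg0, hgν⟩ := exists_shift hG hu hu0 hGu
        exact hend g U φ hg hU hU0 hg0 hφ hφ0 (.inl ⟨hκ, by simpa using hgν⟩) hGE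
      · obtain ⟨g, U, hg, hU, hGE⟩ := exists_EG ν hG
        have ht : Tendsto (fun b : ℂ => ((0, b) : ℂ × ℂ)) (𝓝 0) (𝓝 0) :=
          (Continuous.prodMk_right (0 : ℂ)).continuousAt
        have h1 : ∀ᶠ b in 𝓝 (0 : ℂ), EG ν g U (0, b) = b ^ ν * u b := by
          filter_upwards [hGu, ht.eventually hGE] with b hb hb'
          rw [← hb, ← hb']
        obtain ⟨hU0, hg0⟩ := EG_order hU hu hu0 h1
        exact hend g U (fun _ => 0) hg hU hU0 hg0 analyticAt_const rfl
          (.inr ⟨hκ, fun _ => rfl⟩) (by simpa using hGE)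

end Vale.Agent.P298.H928
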