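import Vale.Agent.P298.H928.Val5
import Vale.Agent.P298.H416.Om4

/-!
# P298 / H928 (row E1-BASE), Pla: the places of the tree seen by helper416's tower `Ta`
-/

set_option linter.style.haveILetI false

noncomputable section

namespace Vale.Agent.P298.H928

open Vale.Agent.P298.H701 Vale.Agent.P298.H766 Vale.Agent.P298.H400
  Vale.Agent.P298.FF Filter Topology
open Vale.Agent.P298.H416 (NOrd Res resMap resPre resMap_residue Ta jOm jOm_alg Ta_v Ta_lam Ta_P
  Ta_O Ta_w Ta_ρ lO mem_lO swOm swOm_alg Om)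

theorem jOm_eq_ja (x : L0) : jOm x = ja x := by
  have h : (jOm : L0 →+* OM) = ja := ja_unique fun g => jOm_alg g
  exact RingHom.congr_fun h x

theorem lO_eq_VS : lO ℂ = VS ℂ := by
  ext x
  rw [mem_lO, mem_VS]
  constructor
  · exact Or.inr
  · rintro (rfl | h)
    · rw [HahnSeries.order_zero]
    · exact h

/-- the line of the vertex -/
theorem lineW (w : List (Option ℂ)) :
    letI := resAlgC (C_mem w)
    IsLine ℂ (IsLocalRing.residue (W w) ⟨etaw w, etaw_mem w⟩) :=
  isLine_res (C_mem w) (rhow w) (rhow_surjective w) (fun c => rhow_C w c) (rhow_etaw w)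

/-- the residue field of the vertex is a function field -/
theorem cffW (w : List (Option ℂ)) :
    letI := resAlgC (C_mem w)
    CFF ℂ (IsLocalRing.ResidueField (W w)) := by
  letI := resAlgC (C_mem w)
  exact (lineW w).cff

/-- the place `d` of the line of the vertex -/
def QW (w : List (Option ℂ)) (d : Option ℂ) :
    ValuationSubring (IsLocalRing.ResidueField (W w)) :=
  letI := resAlgC (C_mem w)
  letI := cffW w
  ((lineW w).Q d).1

/-- the order at the place `d` of the line of the vertex -/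
def ordW (w : List (Option ℂ)) (d : Option ℂ) : IsLocalRing.ResidueField (W w) → ℤ :=
  letI := resAlgC (C_mem w)
  letI := cffW w
  ord ((lineW w).Q d)

theorem nord_ordW (w : List (Option ℂ)) (d : Option ℂ) : NOrd (QW w d) (ordW w d) := by
  letI := resAlgC (C_mem w)
  letI := cffW w
  exact plk_nord _

theorem QW_isAlgClosed (w : List (Option ℂ)) (d : Option ℂ) :
    IsAlgClosed (IsLocalRing.ResidueField (QW w d)) := by
  letI := resAlgC (C_mem w)
  letI := cffW w
  exact residue_isAlgClosed ((lineW w).Q d)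

theorem QW_inj (w : List (Option ℂ)) : Function.Injective (QW w) := by
  letI := resAlgC (C_mem w)
  letI := cffW w
  intro d d' h
  exact (lineW w).inj (Subtype.ext h)

theorem exists_QW (w : List (Option ℂ)) (O : ValuationSubring (IsLocalRing.ResidueField (W w)))
    (hO : ∀ c : ℂ, IsLocalRing.residue (W w) ⟨algebraMap ℂ L0 c, C_mem w c⟩ ∈ O) (hne : O ≠ ⊤) :
    ∃ d, QW w d = O := by
  letI := resAlgC (C_mem w)
  letI := cffW w
  exact (lineW w).exists_Q O hO hne

variable {H : ℂ × ℂ → ℂ} (T : Tree H) {w : List (Option ℂ)}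

namespace Tree

/-- **(P1)** -/
theorem Ta_v_thL (hw : w ∈ T.C) (d : Option ℂ) {N : ℕ} (hN : 0 < N) (x : L0) :
    Ta.v (T.thL hw d N hN.ne' x) = N * vw w x := by
  rw [Ta_v, jOm_eq_ja, T.order_thL hw d N hN]

/-- **(P2)** -/
theorem Ta_O_thL (hw : w ∈ T.C) (d : Option ℂ) {N : ℕ} (hN : 0 < N) :
    Ta.O.comap (T.thL hw d N hN.ne') = W w := by
  ext x
  rw [ValuationSubring.mem_comap, Ta_O, ValuationSubring.mem_comap, mem_lO, jOm_eq_ja,
    T.order_thL hw d N hN]
  have hN' : (0 : ℤ) < N := by exact_mod_cast hN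
  constructor
  · intro h
    exact ((nord_vw w).mem _).2 (Or.inr (nonneg_of_mul_nonneg_right h hN'))
  · intro h
    rcases ((nord_vw w).mem _).1 h with h | h
    · rw [h, (nord_vw w).zero, mul_zero]
    · exact mul_nonneg hN'.le h

/-- the map of the residue fields -/
theorem resMap_thL (hw : w ∈ T.C) (d : Option ℂ) {N : ℕ} (hN : 0 < N) (r) :
    resMap Ta.ρ (T.thL hw d N hN.ne') (T.Ta_O_thL hw d hN) r =
      evd d N hN (resLift (rhow w) r) := by
  obtain ⟨x, rfl⟩ := IsLocalRing.residue_surjective r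
  rw [resMap_residue, resLift_residue, Ta_ρ, jOm_eq_ja]
  exact T.coeff_thL hw d N hN x

theorem res_facts (hw : w ∈ T.C) (d : Option ℂ) {N : ℕ} (hN : 0 < N) :
    (∀ r, (resMap Ta.ρ (T.thL hw d N hN.ne') (T.Ta_O_thL hw d hN) r).order = N * ordW w d r) ∧
      (VS ℂ).comap (resMap Ta.ρ (T.thL hw d N hN.ne') (T.Ta_O_thL hw d hN)) = QW w d := by
  letI := resAlgC (C_mem w)
  letI := cffW w
  refine order_line (lineW w) _ (fun c => ?_) d hN ?_
  · rw [T.resMap_thL hw d hN]
    change evd d N hN ((rhow w).ρ ⟨algebraMap ℂ L0 c, C_mem w c⟩) = _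
    rw [rhow_C, AlgHom.commutes, algebraMap_LS]
  · rw [T.resMap_thL hw d hN, resLift_residue, rhow_etaw]
    exact evT_X _ _

/-- **(P3)** -/
theorem Ta_P_thL (hw : w ∈ T.C) (d : Option ℂ) {N : ℕ} (hN : 0 < N) :
    Ta.P.comap (resMap Ta.ρ (T.thL hw d N hN.ne') (T.Ta_O_thL hw d hN)) = QW w d := by
  rw [Ta_P, lO_eq_VS]
  exact (T.res_facts hw d hN).2

/-- **(P4)** -/
theorem Ta_w_thL (hw : w ∈ T.C) (d : Option ℂ) {N : ℕ} (hN : 0 < N) (r) :
    Ta.w (resMap Ta.ρ (T.thL hw d N hN.ne') (T.Ta_O_thL hw d hN) r) = N * ordW w d r := by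
  rw [Ta_w]
  exact (T.res_facts hw d hN).1 r

/-- **(P5)** -/
theorem Ta_lam_thL (hw : w ∈ T.C) (d : Option ℂ) {N : ℕ} (hN : 0 < N) (x : W w)
    (hx : (x : L0) ≠ 0) (h0 : vw w x = 0) :
    Ta.lam (T.thL hw d N hN.ne' x) = N * ordW w d (IsLocalRing.residue (W w) x) := by
  rw [← T.Ta_w_thL hw d hN, resMap_residue]
  exact Ta.lam_res (resPre _ (T.Ta_O_thL hw d hN) x) ((map_ne_zero _).2 hx) (by
    change Ta.v (T.thL hw d N hN.ne' x) = 0
    rw [T.Ta_v_thL hw d hN, h0, mul_zero])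

/-- **(P6)** -/
theorem Ta_a (hw : w ∈ T.C) (d : Option ℂ) {N : ℕ} (hN : 0 < N) :
    Ta.v (T.thL hw d N hN.ne' (ab w).1) = N ∧
      Ta.lam (T.thL hw d N hN.ne' (ab w).1) = ((N * kd d (T.kap w d) : ℕ) : ℤ) := by
  have h := T.lam_a hw d N hN
  rw [← jOm_eq_ja] at h
  exact ⟨congrArg Prod.fst h, congrArg Prod.snd h⟩

end Tree

open Vale.Agent.P298.H707 in
/-- **(P7)** at a node the two embeddings are exchanged -/
theorem thL_swap {T : Tree H} (hH0 : H 0 = 0) {i j : PlT T} (h : NodeT i j) {N : ℕ} (hN : N ≠ 0)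
    (x : L0) : T.thL j.1.2 j.2 N hN x = swOm (T.thL i.1.2 i.2 N hN x) := by
  have h1 : T.thL j.1.2 j.2 N hN = swOm.comp (T.thL i.1.2 i.2 N hN) :=
    hom_ext_L0 fun g => by
      rw [T.thL_algebraMap, RingHom.comp_apply, T.thL_algebraMap, swOm_alg, thR_swap hH0 h]
  exact RingHom.congr_fun h1 x

open Vale.Agent.P298.H707 in
theorem thL_swap' {T : Tree H} (hH0 : H 0 = 0) {i j : PlT T} (h : NodeT i j) {N : ℕ} (hN : N ≠ 0)
    (x : L0) : T.thL i.1.2 i.2 N hN x = swOm (T.thL j.1.2 j.2 N hN x) := by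
  rw [thL_swap hH0 h, H416.swOm_swOm]

end Vale.Agent.P298.H928
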