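import Vale.Agent.P298.H928.Exp

/-!
# P298 / H928 (row E1-BASE), part 3: every plane curve germ is resolved by finitely many
point blow-ups
-/

open Set Filter Metric Topology Polynomial

noncomputable section

namespace Vale.Agent.P298.H928

/-! ### polynomials -/

theorem exists_root_pow {P : ℂ[X]} (hP : P ≠ 0) (c : ℂ) :
    ∃ (n : ℕ) (Q : ℂ[X]), n ≤ P.natDegree ∧ P = (X - C c) ^ n * Q ∧ Q.eval c ≠ 0 := by
  obtain ⟨Q, h1, h2⟩ := exists_eq_pow_rootMultiplicity_mul_and_not_dvd P hP c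
  refine ⟨P.rootMultiplicity c, Q, ?_, h1, fun h => h2 (dvd_iff_isRoot.2 h)⟩
  have h3 : Q ≠ 0 := by
    rintro rfl
    exact h2 (dvd_zero _)
  have h4 : P.natDegree = P.rootMultiplicity c + Q.natDegree := by
    conv_lhs => rw [h1]
    rw [natDegree_mul (pow_ne_zero _ (X_sub_C_ne_zero c)) h3, natDegree_pow, natDegree_X_sub_C,
      mul_one]
  omega

/-- the polynomial of the initial form -/
def initP (ν m : ℕ) (w : ℕ → ℂ → ℂ) (U : ℂ × ℂ → ℂ) : ℂ[X] :=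
  ∑ i ∈ Finset.range ν, C (0 ^ (i - m) * w i 0) * X ^ i + C (0 ^ (ν - m) * U 0) * X ^ ν

theorem initP_coeff (ν m : ℕ) (w : ℕ → ℂ → ℂ) (U : ℂ × ℂ → ℂ) (k : ℕ) :
    (initP ν m w U).coeff k = if k < ν then 0 ^ (k - m) * w k 0 else
      if k = ν then 0 ^ (ν - m) * U 0 else 0 := by
  rw [initP, coeff_add, finsetSum_coeff]
  simp only [coeff_C_mul, coeff_X_pow, mul_ite, mul_one, mul_zero]
  rw [Finset.sum_ite_eq]
  simp only [Finset.mem_range]
  by_cases h1 : k < ν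
  · have h2 : k ≠ ν := h1.ne
    simp [h1, h2]
  · by_cases h2 : k = ν
    · simp [h2]
    · simp [h1, h2]

theorem initP_natDegree_le {ν m : ℕ} (hm : m ≤ ν) (w : ℕ → ℂ → ℂ) (U : ℂ × ℂ → ℂ) :
    (initP ν m w U).natDegree ≤ m := by
  rw [natDegree_le_iff_coeff_eq_zero]
  intro k hk
  rw [initP_coeff]
  split_ifs with h1 h2
  · rw [zero_pow (by omega), zero_mul]
  · rw [zero_pow (by omega), zero_mul]
  · rfl

theorem initP_ne_zero {ν m : ℕ} {w : ℕ → ℂ → ℂ} {U : ℂ × ℂ → ℂ} (hU : U 0 ≠ 0)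
    (hm : m ≤ ν) (h : m = ν ∨ ∃ i < m, w i 0 ≠ 0) : initP ν m w U ≠ 0 := by
  intro h0
  rcases h with rfl | ⟨i, hi, hwi⟩
  · have h1 := initP_coeff m m w U m
    rw [h0] at h1
    simp at h1
    exact hU h1.symm
  · have h1 := initP_coeff ν m w U i
    rw [h0, if_pos (by omega), Nat.sub_eq_zero_of_le hi.le] at h1
    simp at h1
    exact hwi h1.symm

theorem initP_eval (ν m : ℕ) (w : ℕ → ℂ → ℂ) (U : ℂ × ℂ → ℂ) (x : ℂ) :
    (initP ν m w U).eval x =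
      ∑ i ∈ Finset.range ν, 0 ^ (i - m) * w i 0 * x ^ i + 0 ^ (ν - m) * x ^ ν * U 0 := by
  rw [initP, eval_add, eval_finsetSum]
  simp only [eval_mul, eval_C, eval_pow, eval_X]
  ring

/-- `P = U(0) (X - c)^ν` -/
theorem initP_pure {ν : ℕ} {m : ℕ} {w : ℕ → ℂ → ℂ} {U : ℂ × ℂ → ℂ} (hm : m ≤ ν)
    (hν : 0 < ν) {c : ℂ} {Q : ℂ[X]} (hP0 : initP ν m w U ≠ 0)
    (hP : initP ν m w U = (X - C c) ^ ν * Q) :
    m = ν ∧ (w (ν - 1) 0 = 0 → c = 0) ∧ (c = 0 → ∀ i < ν, w i 0 = 0) := by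
  have hQ0 : Q ≠ 0 := by
    rintro rfl
    rw [mul_zero] at hP
    exact hP0 hP
  have h1 : (initP ν m w U).natDegree = ν + Q.natDegree := by
    rw [hP, natDegree_mul (pow_ne_zero _ (X_sub_C_ne_zero c)) hQ0, natDegree_pow,
      natDegree_X_sub_C, mul_one]
  have h2 := initP_natDegree_le hm w U
  have h3 : m = ν := by omega
  have h4 : Q.natDegree = 0 := by omega
  obtain ⟨b, rfl⟩ := natDegree_eq_zero.1 h4
  have hb : b ≠ 0 := by
    rintro rfl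
    simp at hQ0
  refine ⟨h3, fun hw => ?_, ?_⟩
  · have h5 := initP_coeff ν m w U (ν - 1)
    rw [hP, if_pos (by omega), h3, hw, mul_zero, mul_comm, coeff_C_mul] at h5
    have h6 := (mul_eq_zero.1 h5).resolve_left hb
    obtain ⟨k, rfl⟩ : ∃ k, ν = k + 1 := ⟨ν - 1, by omega⟩
    rw [Nat.add_sub_cancel, sub_eq_add_neg, ← C_neg, coeff_X_add_C_pow] at h6
    have h7 : k + 1 - k = 1 := by omega
    rw [h7, pow_one, Nat.choose_succ_self_right] at h6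
    have h8 := (mul_eq_zero.1 h6).resolve_right (by exact_mod_cast k.succ_ne_zero)
    exact neg_eq_zero.1 h8
  · rintro rfl i hi
    have h5 := initP_coeff ν m w U i
    rw [hP, if_pos hi, C_0, sub_zero, mul_comm, coeff_C_mul, coeff_X_pow, if_neg hi.ne, mul_zero,
      Nat.sub_eq_zero_of_le (by omega), pow_zero, one_mul] at h5
    exact h5.symm

/-! ### the transforms -/

/-- strict transform at a finite point -/
def Rs (ν m : ℕ) (w : ℕ → ℂ → ℂ) (U β : ℂ × ℂ → ℂ) (q : ℂ × ℂ) : ℂ :=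
  ∑ i ∈ Finset.range ν, q.1 ^ (i - m) * w i q.1 * β q ^ i +
    q.1 ^ (ν - m) * β q ^ ν * U (q.1, q.1 * β q)

theorem analyticAt_Rs {ν m : ℕ} {w : ℕ → ℂ → ℂ} {U β : ℂ × ℂ → ℂ}
    (hw : ∀ i, AnalyticAt ℂ (w i) 0) (hU : AnalyticAt ℂ U 0) (hβ : AnalyticAt ℂ β 0) :
    AnalyticAt ℂ (Rs ν m w U β) 0 := by
  refine AnalyticAt.add ?_ (((analyticAt_fst.pow _).mul (hβ.pow ν)).mul ?_)
  · refine Finset.analyticAt_fun_sum _ fun i _ => ?_
    exact ((analyticAt_fst.pow _).mul ((hw i).comp_of_eq analyticAt_fst rfl)).mul (hβ.pow i)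
  · refine hU.comp_of_eq (analyticAt_fst.prod (analyticAt_fst.mul hβ)) ?_
    simp [Prod.ext_iff]

theorem EG_eq_Rs {ν m : ℕ} {g w : ℕ → ℂ → ℂ} {U β : ℂ × ℂ → ℂ} (hm : m ≤ ν)
    (hgw : ∀ i, ∀ᶠ a in 𝓝 (0 : ℂ), g i a = a ^ (m - i) * w i a ∨ ν ≤ i) :
    ∀ᶠ q in 𝓝 (0 : ℂ × ℂ), EG ν g U (q.1, q.1 * β q) = q.1 ^ m * Rs ν m w U β q := by
  have h1 : ∀ᶠ a in 𝓝 (0 : ℂ), ∀ i ∈ Finset.range ν, g i a = a ^ (m - i) * w i a ∨ ν ≤ i :=
    (Finset.eventually_all _).2 fun i _ => hgw i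
  filter_upwards [(continuous_fst.tendsto (0 : ℂ × ℂ)).eventually h1] with q hq
  rw [EG, Rs, mul_add, Finset.mul_sum]
  congr 1
  · refine Finset.sum_congr rfl fun i hi => ?_
    rcases hq i hi with h2 | h2
    · dsimp only
      rw [h2]
      have h3 : q.1 ^ (m - i) * q.1 ^ i = q.1 ^ m * q.1 ^ (i - m) := by
        rw [← pow_add, ← pow_add]
        congr 1
        omega
      rw [mul_pow]
      linear_combination w i q.1 * β q ^ i * h3
    · exact absurd h2 (by simpa using hi)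
  · dsimp only
    have h3 : q.1 ^ ν = q.1 ^ m * q.1 ^ (ν - m) := by
      rw [← pow_add]
      congr 1
      omega
    rw [mul_pow]
    linear_combination β q ^ ν * U (q.1, q.1 * β q) * h3

theorem Rs_zero {ν m : ℕ} {w : ℕ → ℂ → ℂ} {U β : ℂ × ℂ → ℂ} (b : ℂ) :
    Rs ν m w U β (0, b) = (initP ν m w U).eval (β (0, b)) := by
  rw [Rs, initP_eval]
  simp only [zero_mul]
  rfl

/-- strict transform at the infinite point -/
def Rn (ν m : ℕ) (w : ℕ → ℂ → ℂ) (U β : ℂ × ℂ → ℂ) (q : ℂ × ℂ) : ℂ :=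
  ∑ i ∈ Finset.range ν, q.1 ^ (i - m) * q.2 ^ (m - i) * w i (q.1 * q.2) * β q ^ i +
    q.1 ^ (ν - m) * β q ^ ν * U (q.1 * q.2, q.1 * β q)

theorem analyticAt_Rn {ν m : ℕ} {w : ℕ → ℂ → ℂ} {U β : ℂ × ℂ → ℂ}
    (hw : ∀ i, AnalyticAt ℂ (w i) 0) (hU : AnalyticAt ℂ U 0) (hβ : AnalyticAt ℂ β 0) :
    AnalyticAt ℂ (Rn ν m w U β) 0 := by
  refine AnalyticAt.add ?_ (((analyticAt_fst.pow _).mul (hβ.pow ν)).mul ?_)
  · refine Finset.analyticAt_fun_sum _ fun i _ => ?_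
    exact (((analyticAt_fst.pow _).mul (analyticAt_snd.pow _)).mul
      ((hw i).comp_of_eq (analyticAt_fst.mul analyticAt_snd) (by simp))).mul (hβ.pow i)
  · refine hU.comp_of_eq ((analyticAt_fst.mul analyticAt_snd).prod (analyticAt_fst.mul hβ)) ?_
    simp [Prod.ext_iff]

theorem EG_eq_Rn {ν m : ℕ} {g w : ℕ → ℂ → ℂ} {U β : ℂ × ℂ → ℂ} (hm : m ≤ ν)
    (hgw : ∀ i, ∀ᶠ a in 𝓝 (0 : ℂ), g i a = a ^ (m - i) * w i a ∨ ν ≤ i) :
    ∀ᶠ q in 𝓝 (0 : ℂ × ℂ), EG ν g U (q.1 * q.2, q.1 * β q) = q.1 ^ m * Rn ν m w U β q := by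
  have h1 : ∀ᶠ a in 𝓝 (0 : ℂ), ∀ i ∈ Finset.range ν, g i a = a ^ (m - i) * w i a ∨ ν ≤ i :=
    (Finset.eventually_all _).2 fun i _ => hgw i
  have h0 : Tendsto (fun q : ℂ × ℂ => q.1 * q.2) (𝓝 0) (𝓝 0) := by
    have : ContinuousAt (fun q : ℂ × ℂ => q.1 * q.2) 0 := by fun_prop
    simpa [ContinuousAt] using this
  filter_upwards [h0.eventually h1] with q hq
  rw [EG, Rn, mul_add, Finset.mul_sum]
  congr 1
  · refine Finset.sum_congr rfl fun i hi => ?_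
    rcases hq i hi with h2 | h2
    · dsimp only
      rw [h2]
      have h3 : q.1 ^ (m - i) * q.1 ^ i = q.1 ^ m * q.1 ^ (i - m) := by
        rw [← pow_add, ← pow_add]
        congr 1
        omega
      rw [mul_pow, mul_pow]
      linear_combination q.2 ^ (m - i) * w i (q.1 * q.2) * β q ^ i * h3
    · exact absurd h2 (by simpa using hi)
  · dsimp only
    have h3 : q.1 ^ ν = q.1 ^ m * q.1 ^ (ν - m) := by
      rw [← pow_add]
      congr 1
      omega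
    rw [mul_pow]
    linear_combination β q ^ ν * U (q.1 * q.2, q.1 * β q) * h3

end Vale.Agent.P298.H928
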