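import Vale.Agent.P298.H928.Cov

/-!
# P298 / H928 (row E1-BASE), part 7: the charts at the places of the vertices
-/

open Set Filter Metric Topology Polynomial

noncomputable section

namespace Vale.Agent.P298.H928

/-- the tree of centres (minimal) -/
structure Tree (H : ℂ × ℂ → ℂ) where
  /-- the centres = vertices -/
  C : Finset (List (Option ℂ))
  nil_mem : [] ∈ C
  tail_mem : ∀ d w, d :: w ∈ C → w ∈ C
  nc : ∀ w ∈ C, ∀ d, d :: w ∉ C → NC (fun q => H (psi (d :: w) q))
  not_nc : ∀ d w, d :: w ∈ C → ¬ NC (fun q => H (psi (d :: w) q))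

/-- (B1) -/
theorem exists_tree {H : ℂ × ℂ → ℂ} (hH : AnalyticAt ℂ H 0)
    (h0 : ¬ ∀ᶠ q in 𝓝 (0 : ℂ × ℂ), H q = 0) : Nonempty (Tree H) := by
  classical
  obtain ⟨C, h1, h2, h3⟩ := exists_centres (good hH h0)
  refine ⟨⟨C.filter fun w => w = [] ∨ ¬ NC (fun q => H (psi w q)), by simp [h1], ?_, ?_, ?_⟩⟩
  · intro d w hw
    rw [Finset.mem_filter] at hw ⊢
    refine ⟨h2 d w hw.1, ?_⟩
    by_contra hcon
    push Not at hcon
    have h4 := hcon.2.blow d
    exact (hw.2.resolve_left (by simp)) h4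
  · intro w hw d hd
    rw [Finset.mem_filter] at hw hd
    by_cases h4 : d :: w ∈ C
    · by_contra h5
      exact hd ⟨h4, .inr h5⟩
    · exact h3 w hw.1 d h4
  · intro d w hw
    rw [Finset.mem_filter] at hw
    exact hw.2.resolve_left (by simp)

/-! ### the exceptional axes of the points -/

/-- the second axis at the point `v` is exceptional -/
def exc : List (Option ℂ) → Prop
  | [] => False
  | none :: u => u ≠ []
  | some c :: u => c = 0 ∧ exc u

theorem psi_fst_zero (d : Option ℂ) (w : List (Option ℂ)) (b : ℂ) : psi (d :: w) (0, b) = 0 := by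
  rw [psi_cons]
  have h1 : bl d (0, b) = 0 := by
    cases d <;> simp [Prod.ext_iff]
  rw [h1, psi_zero]

theorem psi_snd_zero {v : List (Option ℂ)} (h : exc v) (a : ℂ) : psi v (a, 0) = 0 := by
  induction v generalizing a with
  | nil => exact h.elim
  | cons d u ih =>
    cases d with
    | none =>
      rw [psi_cons, bl_none]
      cases u with
      | nil => exact absurd rfl h
      | cons e u =>
        rw [mul_zero]
        exact psi_fst_zero e u a
    | some c =>
      obtain ⟨rfl, h2⟩ := h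
      rw [psi_cons, bl_some]
      simp only [add_zero, mul_zero]
      exact ih h2 a

theorem psi_eq_zero (v : List (Option ℂ)) :
    ∀ᶠ q in 𝓝 (0 : ℂ × ℂ), psi v q = 0 → q.1 = 0 ∨ (q.2 = 0 ∧ exc v) := by
  induction v with
  | nil => exact .of_forall fun q hq => .inl (by rw [psi_nil] at hq; rw [hq]; rfl)
  | cons d u ih =>
    cases d with
    | none =>
      cases u with
      | nil =>
        refine .of_forall fun q hq => .inl ?_
        rw [psi_cons, psi_nil, bl_none] at hq
        exact (Prod.ext_iff.1 hq).2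
      | cons e u =>
        filter_upwards [(tendsto_bl none).eventually ih] with q hq h0
        rcases hq h0 with h1 | ⟨h1, -⟩
        · rcases mul_eq_zero.1 h1 with h2 | h2
          · exact .inl h2
          · exact .inr ⟨h2, by simp [exc]⟩
        · exact .inl h1
    | some c =>
      by_cases hc : c = 0
      · subst hc
        filter_upwards [(tendsto_bl (some 0)).eventually ih] with q hq h0
        rcases hq h0 with h1 | ⟨h1, h2⟩
        · exact .inl h1
        · simp only [bl_some, add_zero] at h1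
          rcases mul_eq_zero.1 h1 with h3 | h3
          · exact .inl h3
          · exact .inr ⟨h3, rfl, h2⟩
      · have h2 : ∀ᶠ q in 𝓝 (0 : ℂ × ℂ), q.2 + c ≠ 0 := by
          have h3 : ContinuousAt (fun q : ℂ × ℂ => q.2 + c) 0 := by fun_prop
          refine h3.eventually_ne ?_
          simpa using hc
        filter_upwards [(tendsto_bl (some c)).eventually ih, h2] with q hq hqc h0
        rcases hq h0 with h1 | ⟨h1, -⟩
        · exact .inl h1
        · simp only [bl_some] at h1
          exact .inl ((mul_eq_zero.1 h1).resolve_right hqc)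

/-! ### the Jacobian -/

/-- Jacobian determinant of a map of the plane -/
def jac (F : ℂ × ℂ → ℂ × ℂ) (q : ℂ × ℂ) : ℂ :=
  (fderiv ℂ F q (1, 0)).1 * (fderiv ℂ F q (0, 1)).2 -
    (fderiv ℂ F q (0, 1)).1 * (fderiv ℂ F q (1, 0)).2

theorem lin_eq (L : ℂ × ℂ →L[ℂ] ℂ × ℂ) (v : ℂ × ℂ) : L v = v.1 • L (1, 0) + v.2 • L (0, 1) := by
  rw [← map_smul, ← map_smul, ← map_add]
  congr 1
  ext <;> simp

theorem jac_comp {F G : ℂ × ℂ → ℂ × ℂ} {q : ℂ × ℂ} (hF : DifferentiableAt ℂ F (G q))
    (hG : DifferentiableAt ℂ G q) : jac (fun x => F (G x)) q = jac F (G q) * jac G q := by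
  have h1 : fderiv ℂ (fun x => F (G x)) q = (fderiv ℂ F (G q)).comp (fderiv ℂ G q) :=
    fderiv_comp q hF hG
  simp only [jac, h1, ContinuousLinearMap.comp_apply]
  rw [lin_eq (fderiv ℂ F (G q)) (fderiv ℂ G q (1, 0)),
    lin_eq (fderiv ℂ F (G q)) (fderiv ℂ G q (0, 1))]
  simp only [Prod.fst_add, Prod.snd_add, Prod.smul_fst, Prod.smul_snd, smul_eq_mul]
  ring

theorem jac_of_hasFDerivAt {F : ℂ × ℂ → ℂ × ℂ} {L : ℂ × ℂ →L[ℂ] ℂ × ℂ} {q : ℂ × ℂ}
    (h : HasFDerivAt F L q) : jac F q = (L (1, 0)).1 * (L (0, 1)).2 - (L (0, 1)).1 * (L (1, 0)).2 := by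
  rw [jac, h.fderiv]

theorem jac_bl (d : Option ℂ) (q : ℂ × ℂ) :
    jac (bl d) q = match d with
      | some _ => q.1
      | none => -q.1 := by
  cases d with
  | none =>
    have h1 : HasFDerivAt (bl none) ((q.1 • ContinuousLinearMap.snd ℂ ℂ ℂ +
        q.2 • ContinuousLinearMap.fst ℂ ℂ ℂ).prod (ContinuousLinearMap.fst ℂ ℂ ℂ)) q :=
      (hasFDerivAt_fst.mul hasFDerivAt_snd).prodMk hasFDerivAt_fst
    rw [jac_of_hasFDerivAt h1]
    simp
  | some c =>
    have h1 : HasFDerivAt (bl (some c)) ((ContinuousLinearMap.fst ℂ ℂ ℂ).prod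
        (q.1 • ContinuousLinearMap.snd ℂ ℂ ℂ +
        (q.2 + c) • ContinuousLinearMap.fst ℂ ℂ ℂ)) q :=
      hasFDerivAt_fst.prodMk (hasFDerivAt_fst.mul (hasFDerivAt_snd.add_const c))
    rw [jac_of_hasFDerivAt h1]
    simp

/-- the Jacobian of `psi v` is a monomial times a unit, and an axis where it vanishes is
contracted -/
theorem jac_psi (v : List (Option ℂ)) : ∃ (i j : ℕ) (V : ℂ × ℂ → ℂ), AnalyticAt ℂ V 0 ∧ V 0 ≠ 0 ∧
    (∀ q, jac (psi v) q = q.1 ^ i * q.2 ^ j * V q) ∧ (0 < j → exc v) ∧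
    (0 < i → v ≠ []) := by
  induction v with
  | nil =>
    refine ⟨0, 0, fun _ => 1, analyticAt_const, one_ne_zero, fun q => ?_, by simp, by simp⟩
    have h1 : HasFDerivAt (psi []) (ContinuousLinearMap.id ℂ (ℂ × ℂ)) q := hasFDerivAt_id q
    rw [jac_of_hasFDerivAt h1]
    simp
  | cons d u ih =>
    obtain ⟨i, j, V, hV, hV0, hJ, hj, hi⟩ := ih
    have hVd : AnalyticAt ℂ (fun q => V (bl d q)) 0 :=
      hV.comp_of_eq (analyticAt_bl d 0) (bl_zero d)
    have hVd0 : V (bl d 0) ≠ 0 := by rwa [bl_zero]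
    have hc : ∀ q, jac (psi (d :: u)) q = jac (psi u) (bl d q) * jac (bl d) q := fun q =>
      jac_comp (analyticAt_psi u (bl d q)).differentiableAt (analyticAt_bl d q).differentiableAt
    cases d with
    | none =>
      refine ⟨i + j + 1, i, fun q => -V (bl none q), hVd.neg, neg_ne_zero.2 hVd0, fun q => ?_,
        fun h => hi h, by simp⟩
      rw [hc, hJ, jac_bl]
      simp only [bl_none]
      ring
    | some c =>
      by_cases hc0 : c = 0
      · subst hc0
        refine ⟨i + j + 1, j, fun q => V (bl (some 0) q), hVd, hVd0, fun q => ?_,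
          fun h => ⟨rfl, hj h⟩, by simp⟩
        rw [hc, hJ, jac_bl]
        simp only [bl_some, add_zero]
        ring
      · refine ⟨i + j + 1, 0, fun q => (q.2 + c) ^ j * V (bl (some c) q),
          ((analyticAt_snd.add analyticAt_const).pow j).mul hVd,
          mul_ne_zero (pow_ne_zero _ (by simpa using hc0)) hVd0, fun q => ?_, by simp, by simp⟩
        rw [hc, hJ, jac_bl]
        simp only [bl_some, mul_pow]
        ring

/-- `psi v` is injective outside the fibre over the origin -/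
theorem psi_injOn (v : List (Option ℂ)) : InjOn (psi v) {q | psi v q ≠ 0} := by
  induction v with
  | nil => exact fun q _ q' _ h => h
  | cons d u ih =>
    intro q hq q' hq' h
    have h1 : bl d q = bl d q' := ih hq hq' h
    have h2 : bl d q ≠ 0 := fun h3 => hq (by
      change psi u (bl d q) = 0
      rw [h3, psi_zero])
    cases d with
    | none =>
      rw [bl_none, bl_none, Prod.mk.injEq] at h1
      obtain ⟨h3, h4⟩ := h1
      have h5 : q.1 ≠ 0 := by
        intro h6
        apply h2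
        rw [bl_none, h6, zero_mul]
        rfl
      refine Prod.ext h4 (mul_left_cancel₀ h5 ?_)
      rw [h3, h4]
    | some c =>
      rw [bl_some, bl_some, Prod.mk.injEq] at h1
      obtain ⟨h3, h4⟩ := h1
      have h5 : q.1 ≠ 0 := by
        intro h6
        apply h2
        rw [bl_some, h6, zero_mul]
        rfl
      refine Prod.ext h3 ?_
      rw [← h3] at h4
      have h6 := mul_left_cancel₀ h5 h4
      exact add_right_cancel h6

/-! ### powers of the chart at `0` -/

theorem psi_replicate (k : ℕ) (v : List (Option ℂ)) (q : ℂ × ℂ) :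
    psi (List.replicate k (some 0) ++ v) q = psi v (q.1, q.1 ^ k * q.2) := by
  induction k generalizing q with
  | zero => simp
  | succ k ih =>
    rw [List.replicate_succ, List.cons_append, psi_cons, ih, bl_some]
    simp only [add_zero]
    congr 1
    ext
    · rfl
    · simp only
      ring

theorem exc_replicate (k : ℕ) (v : List (Option ℂ)) :
    exc (List.replicate k (some 0) ++ v) ↔ exc v := by
  induction k with
  | zero => simp
  | succ k ih =>
    rw [List.replicate_succ, List.cons_append]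
    change ((0 : ℂ) = 0 ∧ exc (List.replicate k (some 0) ++ v)) ↔ _
    rw [ih]
    simp

open Classical in
/-- the branch through the end of the tree -/
def phi (H : ℂ × ℂ → ℂ) (v : List (Option ℂ)) : ℂ → ℂ :=
  if h : NC (fun q => H (psi v q)) then
    (if ∀ᶠ a in 𝓝 (0 : ℂ), h.choose_spec.choose_spec.choose a = 0 then fun _ => 0
      else h.choose_spec.choose_spec.choose)
  else fun _ => 0

theorem phi_spec {H : ℂ × ℂ → ℂ} {v : List (Option ℂ)} (h : NC (fun q => H (psi v q))) :
    AnalyticAt ℂ (phi H v) 0 ∧ phi H v 0 = 0 ∧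
      ((∀ᶠ a in 𝓝 (0 : ℂ), phi H v a = 0) → phi H v = fun _ => 0) ∧
      ∃ (p ν : ℕ) (U : ℂ × ℂ → ℂ), AnalyticAt ℂ U 0 ∧ U 0 ≠ 0 ∧
        ∀ᶠ q in 𝓝 (0 : ℂ × ℂ), H (psi v q) = q.1 ^ p * (q.2 - phi H v q.1) ^ ν * U q := by
  classical
  have h1 := h.choose_spec.choose_spec.choose_spec
  set p := h.choose
  set ν := h.choose_spec.choose
  set φ := h.choose_spec.choose_spec.choose with hφdef
  obtain ⟨U, hφ, hφ0, hU, hU0, hH⟩ := h1
  by_cases h2 : ∀ᶠ a in 𝓝 (0 : ℂ), φ a = 0
  · have h3 : phi H v = fun _ => 0 := by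
      rw [phi, dif_pos h, if_pos h2]
    rw [h3]
    refine ⟨analyticAt_const, rfl, fun _ => rfl, p, ν, U, hU, hU0, ?_⟩
    filter_upwards [hH, (continuous_fst.tendsto (0 : ℂ × ℂ)).eventually h2] with q hq hq'
    rw [hq, hq']
  · have h3 : phi H v = φ := by
      rw [phi, dif_pos h, if_neg h2]
    rw [h3]
    exact ⟨hφ, hφ0, fun h4 => absurd h4 h2, p, ν, U, hU, hU0, hH⟩

/-- an exceptional second axis is the branch -/
theorem phi_of_zero {H : ℂ × ℂ → ℂ} {v : List (Option ℂ)} (h : NC (fun q => H (psi v q)))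
    (he : ∀ᶠ a in 𝓝 (0 : ℂ), H (psi v (a, 0)) = 0) : phi H v = fun _ => 0 := by
  obtain ⟨h1, h2, h3, p, ν, U, hU, hU0, hH⟩ := phi_spec h
  apply h3
  have h4 : Tendsto (fun a : ℂ => ((a, 0) : ℂ × ℂ)) (𝓝 0) (𝓝 0) :=
    (Continuous.prodMk_left (0 : ℂ)).continuousAt
  have h5 : ∀ᶠ q in 𝓝 (0 : ℂ × ℂ), U q ≠ 0 := hU.continuousAt.eventually_ne hU0
  have h6 : ∀ᶠ a in 𝓝[≠] (0 : ℂ), phi H v a = 0 := by
    filter_upwards [(h4.eventually (hH.and h5)).filter_mono nhdsWithin_le_nhds,
      he.filter_mono nhdsWithin_le_nhds, self_mem_nhdsWithin] with a ha ha' ha0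
    obtain ⟨h7, h8⟩ := ha
    rw [ha'] at h7
    have h9 : ((0 : ℂ) - phi H v a) ^ ν = 0 := by
      have h10 := (mul_eq_zero.1 h7.symm).resolve_right h8
      exact (mul_eq_zero.1 h10).resolve_left (pow_ne_zero _ ha0)
    have h11 := eq_zero_of_pow_eq_zero h9
    linear_combination -h11
  rw [eventually_nhdsWithin_iff] at h6
  filter_upwards [h6] with a ha
  rcases eq_or_ne a 0 with rfl | h0
  · exact h2
  · exact ha h0


namespace Tree

variable {H : ℂ × ℂ → ℂ} (T : Tree H)

/-- number of further blow-ups at a place which is a centre -/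
def kk (w : List (Option ℂ)) (d : Option ℂ) : ℕ :=
  sInf {k | List.replicate k (some 0) ++ none :: d :: w ∉ T.C}

open Classical in
/-- the transversal exponent of the chart at the place `d` of the vertex `w` -/
def kap (w : List (Option ℂ)) (d : Option ℂ) : ℕ := if d :: w ∈ T.C then T.kk w d + 1 else 0

open Classical in
/-- the end of the tree in which the place `d` of the vertex `w` lies -/
def ew (w : List (Option ℂ)) (d : Option ℂ) : List (Option ℂ) :=
  if d :: w ∈ T.C then List.replicate (T.kk w d) (some 0) ++ none :: d :: w else d :: w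

theorem kk_nonempty (w : List (Option ℂ)) (d : Option ℂ) :
    {k | List.replicate k (some 0) ++ none :: d :: w ∉ T.C}.Nonempty := by
  obtain ⟨w₀, -, hw₀⟩ := T.C.exists_max_image List.length ⟨[], T.nil_mem⟩
  refine ⟨w₀.length, fun h => ?_⟩
  have h1 := hw₀ _ h
  rw [List.length_append, List.length_replicate, List.length_cons] at h1
  omega

theorem kk_notMem (w : List (Option ℂ)) (d : Option ℂ) :
    List.replicate (T.kk w d) (some 0) ++ none :: d :: w ∉ T.C :=
  Nat.sInf_mem (T.kk_nonempty w d)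

theorem mem_of_lt_kk {w : List (Option ℂ)} {d : Option ℂ} {k : ℕ} (hk : k < T.kk w d) :
    List.replicate k (some 0) ++ none :: d :: w ∈ T.C := by
  have h := Nat.notMem_of_lt_sInf hk
  rwa [mem_ofPred_eq, not_not] at h

theorem kap_of_mem {w : List (Option ℂ)} {d : Option ℂ} (h : d :: w ∈ T.C) :
    T.kap w d = T.kk w d + 1 := if_pos h

theorem kap_of_notMem {w : List (Option ℂ)} {d : Option ℂ} (h : d :: w ∉ T.C) :
    T.kap w d = 0 := if_neg h

theorem ew_of_mem {w : List (Option ℂ)} {d : Option ℂ} (h : d :: w ∈ T.C) :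
    T.ew w d = List.replicate (T.kk w d) (some 0) ++ none :: d :: w := if_pos h

theorem ew_of_notMem {w : List (Option ℂ)} {d : Option ℂ} (h : d :: w ∉ T.C) :
    T.ew w d = d :: w := if_neg h

theorem ew_eq {w : List (Option ℂ)} (hw : w ∈ T.C) (d : Option ℂ) :
    ∃ e u, T.ew w d = e :: u ∧ u ∈ T.C ∧ e :: u ∉ T.C := by
  by_cases h : d :: w ∈ T.C
  · have h1 := T.kk_notMem w d
    rw [T.ew_of_mem h]
    rcases Nat.eq_zero_or_pos (T.kk w d) with h2 | h2
    · rw [h2] at h1 ⊢
      exact ⟨none, d :: w, rfl, h, h1⟩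
    · obtain ⟨k, hk⟩ : ∃ k, T.kk w d = k + 1 := ⟨T.kk w d - 1, by omega⟩
      rw [hk] at h1 ⊢
      exact ⟨some 0, List.replicate k (some 0) ++ none :: d :: w, by
        rw [List.replicate_succ, List.cons_append], T.mem_of_lt_kk (by omega), by
        rwa [List.replicate_succ, List.cons_append] at h1⟩
  · exact ⟨d, w, T.ew_of_notMem h, hw, h⟩

theorem exc_ew {w : List (Option ℂ)} {d : Option ℂ} (h : d :: w ∈ T.C) : exc (T.ew w d) := by
  rw [T.ew_of_mem h, exc_replicate]
  simp [exc]

/-- **the chart at the place `d` of the vertex `w`**: `{q.1 = 0}` is the curve of the vertex -/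
def Th (w : List (Option ℂ)) (d : Option ℂ) (q : ℂ × ℂ) : ℂ × ℂ :=
  psi (d :: w) (q.1 * q.2 ^ T.kap w d, q.2 + if T.kap w d = 0 then phi H (d :: w) q.1 else 0)

theorem Th_of_notMem {w : List (Option ℂ)} {d : Option ℂ} (h : d :: w ∉ T.C) (q : ℂ × ℂ) :
    T.Th w d q = psi (d :: w) (q.1, q.2 + phi H (d :: w) q.1) := by
  rw [Th, T.kap_of_notMem h, pow_zero, mul_one, if_pos rfl]

theorem Th_of_mem {w : List (Option ℂ)} {d : Option ℂ} (h : d :: w ∈ T.C) (q : ℂ × ℂ) :
    T.Th w d q = psi (T.ew w d) (q.2, q.1) := by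
  rw [Th, T.kap_of_mem h, if_neg (Nat.succ_ne_zero _), add_zero, T.ew_of_mem h, psi_replicate,
    psi_cons none, bl_none]
  congr 1
  ext
  · simp only
    ring
  · rfl

end Tree

end Vale.Agent.P298.H928
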