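import Vale.Agent.P298.H701.Br6

/-!
# P298 / H928 (row E1-BASE), Val 1: leading forms of power series in two variables
-/

noncomputable section

namespace Vale.Agent.P298.H928

open Vale.Agent.P298.H701 Vale.Agent.P298.H766

/-- power series in two variables -/
abbrev R2 : Type := MvPowerSeries (Fin 2) ℂ

section lf

variable {B : Type*} [CommRing B] [Algebra ℂ B]

/-- the homogeneous part of degree `m`, evaluated at `(p, q)` -/
def lf (m : ℕ) (g : R2) (p q : B) : B :=
  ∑ ij ∈ Finset.HasAntidiagonal.antidiagonal m,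
    algebraMap ℂ B (MvPowerSeries.coeff (ex ij.1 ij.2) g) * (p ^ ij.1 * q ^ ij.2)

theorem lf_add (m : ℕ) (g h : R2) (p q : B) : lf m (g + h) p q = lf m g p q + lf m h p q := by
  simp only [lf, map_add, add_mul, Finset.sum_add_distrib]

theorem lf_zero_left (g : R2) (p q : B) :
    lf 0 g p q = algebraMap ℂ B (MvPowerSeries.constantCoeff g) := by
  have h0 : ex 0 0 = 0 := by
    ext k
    fin_cases k
    · exact ex_zero _ _
    · exact ex_one _ _
  simp [lf, h0]

theorem ex_succ_left (i j : ℕ) : ex (i + 1) j = Finsupp.single 0 1 + ex i j := by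
  ext k
  fin_cases k
  · change ex (i + 1) j 0 = (Finsupp.single (0 : Fin 2) 1 + ex i j : Fin 2 →₀ ℕ) 0
    rw [ex_zero, Finsupp.add_apply, ex_zero, Finsupp.single_eq_same]
    omega
  · change ex (i + 1) j 1 = (Finsupp.single (0 : Fin 2) 1 + ex i j : Fin 2 →₀ ℕ) 1
    rw [ex_one, Finsupp.add_apply, ex_one, Finsupp.single_eq_of_ne (by decide)]
    omega

theorem ex_succ_right (i j : ℕ) : ex i (j + 1) = Finsupp.single 1 1 + ex i j := by
  ext k
  fin_cases k
  · change ex i (j + 1) 0 = (Finsupp.single (1 : Fin 2) 1 + ex i j : Fin 2 →₀ ℕ) 0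
    rw [ex_zero, Finsupp.add_apply, ex_zero, Finsupp.single_eq_of_ne (by decide)]
    omega
  · change ex i (j + 1) 1 = (Finsupp.single (1 : Fin 2) 1 + ex i j : Fin 2 →₀ ℕ) 1
    rw [ex_one, Finsupp.add_apply, ex_one, Finsupp.single_eq_same]
    omega

theorem coeff_X0_mul_zero (g : R2) (j : ℕ) :
    MvPowerSeries.coeff (ex 0 j) (MvPowerSeries.X 0 * g) = 0 := by
  refine (MvPowerSeries.X_dvd_iff (s := (0 : Fin 2))).1 ⟨g, rfl⟩ _ ?_
  exact ex_zero _ _

theorem coeff_X1_mul_zero (g : R2) (i : ℕ) :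
    MvPowerSeries.coeff (ex i 0) (MvPowerSeries.X 1 * g) = 0 := by
  refine (MvPowerSeries.X_dvd_iff (s := (1 : Fin 2))).1 ⟨g, rfl⟩ _ ?_
  exact ex_one _ _

theorem coeff_X0_mul_succ (g : R2) (i j : ℕ) :
    MvPowerSeries.coeff (ex (i + 1) j) (MvPowerSeries.X 0 * g) =
      MvPowerSeries.coeff (ex i j) g := by
  rw [ex_succ_left, MvPowerSeries.X, MvPowerSeries.coeff_add_monomial_mul, one_mul]

theorem coeff_X1_mul_succ (g : R2) (i j : ℕ) :
    MvPowerSeries.coeff (ex i (j + 1)) (MvPowerSeries.X 1 * g) =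
      MvPowerSeries.coeff (ex i j) g := by
  rw [ex_succ_right, MvPowerSeries.X, MvPowerSeries.coeff_add_monomial_mul, one_mul]

theorem lf_X0_mul (m : ℕ) (g : R2) (p q : B) :
    lf (m + 1) (MvPowerSeries.X 0 * g) p q = p * lf m g p q := by
  rw [lf, Finset.Nat.sum_antidiagonal_succ]
  simp only [coeff_X0_mul_zero, coeff_X0_mul_succ, map_zero, zero_mul, zero_add]
  rw [lf, Finset.mul_sum]
  refine Finset.sum_congr rfl fun ij _ => ?_
  ring

theorem lf_X1_mul (m : ℕ) (g : R2) (p q : B) :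
    lf (m + 1) (MvPowerSeries.X 1 * g) p q = q * lf m g p q := by
  rw [lf, Finset.Nat.sum_antidiagonal_succ']
  simp only [coeff_X1_mul_zero, coeff_X1_mul_succ, map_zero, zero_mul, zero_add]
  rw [lf, Finset.mul_sum]
  refine Finset.sum_congr rfl fun ij _ => ?_
  ring

/-- **the lead lemma** -/
theorem lead (α : R2 →+* PowerSeries B)
    (hC : ∀ c : ℂ, α (MvPowerSeries.C c) = PowerSeries.C (algebraMap ℂ B c)) {K : ℕ} (hK : 0 < K)
    {p q : PowerSeries B} (h0 : α (MvPowerSeries.X 0) = PowerSeries.X ^ K * p)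
    (h1 : α (MvPowerSeries.X 1) = PowerSeries.X ^ K * q) (m : ℕ) (g : R2)
    (hg : (m : ℕ∞) ≤ g.order) :
    ∃ r, α g = PowerSeries.X ^ (K * m) * r ∧
      PowerSeries.constantCoeff r =
        lf m g (PowerSeries.constantCoeff p) (PowerSeries.constantCoeff q) := by
  induction m generalizing g with
  | zero =>
    refine ⟨α g, by rw [mul_zero, pow_zero, one_mul], ?_⟩
    obtain ⟨u, hu⟩ := hadamardS g
    rw [lf_zero_left]
    conv_lhs => rw [hu]
    rw [map_add, hC, map_add, PowerSeries.constantCoeff_C, Fin.sum_univ_two, map_add, map_mul,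
      map_mul, h0, h1]
    simp [hK.ne']
  | succ m ih =>
    obtain ⟨u, hu, hg'⟩ := exists_eq_sum (f := g) (M := m) (by exact_mod_cast hg)
    obtain ⟨r0, hr0, hc0⟩ := ih (u 0) (hu 0)
    obtain ⟨r1, hr1, hc1⟩ := ih (u 1) (hu 1)
    refine ⟨p * r0 + q * r1, ?_, ?_⟩
    · rw [hg', Fin.sum_univ_two, map_add, map_mul, map_mul, h0, h1, hr0, hr1]
      ring
    · rw [hg', Fin.sum_univ_two, lf_add, lf_X0_mul, lf_X1_mul, map_add, map_mul, map_mul, hc0, hc1]

theorem exists_coeff_of_order {m : ℕ} {g : R2} (hg : g.order = m) :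
    ∃ ij ∈ Finset.HasAntidiagonal.antidiagonal m, MvPowerSeries.coeff (ex ij.1 ij.2) g ≠ 0 := by
  obtain ⟨⟨d, hd, hdm⟩, -⟩ := MvPowerSeries.order_eq_nat.1 hg
  refine ⟨(d 0, d 1), ?_, by rwa [ex_surj]⟩
  rw [Finset.HasAntidiagonal.mem_antidiagonal, ← hdm, Finsupp.degree_eq_sum]
  simp [Fin.sum_univ_two]

end lf

end Vale.Agent.P298.H928
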