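import Vale.Agent.P298.H928.Val1

/-!
# P298 / H928 (row E1-BASE), Val 2: abstract charts and the comparison with the vertex
-/

noncomputable section

namespace Vale.Agent.P298.H928

open Vale.Agent.P298.H701 Vale.Agent.P298.H766 Polynomial

/-- the dehomogenised form of degree `m` -/
def lp (m : ℕ) (g : R2) : ℂ[X] :=
  ∑ ij ∈ Finset.HasAntidiagonal.antidiagonal m,
    C (MvPowerSeries.coeff (ex ij.1 ij.2) g) * X ^ ij.2

theorem coeff_lp {m i j : ℕ} (h : i + j = m) (g : R2) :
    (lp m g).coeff j = MvPowerSeries.coeff (ex i j) g := by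
  rw [lp, finsetSum_coeff]
  simp only [coeff_C_mul_X_pow]
  rw [Finset.sum_eq_single (i, j)]
  · rw [if_pos rfl]
  · rintro ⟨i', j'⟩ h' hne
    rw [Finset.HasAntidiagonal.mem_antidiagonal] at h'
    rw [if_neg]
    rintro rfl
    apply hne
    simp only at h'
    rw [Prod.mk.injEq]
    exact ⟨by omega, rfl⟩
  · intro h'
    rw [Finset.HasAntidiagonal.mem_antidiagonal] at h'
    exact absurd h h'

theorem lp_ne_zero {m : ℕ} {g : R2} (hg : g.order = m) : lp m g ≠ 0 := by
  obtain ⟨⟨i, j⟩, hij, hne⟩ := exists_coeff_of_order hg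
  rw [Finset.HasAntidiagonal.mem_antidiagonal] at hij
  intro h
  apply hne
  rw [← coeff_lp hij, h, coeff_zero]

theorem lf_eq {F : Type*} [CommRing F] [Algebra ℂ F] (m : ℕ) (g : R2) (p y : F) :
    lf m g p (p * y) = p ^ m * aeval y (lp m g) := by
  rw [lf, lp, map_sum, Finset.mul_sum]
  refine Finset.sum_congr rfl fun ij hij => ?_
  rw [Finset.HasAntidiagonal.mem_antidiagonal] at hij
  rw [map_mul, map_pow, aeval_C, aeval_X, ← hij, mul_pow, pow_add]
  ring

/-- an abstract chart -/
structure Cht (F : Type*) [Field F] [Algebra ℂ F] where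
  /-- the homomorphism -/
  α : R2 →+* PowerSeries F
  hC : ∀ c : ℂ, α (MvPowerSeries.C c) = PowerSeries.C (algebraMap ℂ F c)
  /-- the exponent -/
  K : ℕ
  hK : 0 < K
  /-- leading coefficient of `X 0` -/
  p : F
  /-- the ratio of the coordinates -/
  y : F
  h0 : ∃ p', α (MvPowerSeries.X 0) = PowerSeries.X ^ K * p' ∧ PowerSeries.constantCoeff p' = p
  h1 : ∃ q', α (MvPowerSeries.X 1) = PowerSeries.X ^ K * q' ∧
    PowerSeries.constantCoeff q' = p * y
  hp : p ≠ 0
  hy : Transcendental ℂ y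

/-- a Laurent series which is a monomial times a power series -/
theorem order_lead {F : Type*} [Field F] {r : PowerSeries F} {n : ℕ}
    (h : PowerSeries.constantCoeff r ≠ 0) :
    (HahnSeries.ofPowerSeries ℤ F (PowerSeries.X ^ n * r)).order = n ∧
      (HahnSeries.ofPowerSeries ℤ F (PowerSeries.X ^ n * r)).leadingCoeff =
        PowerSeries.constantCoeff r := by
  have h1 : ∀ i : ℕ, (HahnSeries.ofPowerSeries ℤ F r).coeff i = PowerSeries.coeff i r := fun i =>
    HahnSeries.ofPowerSeries_apply_coeff r i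
  have h2 : (HahnSeries.ofPowerSeries ℤ F r).coeff 0 = PowerSeries.constantCoeff r := by
    have := h1 0
    rw [PowerSeries.coeff_zero_eq_constantCoeff_apply] at this
    exact this
  have h3 : HahnSeries.ofPowerSeries ℤ F r ≠ 0 := by
    intro h4
    rw [h4, HahnSeries.coeff_zero] at h2
    exact h h2.symm
  have h4 : (HahnSeries.ofPowerSeries ℤ F r).order = 0 := by
    refine le_antisymm (HahnSeries.order_le_of_coeff_ne_zero (by rwa [h2])) ?_
    exact (mem_VS_ofPowerSeries r).resolve_left h3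
  have h5 : (HahnSeries.single (n : ℤ) (1 : F)) ≠ 0 := HahnSeries.single_ne_zero one_ne_zero
  rw [map_mul, HahnSeries.ofPowerSeries_X_pow]
  constructor
  · rw [HahnSeries.order_mul h5 h3, h4, HahnSeries.order_single one_ne_zero, add_zero]
  · rw [HahnSeries.leadingCoeff_mul, HahnSeries.leadingCoeff_of_single, one_mul,
      HahnSeries.leadingCoeff_eq, h4, h2]

theorem order_div {G : Type*} [Field G] {u v : LaurentSeries G} (hu : u ≠ 0) (hv : v ≠ 0) :
    (u / v).order = u.order - v.order ∧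
      (u / v).leadingCoeff = u.leadingCoeff / v.leadingCoeff := by
  have h2 : u / v * v = u := div_mul_cancel₀ u hv
  have h3 : u / v ≠ 0 := div_ne_zero hu hv
  constructor
  · have h4 := HahnSeries.order_mul h3 hv
    rw [h2] at h4
    omega
  · have h4 := HahnSeries.leadingCoeff_mul (u / v) v
    rw [h2] at h4
    rw [eq_div_iff (HahnSeries.leadingCoeff_ne_zero.2 hv), h4]

namespace Cht

variable {F : Type*} [Field F] [Algebra ℂ F] (A : Cht F)

/-- the embedding in Laurent series -/
def emb : R2 →+* LaurentSeries F := (HahnSeries.ofPowerSeries ℤ F).comp A.α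

theorem emb_spec {g : R2} {m : ℕ} (hg : g.order = m) :
    (A.emb g).order = A.K * m ∧ (A.emb g).leadingCoeff = A.p ^ m * aeval A.y (lp m g) ∧
      A.emb g ≠ 0 := by
  obtain ⟨p', hp', hp0⟩ := A.h0
  obtain ⟨q', hq', hq0⟩ := A.h1
  obtain ⟨r, hr, hr0⟩ := lead A.α A.hC A.hK hp' hq' m g hg.ge
  rw [hp0, hq0, lf_eq] at hr0
  have hne : A.p ^ m * aeval A.y (lp m g) ≠ 0 := by
    refine mul_ne_zero (pow_ne_zero _ A.hp) fun h => ?_
    exact lp_ne_zero hg ((transcendental_iff.1 A.hy) _ h)
  have h1 := order_lead (n := A.K * m) (r := r) (by rwa [hr0])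
  have h2 : A.emb g = HahnSeries.ofPowerSeries ℤ F (PowerSeries.X ^ (A.K * m) * r) := by
    rw [emb, RingHom.comp_apply, hr]
  rw [h2, h1.1, h1.2, hr0]
  refine ⟨by push_cast; rfl, rfl, ?_⟩
  rw [← HahnSeries.leadingCoeff_ne_zero, h1.2, hr0]
  exact hne

theorem exists_order {g : R2} (hg : g ≠ 0) : ∃ m : ℕ, g.order = m := by
  have h : g.order ≠ ⊤ := fun h => hg (MvPowerSeries.order_eq_top_iff.1 h)
  exact ⟨g.order.toNat, (ENat.natCast_toNat h).symm⟩

theorem emb_injective : Function.Injective A.emb := by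
  rw [injective_iff_map_eq_zero]
  intro g hg
  by_contra hne
  obtain ⟨m, hm⟩ := exists_order hne
  exact (A.emb_spec hm).2.2 hg

variable {L : Type*} [Field L] [Algebra R2 L] [IsFractionRing R2 L]

/-- the embedding of the fraction field -/
def j (L : Type*) [Field L] [Algebra R2 L] [IsFractionRing R2 L] : L →+* LaurentSeries F :=
  IsFractionRing.lift A.emb_injective

theorem j_algebraMap (g : R2) : A.j L (algebraMap R2 L g) = A.emb g :=
  IsFractionRing.lift_algebraMap A.emb_injective g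

/-- two charts with the same (or comparable) ratio -/
theorem compare {F' : Type*} [Field F'] [Algebra ℂ F'] (B : Cht F') (hB : B.K = 1) (hp : B.p = 1)
    (ev : F' →ₐ[ℂ] F) (hev : ev B.y = A.y) {x : L} (hx : x ≠ 0) :
    (A.j L x).order = A.K * (B.j L x).order ∧
      (A.j L x).leadingCoeff = A.p ^ (B.j L x).order * ev (B.j L x).leadingCoeff := by
  -- elements of the ring
  have h1 : ∀ g : R2, g ≠ 0 → (A.j L (algebraMap R2 L g)).order =
      A.K * (B.j L (algebraMap R2 L g)).order ∧ (A.j L (algebraMap R2 L g)).leadingCoeff =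
      A.p ^ (B.j L (algebraMap R2 L g)).order * ev (B.j L (algebraMap R2 L g)).leadingCoeff := by
    intro g hg
    obtain ⟨m, hm⟩ := exists_order hg
    obtain ⟨h2, h3, -⟩ := A.emb_spec hm
    obtain ⟨h4, h5, -⟩ := B.emb_spec hm
    rw [j_algebraMap, j_algebraMap, h2, h3, h4, h5, hB, hp, one_pow, one_mul, Nat.cast_one,
      one_mul, zpow_natCast]
    refine ⟨rfl, ?_⟩
    rw [← hev, aeval_algHom_apply]
  obtain ⟨a, b, hb, rfl⟩ := IsFractionRing.div_surjective (A := R2) x
  have hb0 : b ≠ 0 := nonZeroDivisors.ne_zero hb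
  have ha0 : a ≠ 0 := by
    rintro rfl
    rw [map_zero, zero_div] at hx
    exact hx rfl
  have haL : algebraMap R2 L a ≠ 0 := (map_ne_zero_iff _ (IsFractionRing.injective R2 L)).2 ha0
  have hbL : algebraMap R2 L b ≠ 0 := (map_ne_zero_iff _ (IsFractionRing.injective R2 L)).2 hb0
  obtain ⟨e1, e2⟩ := h1 a ha0
  obtain ⟨f1, f2⟩ := h1 b hb0
  have g1 := order_div (u := A.j L (algebraMap R2 L a)) (v := A.j L (algebraMap R2 L b))
    ((_root_.map_ne_zero _).2 haL) ((_root_.map_ne_zero _).2 hbL)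
  have g2 := order_div (u := B.j L (algebraMap R2 L a)) (v := B.j L (algebraMap R2 L b))
    ((_root_.map_ne_zero _).2 haL) ((_root_.map_ne_zero _).2 hbL)
  rw [map_div₀, map_div₀, g1.1, g1.2, g2.1, g2.2, e1, e2, f1, f2, map_div₀,
    zpow_sub₀ A.hp]
  refine ⟨by ring, ?_⟩
  rw [mul_div_mul_comm]

end Cht

end Vale.Agent.P298.H928
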