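import Vale.Agent.P298.H928.Val2
import Vale.Agent.P298.H928.Th2
import Vale.Agent.P298.H701.Br8

/-!
# P298 / H928 (row E1-BASE), Val 3: the valuations of the vertices
-/

noncomputable section

namespace Vale.Agent.P298.H928

open Vale.Agent.P298.H701 Vale.Agent.P298.H766 Vale.Agent.P298.H416 Filter Topology

/-! ### the blow-up of the origin -/

/-- `X0 ↦ X`, `X1 ↦ η X` -/
def vtxA : R2 →ₐ[ℂ] MvPowerSeries Unit (RatFunc ℂ) :=
  MvPowerSeries.substAlgHom (R := ℂ) (S := RatFunc ℂ)
    (a := ![(PowerSeries.X : PowerSeries (RatFunc ℂ)),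
      PowerSeries.X * PowerSeries.C RatFunc.X])
    (MvPowerSeries.hasSubst_of_constantCoeff_zero fun i => by
      fin_cases i
      · exact MvPowerSeries.constantCoeff_X ()
      · change MvPowerSeries.constantCoeff
          ((PowerSeries.X : PowerSeries (RatFunc ℂ)) * PowerSeries.C RatFunc.X) = 0
        rw [map_mul]
        have h : MvPowerSeries.constantCoeff (PowerSeries.X : PowerSeries (RatFunc ℂ)) = 0 :=
          MvPowerSeries.constantCoeff_X ()
        rw [h, zero_mul])

theorem vtxA_X0 : vtxA (MvPowerSeries.X 0) = (PowerSeries.X : PowerSeries (RatFunc ℂ)) :=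
  MvPowerSeries.substAlgHom_X _ 0

theorem vtxA_X1 : vtxA (MvPowerSeries.X 1) =
    (PowerSeries.X : PowerSeries (RatFunc ℂ)) * PowerSeries.C RatFunc.X :=
  MvPowerSeries.substAlgHom_X _ 1

/-- the chart of the generic point of the exceptional curve -/
def vtx : Cht (RatFunc ℂ) where
  α := (vtxA : R2 →+* MvPowerSeries Unit (RatFunc ℂ))
  hC c := by
    have h := vtxA.commutes c
    rw [MvPowerSeries.algebraMap_apply, MvPowerSeries.algebraMap_apply] at h
    exact h
  K := 1
  hK := one_pos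
  p := 1
  y := RatFunc.X
  h0 := ⟨1, by
    rw [pow_one, mul_one]
    exact vtxA_X0, map_one _⟩
  h1 := ⟨PowerSeries.C RatFunc.X, by
    rw [pow_one]
    exact vtxA_X1, by rw [PowerSeries.constantCoeff_C, one_mul]⟩
  hp := one_ne_zero
  hy := RatFunc.transcendental_X

/-- evaluation of rational functions at a transcendental element -/
def evT {F : Type*} [Field F] [Algebra ℂ F] (y : F) (hy : Transcendental ℂ y) :
    RatFunc ℂ →ₐ[ℂ] F :=
  RatFunc.liftAlgHom (Polynomial.aeval y)
    (nonZeroDivisors_le_comap_nonZeroDivisors_of_injective _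
      (transcendental_iff_injective.1 hy))

theorem evT_algebraMap {F : Type*} [Field F] [Algebra ℂ F] (y : F) (hy : Transcendental ℂ y)
    (P : Polynomial ℂ) : evT y hy (algebraMap (Polynomial ℂ) (RatFunc ℂ) P) =
      Polynomial.aeval y P := by
  have h := RatFunc.liftAlgHom_apply_div (Polynomial.aeval y)
    (nonZeroDivisors_le_comap_nonZeroDivisors_of_injective _
      (transcendental_iff_injective.1 hy)) P 1
  rw [map_one, map_one, div_one, div_one] at h
  exact h

theorem evT_X {F : Type*} [Field F] [Algebra ℂ F] (y : F) (hy : Transcendental ℂ y) :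
    evT y hy RatFunc.X = y := by
  rw [← RatFunc.algebraMap_X, evT_algebraMap, Polynomial.aeval_X]

/-! ### the fields -/

/-- the field of the base -/
abbrev L0 : Type := FractionRing R2

/-- the pull-back by `psi w` -/
def psR (w : List (Option ℂ)) : R2 →ₐ[ℂ] R2 := bas (psi w) (analyticAt_psi w 0) (psi_zero w)

theorem psR_ser2 (w : List (Option ℂ)) {F : ℂ × ℂ → ℂ} (hF : AnalyticAt ℂ F 0) :
    psR w (ser2 F) = ser2 fun q => F (psi w q) := bas_ser2 _ _ hF

theorem frequently_ne {i j : ℕ} {V : ℂ × ℂ → ℂ} (hV : AnalyticAt ℂ V 0) (hV0 : V 0 ≠ 0) :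
    ∃ᶠ q in 𝓝 (0 : ℂ × ℂ), q.1 ^ i * q.2 ^ j * V q ≠ 0 := by
  have h1 : ∀ᶠ q in 𝓝 (0 : ℂ × ℂ), V q ≠ 0 := hV.continuousAt.eventually_ne hV0
  have h2 : Tendsto (fun t : ℂ => ((t, t) : ℂ × ℂ)) (𝓝[≠] 0) (𝓝 0) := by
    have h3 : Continuous fun t : ℂ => ((t, t) : ℂ × ℂ) := by fun_prop
    exact (h3.tendsto 0).mono_left nhdsWithin_le_nhds
  intro hcon
  have h4 : ∀ᶠ t : ℂ in 𝓝[≠] 0, False := by
    filter_upwards [h2.eventually (h1.and hcon), self_mem_nhdsWithin] with t ht ht0
    refine ht.2 ?_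
    exact mul_ne_zero (mul_ne_zero (pow_ne_zero _ ht0) (pow_ne_zero _ ht0)) ht.1
  exact (Filter.eventually_false_iff_eq_bot.1 h4 ▸ (inferInstance : (𝓝[≠] (0 : ℂ)).NeBot)).ne rfl

theorem psR_injective (w : List (Option ℂ)) : Function.Injective (psR w) := by
  refine bas_injective _ _ ?_
  obtain ⟨i, j, V, hV, hV0, hJ, -, -⟩ := jac_psi w
  have h := frequently_ne (i := i) (j := j) hV hV0
  refine h.mono fun q hq => ?_
  rw [← hJ] at hq
  exact hq

/-- the pull-back by `psi w` on the field -/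
def psL (w : List (Option ℂ)) : L0 →+* L0 :=
  IsFractionRing.lift (A := R2) (g := (algebraMap R2 L0).comp (psR w : R2 →+* R2))
    ((IsFractionRing.injective R2 L0).comp (psR_injective w))

theorem psL_algebraMap (w : List (Option ℂ)) (g : R2) :
    psL w (algebraMap R2 L0 g) = algebraMap R2 L0 (psR w g) :=
  IsFractionRing.lift_algebraMap _ g

/-- the coordinates of the point `w`, as elements of the field of the base -/
def ab : List (Option ℂ) → L0 × L0
  | [] => (algebraMap R2 L0 (MvPowerSeries.X 0), algebraMap R2 L0 (MvPowerSeries.X 1))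
  | some c :: w => ((ab w).1, (ab w).2 / (ab w).1 - algebraMap ℂ L0 c)
  | none :: w => ((ab w).2, (ab w).1 / (ab w).2)

/-- the pull-back by one blow-up -/
def blR (d : Option ℂ) : R2 →ₐ[ℂ] R2 := bas (bl d) (analyticAt_bl d 0) (bl_zero d)

theorem blR_some_X0 (c : ℂ) : blR (some c) (MvPowerSeries.X 0) = MvPowerSeries.X 0 := by
  rw [← ser2_fst, blR, bas_ser2 _ _ analyticAt_fst]
  rfl

theorem blR_some_X1 (c : ℂ) : blR (some c) (MvPowerSeries.X 1) =
    MvPowerSeries.X 0 * (MvPowerSeries.X 1 + MvPowerSeries.C c) := by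
  rw [← ser2_snd, blR, bas_ser2 _ _ analyticAt_snd]
  have h1 : ser2 (fun q => (bl (some c) q).2) = ser2 fun q => q.1 * (q.2 + c) := rfl
  have h2 := ser2_mul (F := fun q : ℂ × ℂ => q.1) (G := fun q => q.2 + c) analyticAt_fst
    (analyticAt_snd.fun_add analyticAt_const)
  have h3 := ser2_add (F := fun q : ℂ × ℂ => q.2) (G := fun _ => c) analyticAt_snd analyticAt_const
  rw [h1, h2, h3, ser2_fst, ser2_snd, ser2_const]

theorem blR_none_X0 : blR none (MvPowerSeries.X 0) =
    MvPowerSeries.X 0 * MvPowerSeries.X 1 := by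
  rw [← ser2_fst, blR, bas_ser2 _ _ analyticAt_fst]
  have h1 : ser2 (fun q => (bl none q).1) = ser2 fun q => q.1 * q.2 := rfl
  rw [h1, ser2_mul analyticAt_fst analyticAt_snd, ser2_fst, ser2_snd]

theorem blR_none_X1 : blR none (MvPowerSeries.X 1) = MvPowerSeries.X 0 := by
  rw [← ser2_snd, blR, bas_ser2 _ _ analyticAt_snd]
  have h1 : ser2 (fun q => (bl none q).2) = ser2 fun q => q.1 := rfl
  rw [h1, ser2_fst]

theorem bas_comp {Φ Ψ : ℂ × ℂ → ℂ × ℂ} (hΦ : AnalyticAt ℂ Φ 0) (hΦ0 : Φ 0 = 0)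
    (hΨ : AnalyticAt ℂ Ψ 0) (hΨ0 : Ψ 0 = 0) (hc : AnalyticAt ℂ (fun q => Φ (Ψ q)) 0)
    (hc0 : Φ (Ψ 0) = 0) (g : R2) :
    bas (fun q => Φ (Ψ q)) hc hc0 g = bas Ψ hΨ hΨ0 (bas Φ hΦ hΦ0 g) := by
  have h : bas (fun q => Φ (Ψ q)) hc hc0 = (bas Ψ hΨ hΨ0).comp (bas Φ hΦ hΦ0) := by
    refine algHom_ext fun i => ?_
    rw [AlgHom.comp_apply]
    fin_cases i
    · change bas _ hc hc0 (MvPowerSeries.X 0) = bas Ψ hΨ hΨ0 (bas Φ hΦ hΦ0 (MvPowerSeries.X 0))
      rw [← ser2_fst, bas_ser2 _ _ analyticAt_fst, bas_ser2 _ _ analyticAt_fst,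
        bas_ser2 _ _ (analyticAt_fst_apply hΦ)]
    · change bas _ hc hc0 (MvPowerSeries.X 1) = bas Ψ hΨ hΨ0 (bas Φ hΦ hΦ0 (MvPowerSeries.X 1))
      rw [← ser2_snd, bas_ser2 _ _ analyticAt_snd, bas_ser2 _ _ analyticAt_snd,
        bas_ser2 _ _ (analyticAt_snd_apply hΦ)]
  exact DFunLike.congr_fun h g

theorem psR_nil (g : R2) : psR [] g = g := by
  have h : psR [] = AlgHom.id ℂ R2 := by
    refine algHom_ext fun i => ?_
    fin_cases i
    · change psR [] (MvPowerSeries.X 0) = MvPowerSeries.X 0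
      rw [← ser2_fst, psR_ser2 _ analyticAt_fst]
      rfl
    · change psR [] (MvPowerSeries.X 1) = MvPowerSeries.X 1
      rw [← ser2_snd, psR_ser2 _ analyticAt_snd]
      rfl
  exact DFunLike.congr_fun h g

theorem psR_cons (d : Option ℂ) (w : List (Option ℂ)) (g : R2) :
    psR (d :: w) g = blR d (psR w g) :=
  bas_comp (analyticAt_psi w 0) (psi_zero w) (analyticAt_bl d 0) (bl_zero d) _ _ g

theorem psR_C (w : List (Option ℂ)) (c : ℂ) : psR w (MvPowerSeries.C c) = MvPowerSeries.C c := by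
  have h := (psR w).commutes c
  rwa [MvPowerSeries.algebraMap_apply] at h

theorem algebraMap_L0 (c : ℂ) : algebraMap ℂ L0 c = algebraMap R2 L0 (MvPowerSeries.C c) := by
  rw [IsScalarTower.algebraMap_apply ℂ R2 L0, MvPowerSeries.algebraMap_apply]
  rfl

theorem psL_C (w : List (Option ℂ)) (c : ℂ) : psL w (algebraMap ℂ L0 c) = algebraMap ℂ L0 c := by
  rw [algebraMap_L0, psL_algebraMap, psR_C]

/-- on the level of the field, one blow-up -/
def blL (d : Option ℂ) : L0 →+* L0 := psL [d]

theorem blL_algebraMap (d : Option ℂ) (g : R2) :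
    blL d (algebraMap R2 L0 g) = algebraMap R2 L0 (blR d g) := by
  rw [blL, psL_algebraMap, psR_cons, psR_nil]

theorem blL_C (d : Option ℂ) (c : ℂ) : blL d (algebraMap ℂ L0 c) = algebraMap ℂ L0 c := psL_C _ c

theorem hom_ext_L0 {F : Type*} [Field F] {α β : L0 →+* F}
    (h : ∀ g : R2, α (algebraMap R2 L0 g) = β (algebraMap R2 L0 g)) : α = β := by
  ext x
  obtain ⟨a, b, hb, rfl⟩ := IsFractionRing.div_surjective (A := R2) x
  rw [map_div₀, map_div₀, h, h]

theorem psL_nil (x : L0) : psL [] x = x := by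
  have h : psL [] = RingHom.id L0 := hom_ext_L0 fun g => by
    rw [psL_algebraMap, psR_nil]
    rfl
  rw [h]
  rfl

theorem psL_cons (d : Option ℂ) (w : List (Option ℂ)) (x : L0) :
    psL (d :: w) x = blL d (psL w x) := by
  have h : psL (d :: w) = (blL d).comp (psL w) := hom_ext_L0 fun g => by
    rw [psL_algebraMap, psR_cons, RingHom.comp_apply, psL_algebraMap, blL_algebraMap]
  rw [h]
  rfl

/-- the variables in the field -/
def x0 : L0 := algebraMap R2 L0 (MvPowerSeries.X 0)

/-- the variables in the field -/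
def x1 : L0 := algebraMap R2 L0 (MvPowerSeries.X 1)

theorem x0_ne : x0 ≠ 0 := (map_ne_zero_iff _ (IsFractionRing.injective R2 L0)).2 (X_ne_zero 0)

theorem x1_ne : x1 ≠ 0 := (map_ne_zero_iff _ (IsFractionRing.injective R2 L0)).2 (X_ne_zero 1)

theorem psL_ab (w : List (Option ℂ)) : psL w (ab w).1 = x0 ∧ psL w (ab w).2 = x1 := by
  induction w with
  | nil => exact ⟨psL_nil _, psL_nil _⟩
  | cons d w ih =>
    cases d with
    | some c =>
      have h1 : blL (some c) x0 = x0 := by rw [x0, blL_algebraMap, blR_some_X0]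
      have h2 : blL (some c) x1 = x0 * (x1 + algebraMap ℂ L0 c) := by
        rw [x1, blL_algebraMap, blR_some_X1, map_mul, map_add, ← algebraMap_L0]
        rfl
      constructor
      · change psL (some c :: w) (ab w).1 = x0
        rw [psL_cons, ih.1, h1]
      · change psL (some c :: w) ((ab w).2 / (ab w).1 - algebraMap ℂ L0 c) = x1
        rw [psL_cons, map_sub, map_div₀, ih.1, ih.2, map_sub, map_div₀, h1, h2, psL_C, blL_C,
          mul_div_cancel_left₀ _ x0_ne]
        ring
    | none =>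
      have h1 : blL none x0 = x0 * x1 := by
        rw [x0, blL_algebraMap, blR_none_X0, map_mul]
        rfl
      have h2 : blL none x1 = x0 := by rw [x1, blL_algebraMap, blR_none_X1, x0]
      constructor
      · change psL (none :: w) (ab w).2 = x0
        rw [psL_cons, ih.2, h2]
      · change psL (none :: w) ((ab w).1 / (ab w).2) = x1
        rw [psL_cons, map_div₀, ih.1, ih.2, map_div₀, h1, h2, mul_div_cancel_left₀ _ x0_ne]

theorem ab_ne (w : List (Option ℂ)) : (ab w).1 ≠ 0 ∧ (ab w).2 ≠ 0 := by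
  obtain ⟨h1, h2⟩ := psL_ab w
  constructor
  · intro h
    rw [h, map_zero] at h1
    exact x0_ne h1.symm
  · intro h
    rw [h, map_zero] at h2
    exact x1_ne h2.symm

/-! ### the vertex `w` -/

/-- the embedding of the generic point of the curve of the vertex -/
def iw (w : List (Option ℂ)) : L0 →+* LaurentSeries (RatFunc ℂ) := (vtx.j L0).comp (psL w)

/-- the coordinate on the curve of the vertex -/
def etaw (w : List (Option ℂ)) : L0 := (ab w).2 / (ab w).1

theorem vtx_x0 : vtx.j L0 x0 = HahnSeries.single 1 1 := by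
  rw [x0, Cht.j_algebraMap, Cht.emb, RingHom.comp_apply]
  have h : vtx.α (MvPowerSeries.X 0) = (PowerSeries.X : PowerSeries (RatFunc ℂ)) := vtxA_X0
  rw [h, HahnSeries.ofPowerSeries_X]

theorem vtx_x1 : vtx.j L0 x1 = HahnSeries.single 1 1 * HahnSeries.C RatFunc.X := by
  rw [x1, Cht.j_algebraMap, Cht.emb, RingHom.comp_apply]
  have h : vtx.α (MvPowerSeries.X 1) =
    (PowerSeries.X : PowerSeries (RatFunc ℂ)) * PowerSeries.C RatFunc.X := vtxA_X1
  rw [h, map_mul, HahnSeries.ofPowerSeries_X, HahnSeries.ofPowerSeries_C]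

theorem iw_a (w : List (Option ℂ)) : iw w (ab w).1 = HahnSeries.single 1 1 := by
  rw [iw, RingHom.comp_apply, (psL_ab w).1, vtx_x0]

theorem iw_etaw (w : List (Option ℂ)) : iw w (etaw w) = HahnSeries.C RatFunc.X := by
  rw [iw, RingHom.comp_apply, etaw, map_div₀, (psL_ab w).1, (psL_ab w).2, map_div₀, vtx_x0, vtx_x1,
    mul_div_cancel_left₀]
  exact HahnSeries.single_ne_zero one_ne_zero

theorem iw_C (w : List (Option ℂ)) (c : ℂ) :
    iw w (algebraMap ℂ L0 c) = HahnSeries.C (algebraMap ℂ (RatFunc ℂ) c) := by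
  rw [iw, RingHom.comp_apply, psL_C, algebraMap_L0, Cht.j_algebraMap, Cht.emb,
    RingHom.comp_apply, vtx.hC, HahnSeries.ofPowerSeries_C]

theorem iw_aeval (w : List (Option ℂ)) (P : Polynomial ℂ) :
    iw w (Polynomial.aeval (etaw w) P) =
      HahnSeries.C (algebraMap (Polynomial ℂ) (RatFunc ℂ) P) := by
  have h : (iw w).comp (Polynomial.aeval (etaw w) : Polynomial ℂ →ₐ[ℂ] L0).toRingHom =
      (HahnSeries.C : RatFunc ℂ →+* LaurentSeries (RatFunc ℂ)).comp
        (algebraMap (Polynomial ℂ) (RatFunc ℂ)) := by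
    refine Polynomial.ringHom_ext (fun c => ?_) ?_
    · rw [RingHom.comp_apply, RingHom.comp_apply]
      change iw w (Polynomial.aeval (etaw w) (Polynomial.C c)) = _
      rw [Polynomial.aeval_C, iw_C]
      congr 1
    · rw [RingHom.comp_apply, RingHom.comp_apply]
      change iw w (Polynomial.aeval (etaw w) Polynomial.X) = _
      rw [Polynomial.aeval_X, iw_etaw, RatFunc.algebraMap_X]
  exact RingHom.congr_fun h P

theorem etaw_transcendental (w : List (Option ℂ)) : Transcendental ℂ (etaw w) := by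
  rw [transcendental_iff]
  intro P hP
  have h := iw_aeval w P
  rw [hP, map_zero] at h
  have h1 := HahnSeries.C_injective ((map_zero _).trans h)
  exact (RatFunc.algebraMap_injective ℂ) (h1.symm.trans (map_zero _).symm)

/-- the coefficient field of the vertex -/
def secw (w : List (Option ℂ)) : RatFunc ℂ →ₐ[ℂ] L0 := evT (etaw w) (etaw_transcendental w)

theorem iw_secw (w : List (Option ℂ)) (r : RatFunc ℂ) : iw w (secw w r) = HahnSeries.C r := by
  have h : ((iw w).comp (secw w : RatFunc ℂ →+* L0)) =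
      (HahnSeries.C : RatFunc ℂ →+* LaurentSeries (RatFunc ℂ)) := by
    refine IsFractionRing.ringHom_ext (A := Polynomial ℂ) (K := RatFunc ℂ)
      (L := LaurentSeries (RatFunc ℂ)) fun P => ?_
    rw [RingHom.comp_apply]
    change iw w (evT (etaw w) (etaw_transcendental w) (algebraMap _ _ P)) = _
    rw [evT_algebraMap, iw_aeval]
  exact RingHom.congr_fun h r

/-- **the valuation ring of the vertex `w`** -/
def W (w : List (Option ℂ)) : ValuationSubring L0 := (VS (RatFunc ℂ)).comap (iw w)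

/-- **the order along the curve of the vertex** -/
def vw (w : List (Option ℂ)) (x : L0) : ℤ := (iw w x).order

theorem nord_vw (w : List (Option ℂ)) : NOrd (W w) (vw w) where
  zero := by rw [vw, map_zero, HahnSeries.order_zero]
  mul x y hx hy := by
    rw [vw, map_mul]
    exact HahnSeries.order_mul ((map_ne_zero _).2 hx) ((map_ne_zero _).2 hy)
  add x y hx hy hxy := by
    rw [vw, vw, vw, map_add]
    refine HahnSeries.min_order_le_order_add ?_
    rw [← map_add]
    exact (map_ne_zero _).2 hxy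
  mem x := by
    rw [W, ValuationSubring.mem_comap, mem_VS, map_eq_zero]
    rfl
  one := ⟨(ab w).1, by
    rw [vw, iw_a]
    exact HahnSeries.order_single one_ne_zero⟩

theorem vw_a (w : List (Option ℂ)) : vw w (ab w).1 = 1 := by
  rw [vw, iw_a]
  exact HahnSeries.order_single one_ne_zero

theorem vw_etaw (w : List (Option ℂ)) : vw w (etaw w) = 0 := by
  rw [vw, iw_etaw]
  exact HahnSeries.order_C

/-- **the residue map of the vertex** -/
def rhow (w : List (Option ℂ)) : Res (W w) (RatFunc ℂ) where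
  ρ := (resLS (RatFunc ℂ)).ρ.comp (resPre (iw w) rfl)
  ker x := by
    rw [RingHom.comp_apply, (resLS (RatFunc ℂ)).ker]
    exact (val_lt_one_comap (K := L0) (Ω := LaurentSeries (RatFunc ℂ)) (iw w) rfl (x : L0)).symm

theorem rhow_apply (w : List (Option ℂ)) (x : W w) : (rhow w).ρ x = (iw w x).coeff 0 := rfl

theorem secw_mem (w : List (Option ℂ)) (r : RatFunc ℂ) : secw w r ∈ W w := by
  rw [W, ValuationSubring.mem_comap, iw_secw, mem_VS]
  exact Or.inr HahnSeries.order_C.ge

theorem rhow_secw (w : List (Option ℂ)) (r : RatFunc ℂ) :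
    (rhow w).ρ ⟨secw w r, secw_mem w r⟩ = r := by
  rw [rhow_apply]
  simp only
  rw [iw_secw, HahnSeries.C_apply, HahnSeries.coeff_single_same]

theorem rhow_surjective (w : List (Option ℂ)) : Function.Surjective (rhow w).ρ :=
  fun r => ⟨_, rhow_secw w r⟩

theorem C_mem (w : List (Option ℂ)) (c : ℂ) : algebraMap ℂ L0 c ∈ W w := by
  rw [W, ValuationSubring.mem_comap, iw_C, mem_VS]
  exact Or.inr HahnSeries.order_C.ge

theorem rhow_C (w : List (Option ℂ)) (c : ℂ) :
    (rhow w).ρ ⟨algebraMap ℂ L0 c, C_mem w c⟩ = algebraMap ℂ (RatFunc ℂ) c := by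
  rw [rhow_apply]
  simp only
  rw [iw_C, HahnSeries.C_apply, HahnSeries.coeff_single_same]

theorem etaw_mem (w : List (Option ℂ)) : etaw w ∈ W w := (nord_vw w).mem _ |>.2
  (Or.inr (vw_etaw w).ge)

theorem rhow_etaw (w : List (Option ℂ)) : (rhow w).ρ ⟨etaw w, etaw_mem w⟩ = RatFunc.X := by
  rw [rhow_apply]
  simp only
  rw [iw_etaw, HahnSeries.C_apply, HahnSeries.coeff_single_same]

/-- the power series are in the ring of every vertex -/
theorem R2_mem (w : List (Option ℂ)) (g : R2) : algebraMap R2 L0 g ∈ W w := by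
  rw [W, ValuationSubring.mem_comap, iw, RingHom.comp_apply, psL_algebraMap, Cht.j_algebraMap]
  exact mem_VS_ofPowerSeries _

/-- elements of the maximal ideal are positive at every vertex -/
theorem vw_pos (w : List (Option ℂ)) {g : R2} (hg : g ≠ 0)
    (h0 : MvPowerSeries.constantCoeff g = 0) : 0 < vw w (algebraMap R2 L0 g) := by
  have h1 : psR w g ≠ 0 := (map_ne_zero_iff _ (psR_injective w)).2 hg
  obtain ⟨m, hm⟩ := Cht.exists_order h1
  rw [vw, iw, RingHom.comp_apply, psL_algebraMap, Cht.j_algebraMap, (vtx.emb_spec hm).1]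
  have h2 : m ≠ 0 := by
    rintro rfl
    have h3 : (psR w g).order = 0 := hm
    have h4 : MvPowerSeries.constantCoeff (psR w g) = 0 := by
      rw [constantCoeff_algHom, h0]
    exact MvPowerSeries.order_ne_zero_iff_constCoeff_eq_zero.2 h4 h3
  change (0 : ℤ) < (1 : ℕ) * (m : ℤ)
  omega

end Vale.Agent.P298.H928
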