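import Vale.Agent.P298.H928.Val3
import Vale.Agent.P298.H400.Plc2

/-!
# P298 / H928 (row E1-BASE), Val 4: the charts at the places of the vertices, formally
-/

noncomputable section

namespace Vale.Agent.P298.H928

open Vale.Agent.P298.H701 Vale.Agent.P298.H766 Vale.Agent.P298.H416 Filter Topology

/-! ### `ℂ[[a, b]] → ℂ((b))[[a]]` -/

/-- the inner part of `sA` -/
def ps : R2 →+* PowerSeries (LaurentSeries ℂ) :=
  (PowerSeries.map (HahnSeries.ofPowerSeries ℤ ℂ)).comp toPP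

theorem sA_eq (g : R2) : sA g = HahnSeries.ofPowerSeries ℤ (LaurentSeries ℂ) (ps g) := rfl

theorem ps_X0 : ps (MvPowerSeries.X 0) = PowerSeries.X := by
  rw [ps, RingHom.comp_apply, toPP_X0, PowerSeries.map_X]

theorem ps_X1 : ps (MvPowerSeries.X 1) = PowerSeries.C (HahnSeries.single 1 1) := by
  rw [ps, RingHom.comp_apply, toPP_X1, PowerSeries.map_C, HahnSeries.ofPowerSeries_X]

theorem algebraMap_LS (c : ℂ) : algebraMap ℂ (LaurentSeries ℂ) c = HahnSeries.C c := by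
  rw [HahnSeries.algebraMap_apply', PowerSeries.algebraMap_apply]
  simp [HahnSeries.ofPowerSeries_C]

theorem ps_C (c : ℂ) : ps (MvPowerSeries.C c) =
    PowerSeries.C (algebraMap ℂ (LaurentSeries ℂ) c) := by
  rw [ps, RingHom.comp_apply, toPP_C, PowerSeries.map_C, HahnSeries.ofPowerSeries_C,
    algebraMap_LS]

/-- the restriction to `a = 0` -/
def rs0 : R2 →+* LaurentSeries ℂ := (PowerSeries.constantCoeff (R := LaurentSeries ℂ)).comp ps

theorem rs0_X0 : rs0 (MvPowerSeries.X 0) = 0 := by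
  rw [rs0, RingHom.comp_apply, ps_X0, PowerSeries.constantCoeff_X]

theorem rs0_X1 : rs0 (MvPowerSeries.X 1) = HahnSeries.single 1 1 := by
  rw [rs0, RingHom.comp_apply, ps_X1, PowerSeries.constantCoeff_C]

theorem rs0_C (c : ℂ) : rs0 (MvPowerSeries.C c) = algebraMap ℂ (LaurentSeries ℂ) c := by
  rw [rs0, RingHom.comp_apply, ps_C, PowerSeries.constantCoeff_C]

theorem rs0_ser2 {φ : ℂ → ℂ} (hφ : AnalyticAt ℂ φ 0) (h0 : φ 0 = 0) :
    rs0 (ser2 fun q => φ q.1) = 0 := by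
  obtain ⟨ψ, hψ, hφψ⟩ : ∃ ψ : ℂ → ℂ, AnalyticAt ℂ ψ 0 ∧ ∀ᶠ a in 𝓝 (0 : ℂ), φ a = a * ψ a := by
    have h1 : 1 ≤ analyticOrderAt φ 0 := by
      rw [Order.one_le_iff_ne_zero]
      exact hφ.analyticOrderAt_ne_zero.2 h0
    obtain ⟨ψ, hψ, h2⟩ := (natCast_le_analyticOrderAt (n := 1) hφ).1 (by exact_mod_cast h1)
    refine ⟨ψ, hψ, ?_⟩
    filter_upwards [h2] with a ha
    rw [ha]
    simp
  have h1 : ser2 (fun q : ℂ × ℂ => φ q.1) = ser2 fun q => q.1 * ψ q.1 := by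
    refine ser2_congr ?_
    exact (continuous_fst.tendsto (0 : ℂ × ℂ)).eventually hφψ
  have h2 : AnalyticAt ℂ (fun q : ℂ × ℂ => ψ q.1) 0 := hψ.comp_of_eq analyticAt_fst rfl
  rw [h1, ser2_mul analyticAt_fst h2, map_mul, ser2_fst, rs0_X0, zero_mul]

/-! ### transcendental elements of `ℂ((t))` -/

/-- `t` -/
def tt : LaurentSeries ℂ := HahnSeries.single 1 1

theorem tt_ne : tt ≠ 0 := HahnSeries.single_ne_zero one_ne_zero

theorem order_tt : tt.order = 1 := HahnSeries.order_single one_ne_zero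

theorem transcendental_tt : Transcendental ℂ tt := by
  rw [transcendental_iff]
  intro P hP
  have h : (Polynomial.aeval tt : Polynomial ℂ →ₐ[ℂ] LaurentSeries ℂ).toRingHom =
      (HahnSeries.ofPowerSeries ℤ ℂ).comp (Polynomial.coeToPowerSeries.ringHom) := by
    refine Polynomial.ringHom_ext (fun c => ?_) ?_
    · change Polynomial.aeval tt (Polynomial.C c) =
        HahnSeries.ofPowerSeries ℤ ℂ ((Polynomial.C c : Polynomial ℂ) : PowerSeries ℂ)
      rw [Polynomial.aeval_C, Polynomial.coe_C, HahnSeries.ofPowerSeries_C, algebraMap_LS]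
    · change Polynomial.aeval tt Polynomial.X =
        HahnSeries.ofPowerSeries ℤ ℂ ((Polynomial.X : Polynomial ℂ) : PowerSeries ℂ)
      rw [Polynomial.aeval_X, Polynomial.coe_X, HahnSeries.ofPowerSeries_X]
      rfl
  have h1 := RingHom.congr_fun h P
  change Polynomial.aeval tt P = HahnSeries.ofPowerSeries ℤ ℂ (P : PowerSeries ℂ) at h1
  rw [hP] at h1
  have h2 := HahnSeries.ofPowerSeries_injective (h1.symm.trans (map_zero _).symm)
  exact Polynomial.coe_injective ℂ (h2.trans Polynomial.coe_zero.symm)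

/-- the coordinate `η` at the place `d`, as a series in `t = b^K` -/
def yd (d : Option ℂ) (K : ℕ) : LaurentSeries ℂ :=
  match d with
  | some c => algebraMap ℂ (LaurentSeries ℂ) c + tt ^ K
  | none => (tt ^ K)⁻¹

theorem yd_transcendental (d : Option ℂ) {K : ℕ} (hK : 0 < K) : Transcendental ℂ (yd d K) := by
  have h := transcendental_tt.pow hK
  cases d with
  | some c =>
    intro h1
    apply h
    have h2 := h1.sub (isAlgebraic_algebraMap (R := ℂ) (A := LaurentSeries ℂ) c)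
    rwa [yd, add_sub_cancel_left] at h2
  | none =>
    intro h1
    apply h
    have h2 := h1.inv
    rwa [yd, inv_inv] at h2

/-- the exponent of the leading coefficient of the equation of the curve -/
def kd (d : Option ℂ) (k : ℕ) : ℕ :=
  match d with
  | some _ => k
  | none => k + 1

/-! ### the charts -/

/-- the map `(a, b) ↦ (a^K b^(K k), b^K + φ (a^K))` -/
def shK (k K : ℕ) (φ : ℂ → ℂ) (q : ℂ × ℂ) : ℂ × ℂ :=
  (q.1 ^ K * (q.2 ^ K) ^ k, q.2 ^ K + φ (q.1 ^ K))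

variable {k K : ℕ} {φ : ℂ → ℂ}

theorem powfst (K : ℕ) : AnalyticAt ℂ (fun q : ℂ × ℂ => q.1 ^ K) 0 := analyticAt_fst.fun_pow K

theorem powsnd (K : ℕ) : AnalyticAt ℂ (fun q : ℂ × ℂ => q.2 ^ K) 0 := analyticAt_snd.fun_pow K

theorem an_phiK (hφ : AnalyticAt ℂ φ 0) (hK : K ≠ 0) :
    AnalyticAt ℂ (fun q : ℂ × ℂ => φ (q.1 ^ K)) 0 :=
  hφ.comp_of_eq (powfst K) (by simp [hK])

theorem analyticAt_shK (k : ℕ) (hφ : AnalyticAt ℂ φ 0) (hK : K ≠ 0) :
    AnalyticAt ℂ (shK k K φ) 0 :=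
  ((powfst K).fun_mul ((powsnd K).fun_pow k)).prod ((powsnd K).fun_add (an_phiK hφ hK))

theorem shK_zero (k : ℕ) (h0 : φ 0 = 0) (hK : K ≠ 0) : shK k K φ 0 = 0 := by
  simp [shK, hK, h0]

theorem bl_shK_an (d : Option ℂ) (k : ℕ) (hφ : AnalyticAt ℂ φ 0) (h0 : φ 0 = 0) (hK : K ≠ 0) :
    AnalyticAt ℂ (fun q => bl d (shK k K φ q)) 0 :=
  (analyticAt_bl d 0).comp_of_eq (analyticAt_shK k hφ hK) (shK_zero k h0 hK)

theorem bl_shK_zero (d : Option ℂ) (k : ℕ) (h0 : φ 0 = 0) (hK : K ≠ 0) :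
    bl d (shK k K φ 0) = 0 := by rw [shK_zero k h0 hK, bl_zero]

theorem ser2_shK1 (k K : ℕ) : ser2 (fun q : ℂ × ℂ => q.1 ^ K * (q.2 ^ K) ^ k) =
    MvPowerSeries.X 0 ^ K * (MvPowerSeries.X 1 ^ K) ^ k := by
  rw [ser2_mul (powfst K) ((powsnd K).fun_pow k), ser2_pow analyticAt_fst, ser2_fst,
    ser2_pow (powsnd K), ser2_pow analyticAt_snd, ser2_snd]

theorem rs0_shK2 (hφ : AnalyticAt ℂ φ 0) (h0 : φ 0 = 0) (hK : K ≠ 0) :
    rs0 (ser2 fun q : ℂ × ℂ => q.2 ^ K + φ (q.1 ^ K)) = tt ^ K := by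
  have h1 : AnalyticAt ℂ (fun a : ℂ => φ (a ^ K)) 0 :=
    hφ.comp_of_eq (analyticAt_id.fun_pow K) (by simp [hK])
  have h2 : φ ((0 : ℂ) ^ K) = 0 := by rw [zero_pow hK, h0]
  rw [ser2_add (powsnd K) (an_phiK hφ hK), map_add, ser2_pow analyticAt_snd, ser2_snd, map_pow,
    rs0_X1, rs0_ser2 h1 h2, add_zero]
  rfl

/-- **the chart at a place** -/
def chA (d : Option ℂ) (k K : ℕ) (hK : 0 < K) (φ : ℂ → ℂ) (hφ : AnalyticAt ℂ φ 0)
    (h0 : φ 0 = 0) : Cht (LaurentSeries ℂ) where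
  α := ps.comp (bas _ (bl_shK_an d k hφ h0 hK.ne') (bl_shK_zero d k h0 hK.ne') : R2 →+* R2)
  hC c := by
    rw [RingHom.comp_apply]
    have h := (bas _ (bl_shK_an d k hφ h0 hK.ne') (bl_shK_zero d k h0 hK.ne')).commutes c
    rw [MvPowerSeries.algebraMap_apply] at h
    exact (congrArg ps h).trans (ps_C c)
  K := K
  hK := hK
  p := (tt ^ K) ^ kd d k
  y := yd d K
  h0 := by
    set B := bas _ (bl_shK_an d k hφ h0 hK.ne') (bl_shK_zero d k h0 hK.ne') with hB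
    have h1 : B (MvPowerSeries.X 0) = ser2 fun q => (bl d (shK k K φ q)).1 := by
      rw [← ser2_fst, hB, bas_ser2 _ _ analyticAt_fst]
    change ∃ p', ps (B (MvPowerSeries.X 0)) = PowerSeries.X ^ K * p' ∧ _
    rw [h1]
    cases d with
    | some c =>
      have h2 : ser2 (fun q => (bl (some c) (shK k K φ q)).1) =
          MvPowerSeries.X 0 ^ K * (MvPowerSeries.X 1 ^ K) ^ k := ser2_shK1 k K
      refine ⟨ps ((MvPowerSeries.X 1 ^ K) ^ k), ?_, ?_⟩
      · rw [h2, map_mul, map_pow, ps_X0]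
      · change rs0 ((MvPowerSeries.X 1 ^ K) ^ k) = _
        rw [map_pow, map_pow, rs0_X1]
        rfl
    | none =>
      have h2 : ser2 (fun q => (bl none (shK k K φ q)).1) =
          MvPowerSeries.X 0 ^ K * (MvPowerSeries.X 1 ^ K) ^ k *
            ser2 fun q : ℂ × ℂ => q.2 ^ K + φ (q.1 ^ K) := by
        rw [← ser2_shK1]
        exact ser2_mul ((powfst K).fun_mul ((powsnd K).fun_pow k))
          ((powsnd K).fun_add (an_phiK hφ hK.ne'))
      refine ⟨ps ((MvPowerSeries.X 1 ^ K) ^ k *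
        ser2 fun q : ℂ × ℂ => q.2 ^ K + φ (q.1 ^ K)), ?_, ?_⟩
      · rw [h2, mul_assoc, map_mul, map_pow, ps_X0]
      · change rs0 ((MvPowerSeries.X 1 ^ K) ^ k *
          ser2 fun q : ℂ × ℂ => q.2 ^ K + φ (q.1 ^ K)) = _
        rw [map_mul, rs0_shK2 hφ h0 hK.ne', map_pow, map_pow, rs0_X1]
        change (tt ^ K) ^ k * tt ^ K = (tt ^ K) ^ (k + 1)
        rw [pow_succ]
  h1 := by
    set B := bas _ (bl_shK_an d k hφ h0 hK.ne') (bl_shK_zero d k h0 hK.ne') with hB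
    have h1 : B (MvPowerSeries.X 1) = ser2 fun q => (bl d (shK k K φ q)).2 := by
      rw [← ser2_snd, hB, bas_ser2 _ _ analyticAt_snd]
    change ∃ p', ps (B (MvPowerSeries.X 1)) = PowerSeries.X ^ K * p' ∧ _
    rw [h1]
    cases d with
    | some c =>
      have h3 : AnalyticAt ℂ (fun q : ℂ × ℂ => q.2 ^ K + φ (q.1 ^ K)) 0 :=
        (powsnd K).fun_add (an_phiK hφ hK.ne')
      have h2 : ser2 (fun q => (bl (some c) (shK k K φ q)).2) =
          MvPowerSeries.X 0 ^ K * (MvPowerSeries.X 1 ^ K) ^ k *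
            (ser2 (fun q : ℂ × ℂ => q.2 ^ K + φ (q.1 ^ K)) + MvPowerSeries.C c) := by
        have h4 := ser2_add (F := fun q : ℂ × ℂ => q.2 ^ K + φ (q.1 ^ K)) (G := fun _ => c) h3
          analyticAt_const
        rw [← ser2_shK1, ← ser2_const c, ← h4]
        exact ser2_mul ((powfst K).fun_mul ((powsnd K).fun_pow k)) (h3.fun_add analyticAt_const)
      refine ⟨ps ((MvPowerSeries.X 1 ^ K) ^ k *
        (ser2 (fun q : ℂ × ℂ => q.2 ^ K + φ (q.1 ^ K)) + MvPowerSeries.C c)), ?_, ?_⟩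
      · rw [h2, mul_assoc, map_mul, map_pow, ps_X0]
      · change rs0 ((MvPowerSeries.X 1 ^ K) ^ k *
          (ser2 (fun q : ℂ × ℂ => q.2 ^ K + φ (q.1 ^ K)) + MvPowerSeries.C c)) = _
        rw [map_mul, map_add, rs0_shK2 hφ h0 hK.ne', rs0_C, map_pow, map_pow, rs0_X1]
        change (tt ^ K) ^ k * (tt ^ K + algebraMap ℂ (LaurentSeries ℂ) c) =
          (tt ^ K) ^ k * (algebraMap ℂ (LaurentSeries ℂ) c + tt ^ K)
        rw [add_comm (tt ^ K)]
    | none =>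
      have h2 : ser2 (fun q => (bl none (shK k K φ q)).2) =
          MvPowerSeries.X 0 ^ K * (MvPowerSeries.X 1 ^ K) ^ k := ser2_shK1 k K
      refine ⟨ps ((MvPowerSeries.X 1 ^ K) ^ k), ?_, ?_⟩
      · rw [h2, map_mul, map_pow, ps_X0]
      · change rs0 ((MvPowerSeries.X 1 ^ K) ^ k) = _
        rw [map_pow, map_pow, rs0_X1]
        change (tt ^ K) ^ k = (tt ^ K) ^ (k + 1) * (tt ^ K)⁻¹
        rw [pow_succ, mul_assoc, mul_inv_cancel₀ (pow_ne_zero _ tt_ne), mul_one]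
  hp := pow_ne_zero _ (pow_ne_zero _ tt_ne)
  hy := yd_transcendental d hK

/-- the evaluation at the place `d` -/
def evd (d : Option ℂ) (K : ℕ) (hK : 0 < K) : RatFunc ℂ →ₐ[ℂ] LaurentSeries ℂ :=
  evT (yd d K) (yd_transcendental d hK)

/-- **comparison of the chart at a place with the vertex** -/
theorem chA_compare (d : Option ℂ) (k K : ℕ) (hK : 0 < K) (φ : ℂ → ℂ) (hφ : AnalyticAt ℂ φ 0)
    (h0 : φ 0 = 0) {x : L0} (hx : x ≠ 0) :
    ((chA d k K hK φ hφ h0).j L0 x).order = K * (vtx.j L0 x).order ∧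
      ((chA d k K hK φ hφ h0).j L0 x).leadingCoeff =
        ((tt ^ K) ^ kd d k) ^ (vtx.j L0 x).order * evd d K hK (vtx.j L0 x).leadingCoeff :=
  (chA d k K hK φ hφ h0).compare vtx rfl rfl (evd d K hK) (evT_X _ _) hx

end Vale.Agent.P298.H928
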