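import Vale.Agent.P298.H928.Val4
import Vale.Agent.P298.H707.JT

/-!
# P298 / H928 (row E1-BASE), Val 5: the embeddings of the places of a tree
-/

noncomputable section

namespace Vale.Agent.P298.H928

open Vale.Agent.P298.H701 Vale.Agent.P298.H766 Vale.Agent.P298.H416 Vale.Agent.P298.H400
  Vale.Agent.P298.FF Filter Topology

/-! ### embeddings of a line in `ℂ((t))` -/

/-- **the order of an evaluation is the order at the place** -/
theorem order_line {F : Type*} [Field F] [Algebra ℂ F] [CFF ℂ F] {η : F} (h : IsLine ℂ η)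
    (e : F →+* LaurentSeries ℂ) (heC : ∀ c, e (algebraMap ℂ F c) = HahnSeries.C c)
    (d : Option ℂ) {K : ℕ} (hK : 0 < K) (he : e η = yd d K) :
    (∀ r : F, (e r).order = K * ord (h.Q d) r) ∧ (VS ℂ).comap e = (h.Q d).1 := by
  have hK' : (K : ℤ) ≠ 0 := by exact_mod_cast hK.ne'
  -- a test element
  obtain ⟨z, hz, hzd⟩ : ∃ z : F, (e z).order = K ∧ ord (h.Q d) z = 1 ∧
      ∀ d', 0 < ord (h.Q d') z → d' = d := by
    cases d with
    | some c =>
      refine ⟨η - algebraMap ℂ F c, ?_, h.ord_some c, fun d' hd' => h.inj (h.eq_some hd')⟩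
      rw [map_sub, he, heC, yd, algebraMap_LS, add_sub_cancel_left, HahnSeries.order_pow,
        order_tt]
      simp
    | none =>
      refine ⟨η⁻¹, ?_, ?_, fun d' hd' => ?_⟩
      · rw [map_inv₀, he, yd, inv_inv, HahnSeries.order_pow, order_tt]
        simp
      · rw [ord_inv, h.ord_none]
        rfl
      · rw [ord_inv] at hd'
        exact h.inj (h.eq_none (by omega))
  obtain ⟨k, c, hc, hk, hkc⟩ := exists_nord_comap (nord_VS (K := ℂ)) e ⟨z, by rw [hz]; exact hK'⟩
  have hO : ∀ a, algebraMap ℂ F a ∈ (VS ℂ).comap e := by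
    intro a
    rw [ValuationSubring.mem_comap, heC, mem_VS]
    exact Or.inr HahnSeries.order_C.ge
  have hz0 : z ≠ 0 := by
    rintro rfl
    rw [map_zero, HahnSeries.order_zero] at hz
    exact hK' hz.symm
  have hne : (VS ℂ).comap e ≠ ⊤ := by
    intro htop
    have h1 : z⁻¹ ∈ (VS ℂ).comap e := by rw [htop]; exact ValuationSubring.mem_top _
    rw [hk.mem] at h1
    have h2 := h1.resolve_left (inv_ne_zero hz0)
    rw [hk.inv] at h2
    have h3 := hkc z
    rw [hz] at h3
    have h4 : k z ≤ 0 := by omega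
    have h5 : c * k z ≤ 0 := mul_nonpos_of_nonneg_of_nonpos hc.le h4
    have h6 : (0 : ℤ) < K := by exact_mod_cast hK
    omega
  obtain ⟨d', hd'⟩ := h.exists_Q _ hO hne
  have h1 : ord (h.Q d') = k := ord_eq_of_nord _ (by rw [hd']; exact hk)
  have h2 : 0 < ord (h.Q d') z := by
    rw [h1]
    have h3 := hkc z
    rw [hz] at h3
    by_contra hcon
    have h5 : c * k z ≤ 0 := mul_nonpos_of_nonneg_of_nonpos hc.le (not_lt.1 hcon)
    have h6 : (0 : ℤ) < K := by exact_mod_cast hK
    omega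
  have h3 := hzd.2 d' h2
  subst h3
  refine ⟨fun r => ?_, hd'.symm⟩
  have h4 : c = K := by
    have h5 := hkc z
    rw [hz, ← h1, hzd.1, mul_one] at h5
    exact h5.symm
  rw [hkc, h4, h1]

/-! ### the comparison of the two embeddings of a vertex -/

/-- extension to the fraction field -/
def liftLS {F : Type*} [Field F] (g : R2 →+* LaurentSeries F) (hg : Function.Injective g) :
    L0 →+* LaurentSeries F := IsFractionRing.lift hg

theorem liftLS_algebraMap {F : Type*} [Field F] (g : R2 →+* LaurentSeries F)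
    (hg : Function.Injective g) (x : R2) : liftLS g hg (algebraMap R2 L0 x) = g x :=
  IsFractionRing.lift_algebraMap hg x

/-- the embedding `Frac ℂ[[a, b]] → ℂ((b))((a))` -/
def ja : L0 →+* OM := liftLS sA sA_injective

theorem ja_algebraMap (g : R2) : ja (algebraMap R2 L0 g) = sA g :=
  liftLS_algebraMap sA sA_injective g

theorem ja_unique {J : L0 →+* OM} (hJ : ∀ g : R2, J (algebraMap R2 L0 g) = sA g) : J = ja :=
  hom_ext_L0 (F := OM) fun g => by rw [hJ, ja_algebraMap]

variable {H : ℂ × ℂ → ℂ} (T : Tree H)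

open Classical in
/-- the shear of the place -/
def Tree.phd (w : List (Option ℂ)) (d : Option ℂ) : ℂ → ℂ :=
  if T.kap w d = 0 then phi H (d :: w) else fun _ => 0

namespace Tree

theorem notMem_of_kap {w : List (Option ℂ)} {d : Option ℂ} (h : T.kap w d = 0) :
    d :: w ∉ T.C := by
  intro h1
  rw [T.kap_of_mem h1] at h
  omega

theorem an_phd {w : List (Option ℂ)} (hw : w ∈ T.C) (d : Option ℂ) :
    AnalyticAt ℂ (T.phd w d) 0 := by
  unfold phd
  split_ifs with h
  · exact T.analyticAt_phi hw (T.notMem_of_kap h)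
  · exact analyticAt_const

theorem phd_zero {w : List (Option ℂ)} (hw : w ∈ T.C) (d : Option ℂ) : T.phd w d 0 = 0 := by
  unfold phd
  split_ifs with h
  · exact T.phi_zero hw (T.notMem_of_kap h)
  · rfl

theorem tk_Th (w : List (Option ℂ)) (d : Option ℂ) (K : ℕ) (q : ℂ × ℂ) :
    tk (T.Th w d) K q = psi w (bl d (shK (T.kap w d) K (T.phd w d) q)) := by
  rw [tk, Th, psi_cons, shK, phd]
  congr 3
  simp only
  congr 1
  split_ifs <;> rfl

variable {w : List (Option ℂ)}

/-- the homomorphism of the place, for the `K`-th powers -/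
def thR (hw : w ∈ T.C) (d : Option ℂ) (K : ℕ) (hK : K ≠ 0) : R2 →ₐ[ℂ] R2 :=
  bas (tk (T.Th w d) K) (an_tk (T.analyticAt_Th hw d) hK) (tk_zero (T.Th_zero hw d) hK)

theorem thR_ser2 (hw : w ∈ T.C) (d : Option ℂ) (K : ℕ) (hK : K ≠ 0) {F : ℂ × ℂ → ℂ}
    (hF : AnalyticAt ℂ F 0) :
    T.thR hw d K hK (ser2 F) = ser2 fun q => F (T.Th w d (q.1 ^ K, q.2 ^ K)) :=
  bas_ser2 _ _ hF

theorem thR_eq (hw : w ∈ T.C) (d : Option ℂ) (K : ℕ) (hK : K ≠ 0) (g : R2) :
    T.thR hw d K hK g = bas _ (bl_shK_an d (T.kap w d) (T.an_phd hw d) (T.phd_zero hw d) hK)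
      (bl_shK_zero d (T.kap w d) (T.phd_zero hw d) hK) (psR w g) := by
  have h1 : AnalyticAt ℂ (fun q => psi w (bl d (shK (T.kap w d) K (T.phd w d) q))) 0 :=
    (analyticAt_psi w 0).comp_of_eq (bl_shK_an d (T.kap w d) (T.an_phd hw d) (T.phd_zero hw d) hK)
      (bl_shK_zero d (T.kap w d) (T.phd_zero hw d) hK)
  have h2 : psi w (bl d (shK (T.kap w d) K (T.phd w d) 0)) = 0 := by
    rw [bl_shK_zero d (T.kap w d) (T.phd_zero hw d) hK, psi_zero]
  have h3 : T.thR hw d K hK = bas (fun q => psi w (bl d (shK (T.kap w d) K (T.phd w d) q)))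
      h1 h2 := by
    unfold thR
    congr 1
    funext q
    exact T.tk_Th w d K q
  rw [h3, psR]
  exact bas_comp (analyticAt_psi w 0) (psi_zero w)
    (bl_shK_an d (T.kap w d) (T.an_phd hw d) (T.phd_zero hw d) hK)
    (bl_shK_zero d (T.kap w d) (T.phd_zero hw d) hK) h1 h2 g

/-- the abstract chart of the place -/
def ch (hw : w ∈ T.C) (d : Option ℂ) (K : ℕ) (hK : 0 < K) : Cht (LaurentSeries ℂ) :=
  chA d (T.kap w d) K hK (T.phd w d) (T.an_phd hw d) (T.phd_zero hw d)

theorem sA_thR (hw : w ∈ T.C) (d : Option ℂ) (K : ℕ) (hK : 0 < K) (g : R2) :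
    sA (T.thR hw d K hK.ne' g) = (T.ch hw d K hK).emb (psR w g) := by
  rw [thR_eq, sA_eq, Cht.emb, RingHom.comp_apply]
  rfl

theorem thR_injective (hw : w ∈ T.C) (d : Option ℂ) (K : ℕ) (hK : K ≠ 0) :
    Function.Injective (T.thR hw d K hK) := by
  intro g g' h
  have h1 := congrArg sA h
  rw [T.sA_thR hw d K (Nat.pos_of_ne_zero hK), T.sA_thR hw d K (Nat.pos_of_ne_zero hK)] at h1
  exact psR_injective w ((T.ch hw d K (Nat.pos_of_ne_zero hK)).emb_injective h1)

/-- the embedding of the field of the base given by the place, for the `K`-th powers -/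
def thL (hw : w ∈ T.C) (d : Option ℂ) (K : ℕ) (hK : K ≠ 0) : L0 →+* L0 :=
  IsFractionRing.lift (A := R2) (g := (algebraMap R2 L0).comp (T.thR hw d K hK : R2 →+* R2))
    ((IsFractionRing.injective R2 L0).comp (T.thR_injective hw d K hK))

theorem thL_algebraMap (hw : w ∈ T.C) (d : Option ℂ) (K : ℕ) (hK : K ≠ 0) (g : R2) :
    T.thL hw d K hK (algebraMap R2 L0 g) = algebraMap R2 L0 (T.thR hw d K hK g) :=
  IsFractionRing.lift_algebraMap _ g

/-- characterization -/
theorem thL_unique (hw : w ∈ T.C) (d : Option ℂ) (K : ℕ) (hK : K ≠ 0) {θ : L0 →+* L0}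
    (hθ : ∀ g : R2, θ (algebraMap R2 L0 g) = algebraMap R2 L0 (T.thR hw d K hK g)) :
    θ = T.thL hw d K hK := hom_ext_L0 fun g => by rw [hθ, thL_algebraMap]

theorem thL_C (hw : w ∈ T.C) (d : Option ℂ) (K : ℕ) (hK : K ≠ 0) (c : ℂ) :
    T.thL hw d K hK (algebraMap ℂ L0 c) = algebraMap ℂ L0 c := by
  rw [algebraMap_L0, thL_algebraMap]
  have h := (T.thR hw d K hK).commutes c
  rw [MvPowerSeries.algebraMap_apply] at h
  exact congrArg _ h

theorem ja_thL (hw : w ∈ T.C) (d : Option ℂ) (K : ℕ) (hK : 0 < K) (x : L0) :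
    ja (T.thL hw d K hK.ne' x) = (T.ch hw d K hK).j L0 (psL w x) := by
  have h : ja.comp (T.thL hw d K hK.ne') = ((T.ch hw d K hK).j L0).comp (psL w) :=
    hom_ext_L0 (F := OM) fun g => by
      rw [RingHom.comp_apply, RingHom.comp_apply, thL_algebraMap, ja_algebraMap, psL_algebraMap,
        Cht.j_algebraMap, sA_thR]
  exact RingHom.congr_fun h x

/-- **the order along the curve** -/
theorem order_thL (hw : w ∈ T.C) (d : Option ℂ) (K : ℕ) (hK : 0 < K) (x : L0) :
    (ja (T.thL hw d K hK.ne' x)).order = K * vw w x := by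
  by_cases hx : x = 0
  · rw [hx, map_zero, map_zero, HahnSeries.order_zero, (nord_vw w).zero, mul_zero]
  rw [ja_thL _ hw d K hK]
  exact (chA_compare d (T.kap w d) K hK (T.phd w d) (T.an_phd hw d) (T.phd_zero hw d)
    ((map_ne_zero (psL w)).2 hx)).1

/-- **the leading coefficient** -/
theorem lead_thL (hw : w ∈ T.C) (d : Option ℂ) (K : ℕ) (hK : 0 < K) {x : L0} (hx : x ≠ 0) :
    (ja (T.thL hw d K hK.ne' x)).leadingCoeff =
      ((tt ^ K) ^ kd d (T.kap w d)) ^ vw w x * evd d K hK (iw w x).leadingCoeff := by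
  rw [ja_thL _ hw d K hK]
  exact (chA_compare d (T.kap w d) K hK (T.phd w d) (T.an_phd hw d) (T.phd_zero hw d)
    ((map_ne_zero (psL w)).2 hx)).2

/-- **the two orders** -/
theorem lam_thL (hw : w ∈ T.C) (d : Option ℂ) (K : ℕ) (hK : 0 < K) {x : L0} (hx : x ≠ 0) :
    lam (ja (T.thL hw d K hK.ne' x)) = (K * vw w x,
      K * kd d (T.kap w d) * vw w x + (evd d K hK (iw w x).leadingCoeff).order) := by
  have h1 : (iw w x).leadingCoeff ≠ 0 :=
    HahnSeries.leadingCoeff_ne_zero.2 ((map_ne_zero _).2 hx)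
  have h2 : evd d K hK (iw w x).leadingCoeff ≠ 0 := (map_ne_zero _).2 h1
  have h3 : ∀ (z : LaurentSeries ℂ) (m : ℤ), z ≠ 0 → (z ^ m).order = m * z.order := by
    intro z m hz
    exact (nord_VS (K := ℂ)).zpow z m
  have h4 : (tt ^ K) ^ kd d (T.kap w d) ≠ 0 := pow_ne_zero _ (pow_ne_zero _ tt_ne)
  unfold lam
  rw [T.order_thL hw d K hK, T.lead_thL hw d K hK hx,
    HahnSeries.order_mul (zpow_ne_zero _ h4) h2, h3 _ _ h4, HahnSeries.order_pow,
    HahnSeries.order_pow, order_tt]
  simp only [nsmul_eq_mul, mul_one]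
  congr 2
  ring

/-- on the ring of the vertex, the constant coefficient is the evaluation of the residue -/
theorem coeff_thL (hw : w ∈ T.C) (d : Option ℂ) (K : ℕ) (hK : 0 < K) (x : W w) :
    (ja (T.thL hw d K hK.ne' x)).coeff 0 = evd d K hK ((rhow w).ρ x) := by
  by_cases hx : (x : L0) = 0
  · have h1 : x = 0 := Subtype.ext hx
    rw [hx, h1, map_zero, map_zero, map_zero, map_zero]
    rfl
  have h1 : 0 ≤ vw w x := (((nord_vw w).mem _).1 x.2).resolve_left hx
  rcases h1.eq_or_lt with h2 | h2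
  · have h3 := T.lead_thL hw d K hK hx
    rw [← h2, zpow_zero, one_mul] at h3
    have h4 : (ja (T.thL hw d K hK.ne' x)).order = 0 := by
      rw [T.order_thL hw d K hK, ← h2, mul_zero]
    rw [HahnSeries.leadingCoeff_eq, h4] at h3
    rw [h3, rhow_apply]
    congr 1
    rw [HahnSeries.leadingCoeff_eq]
    have h5 : (iw w x).order = 0 := h2.symm
    rw [h5]
  · have h3 : 0 < (ja (T.thL hw d K hK.ne' x)).order := by
      rw [T.order_thL hw d K hK]
      have : (0 : ℤ) < K := by exact_mod_cast hK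
      positivity
    have h4 : (rhow w).ρ x = 0 := by
      rw [(rhow w).ker, (nord_vw w).val_lt_one hx]
      exact h2
    rw [h4, map_zero]
    exact HahnSeries.coeff_eq_zero_of_lt_order h3

/-- the uniformizer of the vertex -/
theorem lam_a (hw : w ∈ T.C) (d : Option ℂ) (K : ℕ) (hK : 0 < K) :
    lam (ja (T.thL hw d K hK.ne' (ab w).1)) = ((K : ℤ), ((K * kd d (T.kap w d) : ℕ) : ℤ)) := by
  rw [T.lam_thL hw d K hK (ab_ne w).1, vw_a, iw_a, HahnSeries.leadingCoeff_of_single, map_one,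
    HahnSeries.order_one]
  push_cast
  simp

/-- the places where the uniformizer has second order zero -/
theorem kd_eq_zero (w : List (Option ℂ)) (d : Option ℂ) :
    kd d (T.kap w d) = 0 ↔ d ≠ none ∧ d :: w ∉ T.C := by
  cases d with
  | none => simp [kd]
  | some c =>
    simp only [kd, ne_eq, reduceCtorEq, not_false_eq_true, true_and]
    constructor
    · exact T.notMem_of_kap
    · exact T.kap_of_notMem

theorem kd_fin (w : List (Option ℂ)) : {d | kd d (T.kap w d) ≠ 0}.Finite := by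
  have h1 : {d | kd d (T.kap w d) ≠ 0} ⊆
      insert none ((fun v : List (Option ℂ) => v.headD none) '' (T.C : Set (List (Option ℂ)))) := by
    intro d hd
    rw [Set.mem_ofPred_eq, Ne, kd_eq_zero] at hd
    push Not at hd
    by_cases h2 : d = none
    · exact Or.inl h2
    · exact Or.inr ⟨d :: w, hd h2, rfl⟩
  exact (((Finset.finite_toSet T.C).image _).insert none).subset h1

end Tree

/-! ### nodes -/

open Vale.Agent.P298.H707 in
/-- **at a node the two embeddings are exchanged** -/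
theorem thR_swap {T : Tree H} (hH0 : H 0 = 0) {i j : PlT T} (h : NodeT i j) (K : ℕ) (hK : K ≠ 0)
    (g : R2) : T.thR j.1.2 j.2 K hK g = sw (T.thR i.1.2 i.2 K hK g) := by
  have h2 : T.thR j.1.2 j.2 K hK = sw.comp (T.thR i.1.2 i.2 K hK) := by
    refine algHom_ext fun k => ?_
    rw [AlgHom.comp_apply]
    have h3 : ∀ q : ℂ × ℂ, T.Th j.1 j.2 (q.1 ^ K, q.2 ^ K) = T.Th i.1 i.2 (q.2 ^ K, q.1 ^ K) :=
      fun q => h.swap hH0 (q.1 ^ K, q.2 ^ K)
    have h4 := an_tk (T.analyticAt_Th i.1.2 i.2) hK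
    fin_cases k
    · change T.thR j.1.2 j.2 K hK (MvPowerSeries.X 0) =
        sw (T.thR i.1.2 i.2 K hK (MvPowerSeries.X 0))
      rw [← ser2_fst, T.thR_ser2 _ _ _ _ analyticAt_fst, T.thR_ser2 _ _ _ _ analyticAt_fst]
      refine Eq.trans ?_ (sw_ser2 (analyticAt_fst_apply h4)).symm
      simp only [h3]
      rfl
    · change T.thR j.1.2 j.2 K hK (MvPowerSeries.X 1) =
        sw (T.thR i.1.2 i.2 K hK (MvPowerSeries.X 1))
      rw [← ser2_snd, T.thR_ser2 _ _ _ _ analyticAt_snd, T.thR_ser2 _ _ _ _ analyticAt_snd]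
      refine Eq.trans ?_ (sw_ser2 (analyticAt_snd_apply h4)).symm
      simp only [h3]
      rfl
  exact DFunLike.congr_fun h2 g

end Vale.Agent.P298.H928
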